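import Vale.Agent.Lib.P170T.Chain

/-!
# Module KSAT: the cut chain of random k-SAT. See notes/P170T_blueprint.md, part B.
-/

open Finset Filter Topology

namespace Vale.Agent.Lib.P170T

open Vale.Agent.Lib.P170 Vale.Agent.Lib.P170B

variable {k n : ℕ}

lemma surv_ksat (hn : k ≤ n) (m : ℕ) :
    surv (satSet : ProperClause k n → _) Finset.univ m = satProb k n m :=
  opG_pow_eval hn m

lemma decay_ksat (hk : 1 ≤ k) (hn : k ≤ n) :
    Decay (satSet : ProperClause k n → _) (2 ^ n) (1 - (1 / 2 : ℝ) ^ k) where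
  rho_nonneg := by
    have : (1 / 2 : ℝ) ^ k ≤ 1 := pow_le_one₀ (by norm_num) (by norm_num)
    linarith
  rho_lt := by
    have : (0 : ℝ) < (1 / 2 : ℝ) ^ k := by positivity
    linarith
  bound m := by
    rw [surv_ksat hn]
    exact satProb_first_moment (Nat.choose_pos hn).ne' m

lemma life_ksat (hn : k ≤ n) :
    life (satSet : ProperClause k n → _) Finset.univ = tau k n := by
  unfold life tau
  exact tsum_congr (surv_ksat hn)

lemma summable_satProb (hk : 1 ≤ k) (hn : k ≤ n) : Summable (satProb k n) := by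
  haveI := nonempty_clause hn
  have h := summable_surv (decay_ksat hk hn) Finset.univ
  have e : surv (satSet : ProperClause k n → _) Finset.univ = satProb k n :=
    funext (surv_ksat hn)
  rwa [e] at h

/-- `(1 - 2^{-k})^{2^k} ≤ 1/2`. -/
lemma rho_pow_le (k : ℕ) : (1 - (1 / 2 : ℝ) ^ k) ^ (2 ^ k) ≤ 1 / 2 := by
  set x : ℝ := (1 / 2 : ℝ) ^ k with hx
  have hx0 : 0 < x := by positivity
  have hx1 : x ≤ 1 := pow_le_one₀ (by norm_num) (by norm_num)
  have hNx : ((2 ^ k : ℕ) : ℝ) * x = 1 := by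
    rw [hx]
    push_cast
    rw [← mul_pow]
    norm_num
  have h1 : 2 ≤ (1 + x) ^ (2 ^ k) := by
    have := one_add_mul_le_pow (a := x) (by linarith) (2 ^ k)
    rw [hNx] at this
    linarith
  have h2 : ((1 - x) * (1 + x)) ^ (2 ^ k) ≤ 1 := by
    apply pow_le_one₀
    · have : 0 ≤ 1 - x := by linarith
      positivity
    · nlinarith
  rw [mul_pow] at h2
  have h3 : 0 ≤ (1 - x) ^ (2 ^ k) := by
    have : 0 ≤ 1 - x := by linarith
    positivity
  nlinarith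

lemma two_pow_mul_rho_le (k n : ℕ) :
    (2 : ℝ) ^ n * (1 - (1 / 2 : ℝ) ^ k) ^ (2 ^ k * n) ≤ 1 := by
  have h0 : 0 ≤ 1 - (1 / 2 : ℝ) ^ k := by
    have : (1 / 2 : ℝ) ^ k ≤ 1 := pow_le_one₀ (by norm_num) (by norm_num)
    linarith
  rw [pow_mul]
  have h1 : ((1 - (1 / 2 : ℝ) ^ k) ^ (2 ^ k)) ^ n ≤ (1 / 2 : ℝ) ^ n :=
    pow_le_pow_left₀ (by positivity) (rho_pow_le k) n
  have h2 : (2 : ℝ) ^ n * (1 / 2 : ℝ) ^ n = 1 := by
    rw [← mul_pow]
    norm_num
  calc (2 : ℝ) ^ n * ((1 - (1 / 2 : ℝ) ^ k) ^ (2 ^ k)) ^ n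
      ≤ (2 : ℝ) ^ n * (1 / 2 : ℝ) ^ n := by
        apply mul_le_mul_of_nonneg_left h1
        positivity
    _ = 1 := h2

/-- After the first moment time the survival probability decays geometrically, with constant one. -/
lemma satProb_shift_le (hn : k ≤ n) (r : ℕ) :
    satProb k n (r + 2 ^ k * n) ≤ (1 - (1 / 2 : ℝ) ^ k) ^ r := by
  have h0 : 0 ≤ 1 - (1 / 2 : ℝ) ^ k := by
    have : (1 / 2 : ℝ) ^ k ≤ 1 := pow_le_one₀ (by norm_num) (by norm_num)
    linarith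
  have h1 := satProb_first_moment (k := k) (n := n) (Nat.choose_pos hn).ne' (r + 2 ^ k * n)
  refine h1.trans ?_
  rw [pow_add]
  have h2 := two_pow_mul_rho_le k n
  have h3 : 0 ≤ (1 - (1 / 2 : ℝ) ^ k) ^ r := by positivity
  nlinarith

lemma rho_lt_one (k : ℕ) : 1 - (1 / 2 : ℝ) ^ k < 1 := by
  have : (0 : ℝ) < (1 / 2 : ℝ) ^ k := by positivity
  linarith

lemma rho_nonneg (k : ℕ) : 0 ≤ 1 - (1 / 2 : ℝ) ^ k := by
  have : (1 / 2 : ℝ) ^ k ≤ 1 := pow_le_one₀ (by norm_num) (by norm_num)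
  linarith

lemma tsum_rho (k : ℕ) : ∑' r : ℕ, (1 - (1 / 2 : ℝ) ^ k) ^ r = 2 ^ k := by
  rw [tsum_geometric_of_lt_one (rho_nonneg k) (rho_lt_one k)]
  have : (1 : ℝ) - (1 - (1 / 2 : ℝ) ^ k) = (1 / 2 : ℝ) ^ k := by ring
  rw [this, ← inv_pow]
  norm_num

/-- First moment: `(1-2^{-k})^{2^k n} ≤ 2^{-n}`. -/
lemma tau_le (hk : 1 ≤ k) (hn : k ≤ n) : tau k n ≤ 2 ^ k * n + 2 ^ k := by
  have hs := summable_satProb hk hn
  have hsplit := hs.sum_add_tsum_nat_add (2 ^ k * n)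
  unfold tau
  rw [← hsplit]
  have h1 : ∑ i ∈ range (2 ^ k * n), satProb k n i ≤ 2 ^ k * n := by
    calc ∑ i ∈ range (2 ^ k * n), satProb k n i ≤ ∑ _i ∈ range (2 ^ k * n), (1 : ℝ) :=
          Finset.sum_le_sum (fun i _ => satProb_le_one k n i)
      _ = 2 ^ k * n := by simp
  have hgeo : Summable (fun r : ℕ => (1 - (1 / 2 : ℝ) ^ k) ^ r) :=
    summable_geometric_of_lt_one (rho_nonneg k) (rho_lt_one k)
  have h2 : ∑' r, satProb k n (r + 2 ^ k * n) ≤ 2 ^ k := by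
    rw [← tsum_rho k]
    exact ((summable_nat_add_iff (2 ^ k * n)).2 hs).tsum_le_tsum (satProb_shift_le hn) hgeo
  linarith

lemma tau_nonneg (k n : ℕ) : 0 ≤ tau k n := tsum_nonneg (satProb_nonneg k n)

/-- `τ ≥ (J+1) P(J)` because `P` is antitone. -/
lemma tau_ge (hk : 1 ≤ k) (hn : k ≤ n) (J : ℕ) : ((J : ℝ) + 1) * satProb k n J ≤ tau k n := by
  have hs := summable_satProb hk hn
  have h1 : ∑ i ∈ range (J + 1), satProb k n i ≤ tau k n :=
    hs.sum_le_tsum _ (fun i _ => satProb_nonneg k n i)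
  have h2 : ∑ _i ∈ range (J + 1), satProb k n J ≤ ∑ i ∈ range (J + 1), satProb k n i :=
    Finset.sum_le_sum (fun i hi =>
      satProb_antitone (card_pos_of_le hn) (by have := Finset.mem_range.1 hi; omega))
  simp only [Finset.sum_const, Finset.card_range, nsmul_eq_mul] at h2
  push_cast at h2
  linarith

lemma frzAt_nonneg (v : Fin n) (S : Finset (Fin n → Bool)) : 0 ≤ frzAt v S := by
  unfold frzAt
  split_ifs <;> norm_num

lemma frzAt_le_one (v : Fin n) (S : Finset (Fin n → Bool)) : frzAt v S ≤ 1 := by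
  unfold frzAt
  split_ifs <;> norm_num

lemma frz_nonneg (S : Finset (Fin n → Bool)) : 0 ≤ frz n S := by
  unfold frz
  exact div_nonneg (Finset.sum_nonneg (fun v _ => frzAt_nonneg v S)) (Nat.cast_nonneg _)

lemma frz_le_one (S : Finset (Fin n → Bool)) : frz n S ≤ 1 := by
  unfold frz
  rcases Nat.eq_zero_or_pos n with rfl | hn
  · simp
  · have hn' : (0 : ℝ) < n := by exact_mod_cast hn
    rw [div_le_one hn']
    calc ∑ v : Fin n, frzAt v S ≤ ∑ _v : Fin n, (1 : ℝ) :=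
          Finset.sum_le_sum (fun v _ => frzAt_le_one v S)
      _ = n := by simp

lemma frz_empty : frz n (∅ : Finset (Fin n → Bool)) = 0 := by
  unfold frz frzAt
  simp

open Classical in
/-- The frozen fraction in terms of the frozen set. -/
lemma frz_eq_card {S : Finset (Fin n → Bool)} {σ₀ : Fin n → Bool} (h₀ : σ₀ ∈ S) :
    frz n S = ((frozen S σ₀).card : ℝ) / n := by
  unfold frz
  congr 1
  have h : ∀ v : Fin n, frzAt v S = if v ∈ frozen S σ₀ then 1 else 0 := by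
    intro v
    unfold frzAt
    have hiff : (S.Nonempty ∧ ∀ σ ∈ S, ∀ σ' ∈ S, σ v = σ' v) ↔ v ∈ frozen S σ₀ := by
      simp only [frozen, Finset.mem_filter, Finset.mem_univ, true_and]
      constructor
      · rintro ⟨_, h⟩ σ hσ
        exact h σ hσ σ₀ h₀
      · intro h
        exact ⟨⟨σ₀, h₀⟩, fun σ hσ σ' hσ' => (h σ hσ).trans (h σ' hσ').symm⟩
    by_cases hv : v ∈ frozen S σ₀
    · rw [if_pos (hiff.2 hv), if_pos hv]
    · rw [if_neg (fun h => hv (hiff.1 h)), if_neg hv]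
  simp only [h]
  rw [Finset.sum_boole]
  congr 2
  ext v
  simp

/-- Hazard: `h(S) ≤ (f(S)/2)^k`, by `kill_global_le` and `choose_div_le`. -/
lemma haz_le_frz (hk : 1 ≤ k) (hn : k ≤ n) {S : Finset (Fin n → Bool)} (hS : S.Nonempty) :
    haz (satSet : ProperClause k n → _) S ≤ (frz n S / 2) ^ k := by
  classical
  obtain ⟨σ₀, h₀⟩ := hS
  rw [frz_eq_card h₀]
  set b := (frozen S σ₀).card with hb
  have hbn : b ≤ n := by
    have := Finset.card_le_univ (frozen S σ₀)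
    simpa using this
  unfold haz
  rw [card_clause]
  have hc : (0 : ℝ) < (n.choose k : ℝ) := by exact_mod_cast Nat.choose_pos hn
  have h1 : ((Finset.univ.filter (fun C : ProperClause k n => S ∩ satSet C = ∅)).card : ℝ) ≤
      (b.choose k : ℝ) := by
    have := kill_global_le (k := k) h₀
    exact_mod_cast this
  have h2 := choose_div_le (k := k) hbn hn
  push_cast
  have h3 : ((b : ℝ) / n / 2) ^ k = ((b : ℝ) / n) ^ k * (1 / 2) ^ k := by
    rw [← mul_pow]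
    congr 1
    ring
  rw [h3]
  have h4 : (0 : ℝ) < 2 ^ k := by positivity
  have h5 : ((2 : ℝ) ^ k)⁻¹ = (1 / 2) ^ k := by
    rw [← inv_pow]
    norm_num
  calc ((Finset.univ.filter (fun C : ProperClause k n => S ∩ satSet C = ∅)).card : ℝ) /
        ((n.choose k : ℝ) * 2 ^ k)
      ≤ (b.choose k : ℝ) / ((n.choose k : ℝ) * 2 ^ k) := by
        apply div_le_div_of_nonneg_right h1
        positivity
    _ = (b.choose k : ℝ) / (n.choose k : ℝ) * (1 / 2) ^ k := by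
        rw [← h5]
        field_simp
    _ ≤ ((b : ℝ) / n) ^ k * (1 / 2) ^ k := by
        apply mul_le_mul_of_nonneg_right h2
        positivity

/-- `g ≤ 2 min(1, h τ) ≤ ϑ f` as soon as `τ ≤ ϑ^3` and `k ≥ 3`. -/
lemma gfun_le_frz (hk : 3 ≤ k) (hn : k ≤ n) {ϑ : ℝ} (hϑ0 : 0 ≤ ϑ) (hϑ : tau k n ≤ ϑ ^ 3)
    (S : Finset (Fin n → Bool)) :
    gfun (satSet : ProperClause k n → _) S ≤ ϑ * frz n S := by
  classical
  haveI := nonempty_clause hn
  have hdec := decay_ksat (k := k) (n := n) (by omega) hn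
  by_cases hS : S.Nonempty
  · have hg : gfun (satSet : ProperClause k n → _) S =
        haz (satSet : ProperClause k n → _) S * (2 * life (satSet : ProperClause k n → _) S - 1) := by
      unfold gfun
      rw [if_pos hS]
    rw [hg]
    set h := haz (satSet : ProperClause k n → _) S with hh
    set L := life (satSet : ProperClause k n → _) S with hL
    have hh0 : 0 ≤ h := by
      rw [hh]
      unfold haz
      positivity
    have hL1 : 1 ≤ L := one_le_life hdec hS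
    have hhL : h * L ≤ 1 := haz_mul_life_le_one hdec hS
    have hLτ : L ≤ tau k n := by
      rw [← life_ksat hn]
      exact life_mono hdec (Finset.subset_univ S)
    have hhz := haz_le_frz (k := k) (by omega) hn hS
    set f := frz n S with hf
    have hf0 : 0 ≤ f := frz_nonneg S
    have hf1 : f ≤ 1 := frz_le_one S
    have hle : h * (2 * L - 1) ≤ 2 * (h * L) := by nlinarith
    refine hle.trans ?_
    by_cases hx : 1 ≤ f / 2 * ϑ
    · nlinarith
    · push Not at hx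
      have hy0 : 0 ≤ f / 2 := by positivity
      have hy1 : f / 2 ≤ 1 := by linarith
      have h3 : (f / 2) ^ k ≤ (f / 2) ^ 3 := pow_le_pow_of_le_one hy0 hy1 hk
      have h4 : h * L ≤ (f / 2) ^ 3 * ϑ ^ 3 := by
        calc h * L ≤ (f / 2) ^ 3 * L := mul_le_mul_of_nonneg_right (hhz.trans h3) (by linarith)
          _ ≤ (f / 2) ^ 3 * ϑ ^ 3 := mul_le_mul_of_nonneg_left (hLτ.trans hϑ) (by positivity)
      have hx0 : 0 ≤ f / 2 * ϑ := by positivity
      have h5 : (f / 2) ^ 3 * ϑ ^ 3 = (f / 2 * ϑ) ^ 3 := by ring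
      have h6 : (f / 2 * ϑ) ^ 3 ≤ f / 2 * ϑ := by
        have : (f / 2 * ϑ) ^ 3 = (f / 2 * ϑ) * (f / 2 * ϑ) ^ 2 := by ring
        rw [this]
        have h7 : (f / 2 * ϑ) ^ 2 ≤ 1 := by nlinarith
        nlinarith
      rw [h5] at h4
      nlinarith
  · have hemp : S = ∅ := Finset.not_nonempty_iff_eq_empty.1 hS
    subst hemp
    rw [frz_empty]
    unfold gfun
    simp

/-- The tail of the variance potential. -/
lemma tail_ksat (hk : 1 ≤ k) (hn : k ≤ n) :
    ∑' r : ℕ, ((r : ℝ) + ((2 ^ k * n : ℕ) : ℝ) + 1) *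
        surv (satSet : ProperClause k n → _) Finset.univ (r + 2 ^ k * n) ≤
      ((2 : ℝ) ^ k * n + 1) * 2 ^ k + 4 ^ k := by
  set ρ : ℝ := 1 - (1 / 2 : ℝ) ^ k with hρ
  set M : ℝ := ((2 ^ k * n : ℕ) : ℝ) with hM
  have hM0 : 0 ≤ M := Nat.cast_nonneg _
  have hρ0 : 0 ≤ ρ := rho_nonneg k
  have hρ1 : ρ < 1 := rho_lt_one k
  have hnorm : ‖ρ‖ < 1 := by
    rw [Real.norm_eq_abs, abs_of_nonneg hρ0]
    exact hρ1
  have hs1 : Summable (fun r : ℕ => (r : ℝ) * ρ ^ r) := by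
    have := summable_pow_mul_geometric_of_norm_lt_one (R := ℝ) 1 hnorm
    simpa using this
  have hs2 : Summable (fun r : ℕ => ρ ^ r) := summable_geometric_of_lt_one hρ0 hρ1
  have hsum : Summable (fun r : ℕ => ((r : ℝ) + M + 1) * ρ ^ r) := by
    have : (fun r : ℕ => ((r : ℝ) + M + 1) * ρ ^ r) =
        fun r : ℕ => (r : ℝ) * ρ ^ r + (M + 1) * ρ ^ r := by
      funext r
      ring
    rw [this]
    exact hs1.add (hs2.mul_left _)
  have hterm : ∀ r : ℕ, ((r : ℝ) + M + 1) *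
      surv (satSet : ProperClause k n → _) Finset.univ (r + 2 ^ k * n) ≤ ((r : ℝ) + M + 1) * ρ ^ r := by
    intro r
    rw [surv_ksat hn]
    apply mul_le_mul_of_nonneg_left (satProb_shift_le hn r)
    positivity
  have hnn : ∀ r : ℕ, 0 ≤ ((r : ℝ) + M + 1) *
      surv (satSet : ProperClause k n → _) Finset.univ (r + 2 ^ k * n) := by
    intro r
    rw [surv_ksat hn]
    exact mul_nonneg (by positivity) (satProb_nonneg _ _ _)
  have hsL := Summable.of_nonneg_of_le hnn hterm hsum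
  refine (hsL.tsum_le_tsum hterm hsum).trans ?_
  have e1 : ∑' r : ℕ, ((r : ℝ) + M + 1) * ρ ^ r =
      ∑' r : ℕ, (r : ℝ) * ρ ^ r + (M + 1) * ∑' r : ℕ, ρ ^ r := by
    rw [← tsum_mul_left, ← hs1.tsum_add (hs2.mul_left _)]
    exact tsum_congr (fun r => by ring)
  rw [e1, tsum_coe_mul_geometric_of_norm_lt_one hnorm, tsum_rho k]
  have e2 : (1 : ℝ) - ρ = (1 / 2 : ℝ) ^ k := by rw [hρ]; ring
  rw [e2]
  have e3 : ρ / ((1 / 2 : ℝ) ^ k) ^ 2 = ρ * 4 ^ k := by
    have h4 : (4 : ℝ) ^ k = (2 ^ k) ^ 2 := by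
      rw [← pow_mul, mul_comm, pow_mul]
      norm_num
    have h5 : ((1 / 2 : ℝ) ^ k) = ((2 : ℝ) ^ k)⁻¹ := by
      rw [← inv_pow]
      norm_num
    rw [h4, h5]
    field_simp
  rw [e3]
  have hMe : M = (2 : ℝ) ^ k * n := by
    rw [hM]
    push_cast
    ring
  rw [hMe]
  have h4pos : (0 : ℝ) ≤ 4 ^ k := by positivity
  have hρ1' : ρ ≤ 1 := hρ1.le
  nlinarith

/-- The variance potential of random k-SAT. -/
theorem Zfun_ksat_le (hk : 3 ≤ k) (hn : k ≤ n) {ϑ : ℝ} (hϑ0 : 0 ≤ ϑ) (hϑ : tau k n ≤ ϑ ^ 3) :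
    Zfun (satSet : ProperClause k n → _) Finset.univ ≤
      (2 : ℝ) ^ k * n * ϑ * frzSum k n + 2 ^ (k + 1) * (2 ^ k * n + 1) + 2 * 4 ^ k := by
  haveI := nonempty_clause hn
  have h1 := Zfun_split (decay_ksat (k := k) (n := n) (by omega) hn) (f := frz n) hϑ0
    frz_nonneg frz_le_one frz_empty (gfun_le_frz hk hn hϑ0 hϑ) (2 ^ k * n)
  have htail := tail_ksat (k := k) (n := n) (by omega) hn
  have e1 : (∑' r, (avgOp (satSet : ProperClause k n → _) ^ r) (frz n) Finset.univ) = frzSum k n :=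
    rfl
  rw [e1] at h1
  refine h1.trans ?_
  have e2 : (((2 ^ k * n : ℕ) : ℝ)) = (2 : ℝ) ^ k * n := by push_cast; ring
  rw [e2] at h1 htail ⊢
  have e3 : (2 : ℝ) ^ (k + 1) = 2 * 2 ^ k := by ring
  rw [e3]
  nlinarith

/-- Two sided Chebyshev for the death time of random k-SAT, in terms of `frzSum`. -/
theorem cheb_ksat_lower (hk : 3 ≤ k) (hn : k ≤ n) {ϑ : ℝ} (hϑ0 : 0 ≤ ϑ) (hϑ : tau k n ≤ ϑ ^ 3)
    (m : ℕ) (hm : (m : ℝ) ≤ tau k n) :
    (1 - satProb k n m) * (tau k n - m) ^ 2 ≤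
      (2 : ℝ) ^ k * n * ϑ * frzSum k n + 2 ^ (k + 1) * (2 ^ k * n + 1) + 2 * 4 ^ k := by
  haveI := nonempty_clause hn
  have h := cheb_lower (decay_ksat (by omega) hn) m (by rwa [life_ksat hn])
  rw [surv_ksat hn, life_ksat hn] at h
  exact h.trans (Zfun_ksat_le hk hn hϑ0 hϑ)

theorem cheb_ksat_upper (hk : 3 ≤ k) (hn : k ≤ n) {ϑ : ℝ} (hϑ0 : 0 ≤ ϑ) (hϑ : tau k n ≤ ϑ ^ 3)
    (m : ℕ) (hm : tau k n ≤ m) :
    satProb k n m * ((m : ℝ) - tau k n) ^ 2 ≤
      (2 : ℝ) ^ k * n * ϑ * frzSum k n + 2 ^ (k + 1) * (2 ^ k * n + 1) + 2 * 4 ^ k := by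
  haveI := nonempty_clause hn
  have h := cheb_upper (decay_ksat (by omega) hn) m (by rwa [life_ksat hn])
  rw [surv_ksat hn, life_ksat hn] at h
  exact h.trans (Zfun_ksat_le hk hn hϑ0 hϑ)

end Vale.Agent.Lib.P170T
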