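import Vale.Agent.Lib.P170T.Fkg
import Vale.Agent.Lib.P170T.KSat

/-!
# Module CAVITY: splitting off the last variable. See notes/P170T_blueprint.md, part A.
-/

open Finset Filter Topology

namespace Vale.Agent.Lib.P170T

open Vale.Agent.Lib.P170 Vale.Agent.Lib.P170B

variable {k n : ℕ}

/-- The first `n` variables inside the first `n+1`. -/
def eL (n : ℕ) : Fin n ↪ Fin (n + 1) := Fin.castSuccEmb

/-- Satisfying set of a clause avoiding the last variable. -/
noncomputable def phi0 (C : ProperClause k n) : Finset (Fin (n + 1) → Bool) :=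
  satSet (mapClause (eL n) C)

open Classical in
/-- Satisfying set of the clause `(last = b) ∨ R`. -/
noncomputable def phiB (b : Bool) (R : ProperClause (k - 1) n) : Finset (Fin (n + 1) → Bool) :=
  Finset.univ.filter (fun σ => σ (Fin.last n) = b ∨ R.SatBy (fun v => σ (eL n v)))

lemma cs_clause_ext {k N : ℕ} {C D : ProperClause k N} (h1 : C.1.1 = D.1.1)
    (h2 : ∀ v (a : v ∈ C.1.1) (b : v ∈ D.1.1), C.2 ⟨v, a⟩ = D.2 ⟨v, b⟩) : C = D := by
  obtain ⟨⟨S, hS⟩, f⟩ := C
  obtain ⟨⟨T, hT⟩, g⟩ := D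
  simp only at h1
  subst h1
  have h3 : f = g := by
    funext v
    exact h2 v.1 v.2 v.2
  subst h3
  rfl

lemma cs_sign_eq {k N : ℕ} {C D : ProperClause k N} (h : C = D) {v : Fin N}
    (a : v ∈ C.1.1) (b : v ∈ D.1.1) : C.2 ⟨v, a⟩ = D.2 ⟨v, b⟩ := by
  subst h
  rfl

lemma cs_last_notMem (A : Finset (Fin n)) : Fin.last n ∉ A.map (eL n) := by
  intro h
  obtain ⟨u, _, hu⟩ := Finset.mem_map.1 h
  exact (Fin.castSucc_lt_last u).ne hu

lemma cs_mem {A : Finset (Fin n)} {v : Fin (n + 1)} (hv : v ∈ insert (Fin.last n) (A.map (eL n)))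
    (h : v ≠ Fin.last n) : v.castPred h ∈ A := by
  rcases Finset.mem_insert.1 hv with h1 | h1
  · exact absurd h1 h
  · obtain ⟨u, hu, hue⟩ := Finset.mem_map.1 h1
    have : v.castPred h = u := by
      subst hue
      rfl
    rw [this]
    exact hu

/-- The clause `(last = b) ∨ R`. -/
noncomputable def cs_mk (hk : 1 ≤ k) (b : Bool) (R : ProperClause (k - 1) n) : ProperClause k (n + 1) :=
  ⟨⟨insert (Fin.last n) (R.1.1.map (eL n)), by
      rw [Finset.card_insert_of_notMem (cs_last_notMem _), Finset.card_map, R.1.2]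
      omega⟩,
    fun v => if h : v.1 = Fin.last n then b else R.2 ⟨v.1.castPred h, cs_mem v.2 h⟩⟩

lemma cs_mk_last (hk : 1 ≤ k) (b : Bool) (R : ProperClause (k - 1) n)
    (h : Fin.last n ∈ (cs_mk hk b R).1.1) : (cs_mk hk b R).2 ⟨Fin.last n, h⟩ = b := by
  simp [cs_mk]

lemma cs_mk_eL (hk : 1 ≤ k) (b : Bool) (R : ProperClause (k - 1) n) (u : Fin n) (hu : u ∈ R.1.1)
    (h : eL n u ∈ (cs_mk hk b R).1.1) : (cs_mk hk b R).2 ⟨eL n u, h⟩ = R.2 ⟨u, hu⟩ := by
  have h1 : eL n u ≠ Fin.last n := (Fin.castSucc_lt_last u).ne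
  show (if h2 : eL n u = Fin.last n then b else R.2 ⟨(eL n u).castPred h2, _⟩) = _
  rw [dif_neg h1]
  rfl

lemma cs_satSet_mk (hk : 1 ≤ k) (b : Bool) (R : ProperClause (k - 1) n) :
    satSet (cs_mk hk b R) = phiB b R := by
  ext σ
  simp only [mem_satSet, phiB, Finset.mem_filter, Finset.mem_univ, true_and]
  constructor
  · rintro ⟨⟨v, hv⟩, hs⟩
    by_cases h : v = Fin.last n
    · subst h
      left
      rw [hs]
      exact cs_mk_last hk b R hv
    · right
      have h2 := cs_mem hv h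
      refine ⟨⟨v.castPred h, h2⟩, ?_⟩
      have h3 : eL n (v.castPred h) = v := Fin.castSucc_castPred v h
      have h4 := cs_mk_eL hk b R (v.castPred h) h2 (by rw [h3]; exact hv)
      have h5 : (cs_mk hk b R).2 ⟨v, hv⟩ = (cs_mk hk b R).2 ⟨eL n (v.castPred h), by rw [h3]; exact hv⟩ := by
        congr 2
      rw [← h4, ← h5, ← hs]
      exact congrArg σ h3
  · rintro (h | ⟨⟨u, hu⟩, hs⟩)
    · have hm : Fin.last n ∈ (cs_mk hk b R).1.1 := Finset.mem_insert_self _ _
      exact ⟨⟨Fin.last n, hm⟩, by rw [cs_mk_last hk b R hm]; exact h⟩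
    · have hm : eL n u ∈ (cs_mk hk b R).1.1 :=
        Finset.mem_insert_of_mem (Finset.mem_map_of_mem _ hu)
      exact ⟨⟨eL n u, hm⟩, by rw [cs_mk_eL hk b R u hu hm]; exact hs⟩

lemma cs_mk_inj (hk : 1 ≤ k) (b : Bool) {R R' : ProperClause (k - 1) n}
    (h : cs_mk hk b R = cs_mk hk b R') : R = R' := by
  have h1 : insert (Fin.last n) (R.1.1.map (eL n)) = insert (Fin.last n) (R'.1.1.map (eL n)) :=
    congrArg (fun C : ProperClause k (n + 1) => C.1.1) h
  have h2 : R.1.1.map (eL n) = R'.1.1.map (eL n) := by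
    have h3 := congrArg (fun A => Finset.erase A (Fin.last n)) h1
    simpa [Finset.erase_insert (cs_last_notMem _)] using h3
  have h3 : R.1.1 = R'.1.1 := Finset.map_injective _ h2
  refine cs_clause_ext h3 ?_
  intro v a c
  have ha : eL n v ∈ (cs_mk hk b R).1.1 := Finset.mem_insert_of_mem (Finset.mem_map_of_mem _ a)
  have hc : eL n v ∈ (cs_mk hk b R').1.1 := Finset.mem_insert_of_mem (Finset.mem_map_of_mem _ c)
  rw [← cs_mk_eL hk b R v a ha, ← cs_mk_eL hk b R' v c hc]
  exact cs_sign_eq h ha hc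

/-- The parametrisation of the clauses on `n + 1` variables. -/
noncomputable def cs_g (hk : 1 ≤ k) :
    ProperClause k n ⊕ (ProperClause (k - 1) n ⊕ ProperClause (k - 1) n) → ProperClause k (n + 1)
  | Sum.inl C => mapClause (eL n) C
  | Sum.inr (Sum.inl R) => cs_mk hk true R
  | Sum.inr (Sum.inr R) => cs_mk hk false R

lemma cs_g_inj (hk : 1 ≤ k) : Function.Injective (cs_g (k := k) (n := n) hk) := by
  have hmap : ∀ (C : ProperClause k n), Fin.last n ∉ (mapClause (eL n) C).1.1 :=
    fun C => cs_last_notMem _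
  have hmk : ∀ (b : Bool) (R : ProperClause (k - 1) n), Fin.last n ∈ (cs_mk hk b R).1.1 :=
    fun b R => Finset.mem_insert_self _ _
  have hne : ∀ (C : ProperClause k n) (b : Bool) (R : ProperClause (k - 1) n),
      mapClause (eL n) C ≠ cs_mk hk b R := by
    intro C b R h
    exact hmap C (h ▸ hmk b R)
  have hbb : ∀ (R R' : ProperClause (k - 1) n), cs_mk hk true R ≠ cs_mk hk false R' := by
    intro R R' h
    have h1 := cs_sign_eq h (hmk true R) (hmk false R')
    rw [cs_mk_last, cs_mk_last] at h1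
    exact Bool.noConfusion h1
  rintro (C | R | R) (C' | R' | R') h <;> simp only [cs_g] at h
  · exact congrArg _ (mapClause_injective _ h)
  · exact absurd h (hne _ _ _)
  · exact absurd h (hne _ _ _)
  · exact absurd h.symm (hne _ _ _)
  · exact congrArg _ (congrArg _ (cs_mk_inj hk _ h))
  · exact absurd h (hbb _ _)
  · exact absurd h.symm (hne _ _ _)
  · exact absurd h.symm (hbb _ _)
  · exact congrArg _ (congrArg _ (cs_mk_inj hk _ h))

lemma cs_card (hk : 1 ≤ k) :
    Fintype.card (ProperClause k n ⊕ (ProperClause (k - 1) n ⊕ ProperClause (k - 1) n)) =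
      Fintype.card (ProperClause k (n + 1)) := by
  obtain ⟨j, rfl⟩ : ∃ j, k = j + 1 := ⟨k - 1, by omega⟩
  simp only [Fintype.card_sum, card_clause, Nat.add_sub_cancel, Nat.choose_succ_succ]
  ring

/-- The clauses of `n+1` variables split in three families. -/
theorem sum_clause_split (hk : 1 ≤ k) (F : Finset (Fin (n + 1) → Bool) → ℝ) :
    ∑ C : ProperClause k (n + 1), F (satSet C) =
      ∑ C : ProperClause k n, F (phi0 C) +
        ∑ R : ProperClause (k - 1) n, F (phiB true R) +
          ∑ R : ProperClause (k - 1) n, F (phiB false R) := by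
  have hbij : Function.Bijective (cs_g (k := k) (n := n) hk) :=
    (Fintype.bijective_iff_injective_and_card _).2 ⟨cs_g_inj hk, cs_card hk⟩
  rw [← (Equiv.ofBijective _ hbij).sum_comp, Fintype.sum_sum_type, Fintype.sum_sum_type, add_assoc]
  have e1 : ∀ R : ProperClause (k - 1) n,
      F (satSet ((Equiv.ofBijective _ hbij) (Sum.inr (Sum.inl R)))) = F (phiB true R) := by
    intro R
    show F (satSet (cs_mk hk true R)) = _
    rw [cs_satSet_mk]
  have e2 : ∀ R : ProperClause (k - 1) n,
      F (satSet ((Equiv.ofBijective _ hbij) (Sum.inr (Sum.inr R)))) = F (phiB false R) := by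
    intro R
    show F (satSet (cs_mk hk false R)) = _
    rw [cs_satSet_mk]
  simp only [e1, e2]
  rfl

/-- `x = (n+1-k)/(n+1)`. -/
noncomputable def xP (k n : ℕ) : ℝ := ((n : ℝ) + 1 - k) / ((n : ℝ) + 1)

/-- `z = k/(2(n+1))`. -/
noncomputable def zP (k n : ℕ) : ℝ := (k : ℝ) / (2 * ((n : ℝ) + 1))

lemma xP_add (k n : ℕ) : xP k n + 2 * zP k n = 1 := by
  unfold xP zP
  have : (n : ℝ) + 1 ≠ 0 := by positivity
  field_simp
  ring

lemma W0_eq (hn : k ≤ n) : W0 k n = 1 / xP k n := by
  unfold W0 xP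
  have h1 : (n : ℝ) + 1 ≠ 0 := by positivity
  have h2 : (k : ℝ) ≤ n := by exact_mod_cast hn
  have h3 : (n : ℝ) + 1 - k ≠ 0 := by linarith
  field_simp

lemma xP_pos (hn : k ≤ n) : 0 < xP k n := by
  unfold xP
  have h2 : (k : ℝ) ≤ n := by exact_mod_cast hn
  have h3 : 0 < (n : ℝ) + 1 - k := by linarith
  positivity

lemma zP_nonneg (k n : ℕ) : 0 ≤ zP k n := by
  unfold zP
  positivity

/-- The operators of the three clause families. -/
noncomputable def T0 (k n : ℕ) : Module.End ℝ (Finset (Fin (n + 1) → Bool) → ℝ) :=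
  avgOp (phi0 : ProperClause k n → _)

noncomputable def TB (k n : ℕ) (b : Bool) : Module.End ℝ (Finset (Fin (n + 1) → Bool) → ℝ) :=
  avgOp (phiB b : ProperClause (k - 1) n → _)

/-- Decomposition of the clause operator. -/
theorem opG_split (hk : 1 ≤ k) (hn : k ≤ n) :
    opG k (n + 1) = xP k n • T0 k n + zP k n • TB k n true + zP k n • TB k n false := by
  apply LinearMap.ext
  intro f
  funext S
  have hsp := sum_clause_split (k := k) (n := n) hk (fun X => f (S ∩ X))
  show (∑ C : ProperClause k (n + 1), f (S ∩ satSet C)) / (Fintype.card (ProperClause k (n + 1)) : ℝ) =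
    xP k n * ((∑ C : ProperClause k n, f (S ∩ phi0 C)) / (Fintype.card (ProperClause k n) : ℝ)) +
    zP k n * ((∑ R : ProperClause (k - 1) n, f (S ∩ phiB true R)) / (Fintype.card (ProperClause (k - 1) n) : ℝ)) +
    zP k n * ((∑ R : ProperClause (k - 1) n, f (S ∩ phiB false R)) / (Fintype.card (ProperClause (k - 1) n) : ℝ))
  rw [hsp]
  obtain ⟨j, rfl⟩ : ∃ j, k = j + 1 := ⟨k - 1, by omega⟩
  set A := ∑ C : ProperClause (j + 1) n, f (S ∩ phi0 C)
  set B := ∑ R : ProperClause (j + 1 - 1) n, f (S ∩ phiB true R)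
  set B' := ∑ R : ProperClause (j + 1 - 1) n, f (S ∩ phiB false R)
  simp only [card_clause, Nat.add_sub_cancel]
  have hc1 : ((n + 1).choose (j + 1) : ℝ) ≠ 0 := by
    exact_mod_cast (Nat.choose_pos (by omega)).ne'
  have hc2 : ((n).choose (j + 1) : ℝ) ≠ 0 := by
    exact_mod_cast (Nat.choose_pos (by omega)).ne'
  have hc3 : ((n).choose j : ℝ) ≠ 0 := by
    exact_mod_cast (Nat.choose_pos (by omega)).ne'
  have h1 : ((n).choose (j + 1) : ℝ) * ((n : ℝ) + 1) = ((n + 1).choose (j + 1) : ℝ) * ((n : ℝ) + 1 - ((j + 1 : ℕ) : ℝ)) := by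
    have := Nat.choose_mul_succ_eq n (j + 1)
    have h2 : ((n + 1 - (j + 1) : ℕ) : ℝ) = (n : ℝ) + 1 - ((j + 1 : ℕ) : ℝ) := by
      rw [Nat.cast_sub (by omega)]
      push_cast
      ring
    rw [← h2]
    exact_mod_cast this
  have h3 : ((n : ℝ) + 1) * ((n).choose j : ℝ) = ((n + 1).choose (j + 1) : ℝ) * ((j : ℝ) + 1) := by
    exact_mod_cast Nat.add_one_mul_choose_eq n j
  have hn1 : (n : ℝ) + 1 ≠ 0 := by positivity
  have hx : xP (j + 1) n = ((n).choose (j + 1) : ℝ) / ((n + 1).choose (j + 1) : ℝ) := by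
    unfold xP
    rw [div_eq_div_iff hn1 hc1]
    linarith
  have hz : zP (j + 1) n = ((n).choose j : ℝ) / (2 * ((n + 1).choose (j + 1) : ℝ)) := by
    unfold zP
    rw [div_eq_div_iff (by positivity) (by positivity)]
    push_cast
    nlinarith
  rw [hx, hz]
  push_cast
  rw [pow_succ]
  field_simp

/-- Sum over compositions into three parts. -/
lemma cs_tri_sum {M : Type*} [AddCommMonoid M] (G : ℕ × ℕ × ℕ → M) (m : ℕ) :
    ∑ p ∈ tri m, G p = ∑ t ∈ range (m + 1), ∑ i ∈ range (m - t + 1), G (t, i, m - t - i) := by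
  rw [Finset.sum_sigma']
  refine Finset.sum_nbij' (fun p => ⟨p.1, p.2.1⟩) (fun q => (q.1, q.2, m - q.1 - q.2)) ?_ ?_ ?_ ?_ ?_
  · intro p hp
    obtain ⟨t, i, j⟩ := p
    simp only [tri, Finset.mem_filter, Finset.mem_product, Finset.mem_range] at hp
    simp only [Finset.mem_sigma, Finset.mem_range]
    omega
  · rintro ⟨t, i⟩ hq
    simp only [Finset.mem_sigma, Finset.mem_range] at hq
    simp only [tri, Finset.mem_filter, Finset.mem_product, Finset.mem_range]
    omega
  · intro p hp
    obtain ⟨t, i, j⟩ := p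
    simp only [tri, Finset.mem_filter, Finset.mem_product, Finset.mem_range] at hp
    simp only [Prod.mk.injEq, true_and]
    omega
  · rintro ⟨t, i⟩ hq
    rfl
  · intro p hp
    obtain ⟨t, i, j⟩ := p
    simp only [tri, Finset.mem_filter, Finset.mem_product, Finset.mem_range] at hp
    have : j = m - t - i := by omega
    subst this
    rfl

/-- Multinomial expansion. -/
theorem opG_pow_split (hk : 1 ≤ k) (hn : k ≤ n) (m : ℕ) :
    opG k (n + 1) ^ m = ∑ p ∈ tri m, Wh (xP k n) (zP k n) p.1 p.2.1 p.2.2 •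
      (T0 k n ^ p.1 * TB k n true ^ p.2.1 * TB k n false ^ p.2.2) := by
  have c01 : Commute (T0 k n) (TB k n true) := avgOp_commute _ _
  have c02 : Commute (T0 k n) (TB k n false) := avgOp_commute _ _
  have c12 : Commute (TB k n true) (TB k n false) := avgOp_commute _ _
  set x := xP k n
  set z := zP k n
  have ca : Commute (x • T0 k n) (z • TB k n true + z • TB k n false) :=
    Commute.add_right ((c01.smul_left x).smul_right z) ((c02.smul_left x).smul_right z)
  have cb : Commute (z • TB k n true) (z • TB k n false) := (c12.smul_left z).smul_right z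
  rw [opG_split hk hn, add_assoc, ca.add_pow, cs_tri_sum]
  refine Finset.sum_congr rfl fun t ht => ?_
  rw [cb.add_pow, Finset.mul_sum, Finset.sum_mul]
  refine Finset.sum_congr rfl fun i hi => ?_
  have ht' : t ≤ m := by
    have := Finset.mem_range.1 ht
    omega
  have hi' : i ≤ m - t := by
    have := Finset.mem_range.1 hi
    omega
  have e1 : t + i + (m - t - i) = m := by omega
  have e2 : i + (m - t - i) = m - t := by omega
  simp only [Wh, e1, e2]
  rw [smul_pow, smul_pow, smul_pow]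
  have e3 : ∀ c : ℕ, ∀ A : Module.End ℝ (Finset (Fin (n + 1) → Bool) → ℝ), A * (c : Module.End ℝ (Finset (Fin (n + 1) → Bool) → ℝ)) = (c : ℝ) • A := by
    intro c A
    have h5 : (c : Module.End ℝ (Finset (Fin (n + 1) → Bool) → ℝ)) = (c : ℝ) • (1 : Module.End ℝ (Finset (Fin (n + 1) → Bool) → ℝ)) := by
      rw [Nat.cast_smul_eq_nsmul, nsmul_eq_mul, mul_one]
    rw [h5, mul_smul_comm, mul_one]
  have e4 : z ^ (m - t) = z ^ i * z ^ (m - t - i) := by rw [← pow_add, e2]
  simp only [e3, smul_mul_assoc, mul_smul_comm, smul_smul, mul_assoc, e4]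
  congr 1
  ring

open Classical in
/-- The slice of `S` at value `b` of the last variable. -/
noncomputable def slice (b : Bool) (S : Finset (Fin (n + 1) → Bool)) : Finset (Fin n → Bool) :=
  Finset.univ.filter (fun σ => Fin.snoc (α := fun _ => Bool) σ b ∈ S)

/-- Product functions of the two slices. -/
noncomputable def prF (a b : Finset (Fin n → Bool) → ℝ) (S : Finset (Fin (n + 1) → Bool)) : ℝ :=
  a (slice false S) * b (slice true S)

/-- The clause operator on `n` variables for `(k-1)` clauses. -/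
noncomputable def TR (k n : ℕ) : Module.End ℝ (Finset (Fin n → Bool) → ℝ) := opG (k - 1) n


/-! ### Slices (helper lemmas) -/

lemma cs_mem_slice {b : Bool} {S : Finset (Fin (n + 1) → Bool)} {σ : Fin n → Bool} :
    σ ∈ slice b S ↔ Fin.snoc (α := fun _ => Bool) σ b ∈ S := by
  classical
  simp [slice]

lemma cs_snoc_eL (σ : Fin n → Bool) (b : Bool) :
    (fun v => (Fin.snoc (α := fun _ => Bool) σ b : Fin (n + 1) → Bool) (eL n v)) = σ := by
  funext v
  show (Fin.snoc (α := fun _ => Bool) σ b : Fin (n + 1) → Bool) (Fin.castSucc v) = σ v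
  exact Fin.snoc_castSucc (α := fun _ => Bool) b σ v

lemma cs_snoc_last (σ : Fin n → Bool) (b : Bool) :
    (Fin.snoc (α := fun _ => Bool) σ b : Fin (n + 1) → Bool) (Fin.last n) = b :=
  Fin.snoc_last (α := fun _ => Bool) b σ

lemma cs_mem_phiB {b : Bool} {R : ProperClause (k - 1) n} {σ : Fin (n + 1) → Bool} :
    σ ∈ phiB b R ↔ σ (Fin.last n) = b ∨ R.SatBy (fun v => σ (eL n v)) := by
  classical
  simp [phiB]

lemma cs_slice_phiB_same (b : Bool) (R : ProperClause (k - 1) n) (S : Finset (Fin (n + 1) → Bool)) :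
    slice b (S ∩ phiB b R) = slice b S := by
  ext σ
  rw [cs_mem_slice, cs_mem_slice, Finset.mem_inter, cs_mem_phiB, cs_snoc_last]
  simp

lemma cs_slice_phiB_other (b : Bool) (R : ProperClause (k - 1) n) (S : Finset (Fin (n + 1) → Bool)) :
    slice (!b) (S ∩ phiB b R) = slice (!b) S ∩ satSet R := by
  ext σ
  rw [cs_mem_slice, Finset.mem_inter, Finset.mem_inter, cs_mem_slice, cs_mem_phiB, cs_snoc_last,
    cs_snoc_eL, mem_satSet]
  cases b <;> simp

/-- The set of assignments whose restriction to the first `n` variables lies in `H`. -/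
noncomputable def cs_lift (H : Finset (Fin n → Bool)) : Finset (Fin (n + 1) → Bool) :=
  open Classical in Finset.univ.filter (fun σ => (fun v => σ (eL n v)) ∈ H)

lemma cs_mem_lift {H : Finset (Fin n → Bool)} {σ : Fin (n + 1) → Bool} :
    σ ∈ cs_lift H ↔ (fun v => σ (eL n v)) ∈ H := by
  classical
  simp [cs_lift]

lemma cs_lift_inter (H : Finset (Fin n → Bool)) (C : ProperClause k n) :
    cs_lift H ∩ phi0 C = cs_lift (H ∩ satSet C) := by
  ext σ
  rw [Finset.mem_inter, cs_mem_lift, cs_mem_lift, Finset.mem_inter, phi0, mem_satSet, mem_satSet,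
    satBy_map]
  rfl

lemma cs_slice_lift (b : Bool) (H : Finset (Fin n → Bool)) : slice b (cs_lift H) = H := by
  ext σ
  rw [cs_mem_slice, cs_mem_lift, cs_snoc_eL]

lemma cs_lift_univ : cs_lift (Finset.univ : Finset (Fin n → Bool)) = Finset.univ := by
  ext σ
  simp [cs_mem_lift]

lemma cs_T0_pow (f : Finset (Fin (n + 1) → Bool) → ℝ) (t : ℕ) (H : Finset (Fin n → Bool)) :
    (T0 k n ^ t) f (cs_lift H) = (opG k n ^ t) (fun H' => f (cs_lift H')) H := by
  induction t generalizing H with
  | zero => simp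
  | succ t ih =>
    rw [pow_succ', pow_succ']
    show avgOp (phi0 : ProperClause k n → _) ((T0 k n ^ t) f) (cs_lift H) =
      avgOp (satSet : ProperClause k n → _) ((opG k n ^ t) (fun H' => f (cs_lift H'))) H
    rw [avgOp_apply, avgOp_apply]
    congr 1
    refine Finset.sum_congr rfl fun C _ => ?_
    rw [cs_lift_inter, ih]

/-- Clauses with the literal `last = true` only cut the slice `false`. -/
lemma TB_true_prF (a b : Finset (Fin n → Bool) → ℝ) :
    TB k n true (prF a b) = prF (TR k n a) b := by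
  funext S
  show avgOp (phiB true : ProperClause (k - 1) n → _) (prF a b) S = _
  rw [avgOp_apply]
  have h : ∀ R : ProperClause (k - 1) n, prF a b (S ∩ phiB true R) =
      a (slice false S ∩ satSet R) * b (slice true S) := by
    intro R
    unfold prF
    rw [cs_slice_phiB_same]
    have := cs_slice_phiB_other true R S
    simp only [Bool.not_true] at this
    rw [this]
  simp only [h]
  rw [← Finset.sum_mul]
  show _ = opG (k - 1) n a (slice false S) * b (slice true S)
  unfold opG
  rw [avgOp_apply]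
  ring

lemma TB_false_prF (a b : Finset (Fin n → Bool) → ℝ) :
    TB k n false (prF a b) = prF a (TR k n b) := by
  funext S
  show avgOp (phiB false : ProperClause (k - 1) n → _) (prF a b) S = _
  rw [avgOp_apply]
  have h : ∀ R : ProperClause (k - 1) n, prF a b (S ∩ phiB false R) =
      a (slice false S) * b (slice true S ∩ satSet R) := by
    intro R
    unfold prF
    rw [cs_slice_phiB_same]
    have := cs_slice_phiB_other false R S
    simp only [Bool.not_false] at this
    rw [this]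
  simp only [h]
  rw [← Finset.mul_sum]
  show _ = a (slice false S) * opG (k - 1) n b (slice true S)
  unfold opG
  rw [avgOp_apply]
  ring

lemma T0_prF_univ (a b : Finset (Fin n → Bool) → ℝ) (t : ℕ) :
    (T0 k n ^ t) (prF a b) Finset.univ =
      (opG k n ^ t) (fun H => a H * b H) Finset.univ := by
  rw [← cs_lift_univ (n := n), cs_T0_pow]
  have e : (fun H' => prF a b (cs_lift H')) = (fun H => a H * b H) := by
    funext H
    show a (slice false (cs_lift H)) * b (slice true (cs_lift H)) = a H * b H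
    rw [cs_slice_lift, cs_slice_lift]
  rw [e]

/-- Evaluating the expansion on a product function. -/
theorem expand_prF (hk : 1 ≤ k) (hn : k ≤ n) (m : ℕ) (a b : Finset (Fin n → Bool) → ℝ) :
    (opG k (n + 1) ^ m) (prF a b) Finset.univ =
      ∑ p ∈ tri m, Wh (xP k n) (zP k n) p.1 p.2.1 p.2.2 *
        (opG k n ^ p.1) (fun H => (TR k n ^ p.2.1) a H * (TR k n ^ p.2.2) b H) Finset.univ := by
  have hT : ∀ (i : ℕ) (a b : Finset (Fin n → Bool) → ℝ),
      (TB k n true ^ i) (prF a b) = prF ((TR k n ^ i) a) b := by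
    intro i a b
    induction i with
    | zero => simp
    | succ i ih =>
      rw [pow_succ', Module.End.mul_apply, ih, TB_true_prF, pow_succ', Module.End.mul_apply]
  have hF : ∀ (j : ℕ) (a b : Finset (Fin n → Bool) → ℝ),
      (TB k n false ^ j) (prF a b) = prF a ((TR k n ^ j) b) := by
    intro j a b
    induction j with
    | zero => simp
    | succ j ih =>
      rw [pow_succ', Module.End.mul_apply, ih, TB_false_prF, pow_succ', Module.End.mul_apply]
  rw [opG_pow_split hk hn m, LinearMap.sum_apply, Finset.sum_apply]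
  refine Finset.sum_congr rfl fun p _ => ?_
  rw [LinearMap.smul_apply, Pi.smul_apply, smul_eq_mul, Module.End.mul_apply, Module.End.mul_apply,
    hF, hT, T0_prF_univ]

/-- Indicator of the empty set. -/
noncomputable def eBar {Ω : Type} (S : Finset Ω) : ℝ := 1 - eInd S

/-- Probability that `i` random `(k-1)`-clauses kill `H`. -/
noncomputable def qq (k n i : ℕ) (H : Finset (Fin n → Bool)) : ℝ := (TR k n ^ i) eBar H

lemma cs_TR_stoch (hn : k ≤ n) (hk : 1 ≤ k) : IsStoch (TR k n) := by
  have : Nonempty (ProperClause (k - 1) n) := nonempty_clause (by omega)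
  exact avgOp_stoch _

lemma cs_eBar_nonneg {Ω : Type} (S : Finset Ω) : 0 ≤ eBar S := by
  unfold eBar eInd
  split_ifs <;> norm_num

lemma cs_eBar_le_one {Ω : Type} (S : Finset Ω) : eBar S ≤ 1 := by
  unfold eBar eInd
  split_ifs <;> norm_num

lemma qq_nonneg (hn : k ≤ n) (hk : 1 ≤ k) (i : ℕ) (H : Finset (Fin n → Bool)) : 0 ≤ qq k n i H := by
  have h := (cs_TR_stoch hn hk).pow i
  have h1 := h.mono (fun _ => 0) eBar cs_eBar_nonneg H
  rw [h.const] at h1
  exact h1

lemma qq_le_one (hn : k ≤ n) (hk : 1 ≤ k) (i : ℕ) (H : Finset (Fin n → Bool)) : qq k n i H ≤ 1 := by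
  have h := (cs_TR_stoch hn hk).pow i
  have h1 := h.mono eBar (fun _ => 1) cs_eBar_le_one H
  rw [h.const] at h1
  exact h1

lemma cs_eBar_le_TR (hn : k ≤ n) (hk : 1 ≤ k) (S : Finset (Fin n → Bool)) :
    eBar S ≤ TR k n eBar S := by
  have : Nonempty (ProperClause (k - 1) n) := nonempty_clause (by omega)
  rcases S.eq_empty_or_nonempty with rfl | hS
  · have : TR k n eBar (∅ : Finset (Fin n → Bool)) = eBar (∅ : Finset (Fin n → Bool)) := by
      show avgOp (satSet : ProperClause (k - 1) n → _) eBar ∅ = _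
      rw [avgOp_apply]
      simp only [Finset.empty_inter, Finset.sum_const, Finset.card_univ, nsmul_eq_mul]
      have h : (Fintype.card (ProperClause (k - 1) n) : ℝ) ≠ 0 := by
        exact_mod_cast Fintype.card_ne_zero
      field_simp
    rw [this]
  · have h0 : eBar S = 0 := by simp [eBar, eInd, hS]
    rw [h0]
    have h := (cs_TR_stoch hn hk).mono (fun _ => 0) eBar cs_eBar_nonneg S
    rw [(cs_TR_stoch hn hk).const] at h
    exact h

lemma qq_mono (hn : k ≤ n) (hk : 1 ≤ k) (H : Finset (Fin n → Bool)) : Monotone (fun i => qq k n i H) := by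
  refine monotone_nat_of_le_succ fun i => ?_
  show (TR k n ^ i) eBar H ≤ (TR k n ^ (i + 1)) eBar H
  rw [pow_succ, Module.End.mul_apply]
  exact ((cs_TR_stoch hn hk).pow i).mono _ _ (cs_eBar_le_TR hn hk) H

lemma qq_empty (hn : k ≤ n) (hk : 1 ≤ k) (i : ℕ) : qq k n i (∅ : Finset (Fin n → Bool)) = 1 := by
  have : Nonempty (ProperClause (k - 1) n) := nonempty_clause (by omega)
  unfold qq
  induction i with
  | zero => simp [eBar, eInd]
  | succ i ih =>
    rw [pow_succ', Module.End.mul_apply]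
    show avgOp (satSet : ProperClause (k - 1) n → _) _ ∅ = 1
    rw [avgOp_apply]
    simp only [Finset.empty_inter, ih, Finset.sum_const, Finset.card_univ, nsmul_eq_mul, mul_one]
    have h : (Fintype.card (ProperClause (k - 1) n) : ℝ) ≠ 0 := by
      exact_mod_cast Fintype.card_ne_zero
    field_simp

lemma TR_pow_eInd (hn : k ≤ n) (hk : 1 ≤ k) (i : ℕ) (H : Finset (Fin n → Bool)) :
    (TR k n ^ i) eInd H = 1 - qq k n i H := by
  have h := (cs_TR_stoch hn hk).pow i
  have e : (eInd : Finset (Fin n → Bool) → ℝ) = (fun _ => 1) - eBar := by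
    funext S
    simp [eBar]
  rw [e, map_sub, h.const]
  rfl

lemma cs_nonempty_iff (S : Finset (Fin (n + 1) → Bool)) :
    S.Nonempty ↔ (slice false S).Nonempty ∨ (slice true S).Nonempty := by
  constructor
  · rintro ⟨σ, hσ⟩
    have h : (Fin.snoc (α := fun _ => Bool) (Fin.init σ) (σ (Fin.last n)) : Fin (n + 1) → Bool) = σ :=
      Fin.snoc_init_self σ
    cases hb : σ (Fin.last n)
    · left
      refine ⟨Fin.init σ, cs_mem_slice.mpr ?_⟩
      rw [← hb, h]; exact hσ
    · right
      refine ⟨Fin.init σ, cs_mem_slice.mpr ?_⟩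
      rw [← hb, h]; exact hσ
  · rintro (⟨σ, hσ⟩ | ⟨σ, hσ⟩) <;> exact ⟨_, cs_mem_slice.mp hσ⟩

lemma eInd_eq_prF (S : Finset (Fin (n + 1) → Bool)) : eInd S = 1 - prF eBar eBar S := by
  unfold prF eBar eInd
  by_cases h1 : (slice false S).Nonempty <;> by_cases h2 : (slice true S).Nonempty <;>
    simp [h1, h2, cs_nonempty_iff S]

/-- The last variable is frozen: exactly one slice is nonempty. -/
lemma frzAt_last_eq_prF (S : Finset (Fin (n + 1) → Bool)) :
    frzAt (Fin.last n) S = prF eInd eBar S + prF eBar eInd S := by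
  classical
  have hval : ∀ (b : Bool), (slice b S).Nonempty ↔ ∃ σ ∈ S, σ (Fin.last n) = b := by
    intro b
    constructor
    · rintro ⟨σ, hσ⟩
      exact ⟨_, cs_mem_slice.mp hσ, cs_snoc_last σ b⟩
    · rintro ⟨σ, hσ, hb⟩
      refine ⟨Fin.init σ, cs_mem_slice.mpr ?_⟩
      have h : (Fin.snoc (α := fun _ => Bool) (Fin.init σ) (σ (Fin.last n)) : Fin (n + 1) → Bool) = σ :=
        Fin.snoc_init_self σ
      rw [← hb, h]; exact hσ
  have hf := hval false
  have ht := hval true
  unfold frzAt prF eBar eInd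
  by_cases h1 : (slice false S).Nonempty <;> by_cases h2 : (slice true S).Nonempty
  · obtain ⟨σ, hσ, hb⟩ := hf.mp h1
    obtain ⟨σ', hσ', hb'⟩ := ht.mp h2
    have hn : ¬ (S.Nonempty ∧ ∀ σ ∈ S, ∀ σ' ∈ S, σ (Fin.last n) = σ' (Fin.last n)) := by
      rintro ⟨_, h⟩
      have := h σ hσ σ' hσ'
      rw [hb, hb'] at this
      exact Bool.noConfusion this
    simp [h1, h2, hn]
  · have hne : S.Nonempty := (cs_nonempty_iff S).mpr (Or.inl h1)
    have hall : ∀ σ ∈ S, σ (Fin.last n) = false := by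
      intro σ hσ
      by_contra hc
      have : σ (Fin.last n) = true := by simpa using hc
      exact h2 (ht.mpr ⟨σ, hσ, this⟩)
    have hy : S.Nonempty ∧ ∀ σ ∈ S, ∀ σ' ∈ S, σ (Fin.last n) = σ' (Fin.last n) :=
      ⟨hne, fun σ hσ σ' hσ' => by rw [hall σ hσ, hall σ' hσ']⟩
    rw [if_pos hy]
    simp [h1, h2]
  · have hne : S.Nonempty := (cs_nonempty_iff S).mpr (Or.inr h2)
    have hall : ∀ σ ∈ S, σ (Fin.last n) = true := by
      intro σ hσ
      by_contra hc
      have : σ (Fin.last n) = false := by simpa using hc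
      exact h1 (hf.mpr ⟨σ, hσ, this⟩)
    have hy : S.Nonempty ∧ ∀ σ ∈ S, ∀ σ' ∈ S, σ (Fin.last n) = σ' (Fin.last n) :=
      ⟨hne, fun σ hσ σ' hσ' => by rw [hall σ hσ, hall σ' hσ']⟩
    rw [if_pos hy]
    simp [h1, h2]
  · have hne : ¬ S.Nonempty := by
      rw [cs_nonempty_iff S]
      tauto
    simp [h1, h2, hne]

section CavSymm

variable {N : ℕ}

/-- Permuting the variables acts on assignments. -/
def cavPermA (g : Equiv.Perm (Fin N)) : (Fin N → Bool) ≃ (Fin N → Bool) where
  toFun σ := σ ∘ g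
  invFun σ := σ ∘ g.symm
  left_inv σ := by funext i; simp
  right_inv σ := by funext i; simp

/-- Permuting the variables acts bijectively on clauses. -/
noncomputable def cavPermC (g : Equiv.Perm (Fin N)) : ProperClause k N ≃ ProperClause k N :=
  Equiv.ofBijective (mapClause g.symm.toEmbedding)
    (Finite.injective_iff_bijective.1 (mapClause_injective _))

lemma cavPerm_inter (g : Equiv.Perm (Fin N)) (S : Finset (Fin N → Bool))
    (C : ProperClause k N) :
    (S ∩ satSet C).map (cavPermA g).toEmbedding =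
      S.map (cavPermA g).toEmbedding ∩ satSet (cavPermC g C) := by
  ext τ
  simp only [Finset.mem_map_equiv, Finset.mem_inter, mem_satSet, cavPermC,
    Equiv.ofBijective_apply, satBy_map]
  rfl

/-- The clause operator commutes with permuting the variables. -/
lemma cavPerm_opG (g : Equiv.Perm (Fin N)) (f : Finset (Fin N → Bool) → ℝ)
    (S : Finset (Fin N → Bool)) :
    opG k N (fun S' => f (S'.map (cavPermA g).toEmbedding)) S =
      opG k N f (S.map (cavPermA g).toEmbedding) := by
  unfold opG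
  rw [avgOp_apply, avgOp_apply]
  congr 1
  rw [← Equiv.sum_comp (cavPermC (k := k) g) (fun C => f (S.map (cavPermA g).toEmbedding ∩ satSet C))]
  refine Finset.sum_congr rfl fun C _ => ?_
  rw [cavPerm_inter]

lemma cavPerm_opG_pow (g : Equiv.Perm (Fin N)) (r : ℕ) (f : Finset (Fin N → Bool) → ℝ)
    (S : Finset (Fin N → Bool)) :
    (opG k N ^ r) (fun S' => f (S'.map (cavPermA g).toEmbedding)) S =
      (opG k N ^ r) f (S.map (cavPermA g).toEmbedding) := by
  induction r generalizing f S with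
  | zero => rfl
  | succ r ih =>
    rw [pow_succ']
    show opG k N ((opG k N ^ r) fun S' => f (S'.map (cavPermA g).toEmbedding)) S =
      opG k N ((opG k N ^ r) f) (S.map (cavPermA g).toEmbedding)
    rw [← cavPerm_opG]
    have e : ((opG k N ^ r) fun S' => f (S'.map (cavPermA g).toEmbedding)) =
        fun S' => (opG k N ^ r) f (S'.map (cavPermA g).toEmbedding) := funext fun S' => ih f S'
    rw [e]

lemma cavPerm_frzAt (g : Equiv.Perm (Fin N)) (v : Fin N) (S : Finset (Fin N → Bool)) :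
    frzAt v (S.map (cavPermA g).toEmbedding) = frzAt (g v) S := by
  unfold frzAt
  have hiff : ((S.map (cavPermA g).toEmbedding).Nonempty ∧
      ∀ σ ∈ S.map (cavPermA g).toEmbedding, ∀ σ' ∈ S.map (cavPermA g).toEmbedding, σ v = σ' v) ↔
      (S.Nonempty ∧ ∀ σ ∈ S, ∀ σ' ∈ S, σ (g v) = σ' (g v)) := by
    rw [Finset.map_nonempty]
    refine and_congr_right fun _ => ?_
    constructor
    · intro h σ hσ σ' hσ'
      exact h (cavPermA g σ) (Finset.mem_map_of_mem _ hσ) (cavPermA g σ')
        (Finset.mem_map_of_mem _ hσ')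
    · intro h τ hτ τ' hτ'
      obtain ⟨σ, hσ, rfl⟩ := Finset.mem_map.1 hτ
      obtain ⟨σ', hσ', rfl⟩ := Finset.mem_map.1 hτ'
      exact h σ hσ σ' hσ'
  simp only [hiff]

/-- All variables have the same frozen probability. -/
lemma cavPerm_frzAt_pow (r : ℕ) (u v : Fin N) :
    (opG k N ^ r) (frzAt v) Finset.univ = (opG k N ^ r) (frzAt u) Finset.univ := by
  have h1 : frzAt v = fun S : Finset (Fin N → Bool) =>
      frzAt u (S.map (cavPermA (Equiv.swap u v)).toEmbedding) := by
    funext S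
    rw [cavPerm_frzAt, Equiv.swap_apply_left]
  rw [h1, cavPerm_opG_pow, Finset.map_univ_equiv]

end CavSymm

/-- Symmetry between the variables: all have the same frozen probability. -/
theorem frz_pow_eq_last (hn : k ≤ n + 1) (r : ℕ) :
    ((opG k (n + 1)) ^ r) (frz (n + 1)) Finset.univ =
      ((opG k (n + 1)) ^ r) (frzAt (Fin.last n)) Finset.univ := by
  have h1 : frz (n + 1) = ((n + 1 : ℕ) : ℝ)⁻¹ • ∑ v : Fin (n + 1), frzAt v := by
    funext S
    simp only [frz, Pi.smul_apply, Finset.sum_apply, smul_eq_mul]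
    rw [div_eq_inv_mul]
  rw [h1, map_smul, map_sum]
  simp only [Pi.smul_apply, Finset.sum_apply, smul_eq_mul]
  rw [Finset.sum_congr rfl (fun v _ => cavPerm_frzAt_pow r (Fin.last n) v)]
  simp only [Finset.sum_const, Finset.card_univ, Fintype.card_fin, nsmul_eq_mul]
  have hne : ((n + 1 : ℕ) : ℝ) ≠ 0 := by positivity
  field_simp

/-- Formula for `P_{k,n+1}(m)`. -/
theorem satProb_succ_formula (hk : 1 ≤ k) (hn : k ≤ n) (m : ℕ) :
    satProb k (n + 1) m = 1 - ∑ p ∈ tri m, Wh (xP k n) (zP k n) p.1 p.2.1 p.2.2 *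
      (opG k n ^ p.1) (fun H => qq k n p.2.1 H * qq k n p.2.2 H) Finset.univ := by
  have : Nonempty (ProperClause k (n + 1)) := nonempty_clause (by omega)
  have hst : IsStoch (opG k (n + 1) ^ m) := (avgOp_stoch _).pow m
  have e : (eInd : Finset (Fin (n + 1) → Bool) → ℝ) = (fun _ => 1) - prF eBar eBar := by
    funext S
    exact eInd_eq_prF S
  rw [← opG_pow_eval (by omega : k ≤ n + 1) m, e, map_sub, hst.const, Pi.sub_apply, expand_prF hk hn]
  rfl

/-- Formula for the frozen probability. -/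
theorem frz_succ_formula (hk : 1 ≤ k) (hn : k ≤ n) (m : ℕ) :
    ((opG k (n + 1)) ^ m) (frz (n + 1)) Finset.univ =
      ∑ p ∈ tri m, Wh (xP k n) (zP k n) p.1 p.2.1 p.2.2 *
        (opG k n ^ p.1) (fun H => (1 - qq k n p.2.1 H) * qq k n p.2.2 H +
          qq k n p.2.1 H * (1 - qq k n p.2.2 H)) Finset.univ := by
  rw [frz_pow_eq_last (by omega)]
  have h1 : (frzAt (Fin.last n) : Finset (Fin (n + 1) → Bool) → ℝ) =
      prF eInd eBar + prF eBar eInd := by
    funext S
    exact frzAt_last_eq_prF S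
  rw [h1, map_add, Pi.add_apply, expand_prF hk hn, expand_prF hk hn, ← Finset.sum_add_distrib]
  refine Finset.sum_congr rfl fun p _ => ?_
  rw [← mul_add, ← Pi.add_apply, ← map_add]
  have e : ((fun H => (TR k n ^ p.2.1) eInd H * (TR k n ^ p.2.2) eBar H) + fun H =>
        (TR k n ^ p.2.1) eBar H * (TR k n ^ p.2.2) eInd H) =
      fun H => (1 - qq k n p.2.1 H) * qq k n p.2.2 H + qq k n p.2.1 H * (1 - qq k n p.2.2 H) := by
    funext H
    show (TR k n ^ p.2.1) eInd H * (TR k n ^ p.2.2) eBar H +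
        (TR k n ^ p.2.1) eBar H * (TR k n ^ p.2.2) eInd H = _
    rw [TR_pow_eInd hn hk, TR_pow_eInd hn hk]
    rfl
  rw [e]

/-- Averages of `opG` powers are positive and linear. -/
lemma star_lam_mono (hn : k ≤ n) (t : ℕ) {f g : Finset (Fin n → Bool) → ℝ} (h : ∀ S, f S ≤ g S)
    (S : Finset (Fin n → Bool)) : (opG k n ^ t) f S ≤ (opG k n ^ t) g S := by
  haveI := nonempty_clause hn
  exact ((avgOp_stoch (satSet : ProperClause k n → _)).pow t).mono f g h S

lemma star_lam_nonneg (hn : k ≤ n) (t : ℕ) {f : Finset (Fin n → Bool) → ℝ} (h : ∀ S, 0 ≤ f S)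
    (S : Finset (Fin n → Bool)) : 0 ≤ (opG k n ^ t) f S := by
  haveI := nonempty_clause hn
  have h1 := star_lam_mono hn t (f := fun _ => 0) (g := f) h S
  have h2 : (opG k n ^ t) (fun _ => (0 : ℝ)) S = 0 := by
    have := map_zero (opG k n ^ t)
    exact congrFun this S
  linarith

lemma star_lam_sum {ι : Type} (t : ℕ) (s : Finset ι) (c : ι → ℝ) (f : ι → Finset (Fin n → Bool) → ℝ)
    (S : Finset (Fin n → Bool)) :
    (opG k n ^ t) (fun H => ∑ a ∈ s, c a * f a H) S = ∑ a ∈ s, c a * (opG k n ^ t) (f a) S := by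
  have h1 : (fun H => ∑ a ∈ s, c a * f a H) = ∑ a ∈ s, c a • f a := by
    funext H; simp [Finset.sum_apply]
  rw [h1, map_sum]
  simp [Finset.sum_apply]

lemma star_qq_eInd_mul (hn : k ≤ n) (hk : 1 ≤ k) (i j : ℕ) (H : Finset (Fin n → Bool)) :
    qq k n i H * qq k n j H = eInd H * (qq k n i H * qq k n j H) + (1 - eInd H) := by
  by_cases hH : H.Nonempty
  · simp [eInd, hH]
  · have : H = ∅ := Finset.not_nonempty_iff_eq_empty.1 hH
    subst this
    simp [eInd, qq_empty hn hk]

/-- The pointwise bound for the frozen probability. -/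
lemma star_frozen_pointwise (hn : k ≤ n) (hk : 1 ≤ k) (i j : ℕ) (H : Finset (Fin n → Bool)) :
    (1 - qq k n i H) * qq k n j H + qq k n i H * (1 - qq k n j H) ≤
      eInd H * (qq k n i H + qq k n j H) := by
  by_cases hH : H.Nonempty
  · have h1 := qq_nonneg hn hk i H
    have h2 := qq_nonneg hn hk j H
    simp only [eInd, hH, if_true, one_mul]
    nlinarith [mul_nonneg h1 h2]
  · have : H = ∅ := Finset.not_nonempty_iff_eq_empty.1 hH
    subst this
    simp [eInd, qq_empty hn hk]

/-- The identity for the death probabilities. -/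
lemma star_identity_sum (hk : 1 ≤ k) (hn : k ≤ n) (m : ℕ) :
    ∑ p ∈ tri m, Wh (xP k n) (zP k n) p.1 p.2.1 p.2.2 *
        (opG k n ^ p.1) (fun H => eInd H * (qq k n p.2.1 H * qq k n p.2.2 H)) Finset.univ =
      ∑ p ∈ tri m, Wh (xP k n) (zP k n) p.1 p.2.1 p.2.2 * satProb k n p.1 - satProb k (n + 1) m := by
  rw [satProb_succ_formula hk hn m]
  have h1 : ∀ p : ℕ × ℕ × ℕ, (opG k n ^ p.1) (fun H => qq k n p.2.1 H * qq k n p.2.2 H) Finset.univ =
      (opG k n ^ p.1) (fun H => eInd H * (qq k n p.2.1 H * qq k n p.2.2 H)) Finset.univ + 1 - satProb k n p.1 := by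
    intro p
    have e : (fun H => qq k n p.2.1 H * qq k n p.2.2 H) =
        (fun H => eInd H * (qq k n p.2.1 H * qq k n p.2.2 H)) + (fun _ => (1 : ℝ)) - eInd := by
      funext H
      simp only [Pi.add_apply, Pi.sub_apply]
      rw [star_qq_eInd_mul hn hk p.2.1 p.2.2 H]
      simp only [eInd]
      split_ifs <;> ring
    rw [e, map_sub, map_add]
    haveI := nonempty_clause hn
    have h2 : (opG k n ^ p.1) (fun _ => (1 : ℝ)) = fun _ => 1 :=
      ((avgOp_stoch (satSet : ProperClause k n → _)).pow p.1).const 1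
    simp only [Pi.add_apply, Pi.sub_apply, h2]
    rw [opG_pow_eval hn]
  simp only [h1]
  have h3 := Wh_tri_sum (xP_add k n) m
  simp only [mul_sub, mul_add, mul_one, Finset.sum_sub_distrib, Finset.sum_add_distrib, h3]
  ring

lemma star_box_satProb_le (hk : 1 ≤ k) (hn : k ≤ n) (M : ℕ) :
    ∑ m ∈ range M, ∑ p ∈ tri m, Wh (xP k n) (zP k n) p.1 p.2.1 p.2.2 * satProb k n p.1 ≤
      W0 k n * tau k n := by
  have hx := xP_pos hn
  have hz := zP_nonneg k n
  have h1 := sum_tri_le_box (G := fun p => Wh (xP k n) (zP k n) p.1 p.2.1 p.2.2 * satProb k n p.1)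
    (fun p => mul_nonneg (Wh_nonneg hx.le hz _ _ _) (satProb_nonneg _ _ _)) M
  refine h1.trans ?_
  simp only
  have h2 : ∀ t ∈ range M, ∑ i ∈ range M, ∑ j ∈ range M,
      Wh (xP k n) (zP k n) t i j * satProb k n t ≤ W0 k n * satProb k n t := by
    intro t _
    have h3 := Wh_box_sum_le hx hz (xP_add k n) t M
    rw [← W0_eq hn] at h3
    have h4 : ∑ i ∈ range M, ∑ j ∈ range M, Wh (xP k n) (zP k n) t i j * satProb k n t =
        (∑ i ∈ range M, ∑ j ∈ range M, Wh (xP k n) (zP k n) t i j) * satProb k n t := by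
      rw [Finset.sum_mul]
      refine Finset.sum_congr rfl fun i _ => ?_
      rw [Finset.sum_mul]
    rw [h4]
    exact mul_le_mul_of_nonneg_right h3 (satProb_nonneg _ _ _)
  refine (Finset.sum_le_sum h2).trans ?_
  rw [← Finset.mul_sum]
  have hW : 0 ≤ W0 k n := by rw [W0_eq hn]; positivity
  refine mul_le_mul_of_nonneg_left ?_ hW
  exact (summable_satProb hk hn).sum_le_tsum _ (fun i _ => satProb_nonneg _ _ _)

/-- The sum of the identity terms up to `M` is nonnegative and bounded. -/
lemma star_identity_range (hk : 1 ≤ k) (hn : k ≤ n) (M : ℕ) :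
    ∑ m ∈ range M, ∑ p ∈ tri m, Wh (xP k n) (zP k n) p.1 p.2.1 p.2.2 *
        (opG k n ^ p.1) (fun H => eInd H * (qq k n p.2.1 H * qq k n p.2.2 H)) Finset.univ ≤
      W0 k n * tau k n - ∑ m ∈ range M, satProb k (n + 1) m := by
  simp only [star_identity_sum hk hn]
  rw [Finset.sum_sub_distrib]
  have := star_box_satProb_le hk hn M
  linarith

theorem star_finite (hk : 1 ≤ k) (hn : k ≤ n) {s : ℝ} (hs : 0 < s) (M : ℕ) :
    ∑ m ∈ range M, ((opG k (n + 1)) ^ m) (frz (n + 1)) Finset.univ ≤
      s * (W0 k n * tau k n) +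
        (W0 k n * tau k n - ∑ m ∈ range (3 * M), satProb k (n + 1) m) / s := by
  have hx := xP_pos hn
  have hz := zP_nonneg k n
  set W := Wh (xP k n) (zP k n) with hW
  have hWn : ∀ t i j, 0 ≤ W t i j := fun t i j => Wh_nonneg hx.le hz t i j
  set psiQ : ℕ → ℕ → Finset (Fin n → Bool) → ℝ := fun i j H => eInd H * (qq k n i H * qq k n j H) with hpsiQ
  set psiS : ℕ → ℕ → Finset (Fin n → Bool) → ℝ := fun i j H => eInd H * (qq k n i H + qq k n j H) with hpsiS
  -- step 1
  have step1 : ∀ m, ((opG k (n + 1)) ^ m) (frz (n + 1)) Finset.univ ≤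
      ∑ p ∈ tri m, W p.1 p.2.1 p.2.2 * (opG k n ^ p.1) (psiS p.2.1 p.2.2) Finset.univ := by
    intro m
    rw [frz_succ_formula hk hn m]
    refine Finset.sum_le_sum fun p _ => mul_le_mul_of_nonneg_left ?_ (hWn _ _ _)
    exact star_lam_mono hn _ (fun H => star_frozen_pointwise hn hk _ _ H) _
  have hpsiS0 : ∀ i j H, 0 ≤ psiS i j H := fun i j H =>
    mul_nonneg (eInd_nonneg _) (add_nonneg (qq_nonneg hn hk _ _) (qq_nonneg hn hk _ _))
  have hpsiQ0 : ∀ i j H, 0 ≤ psiQ i j H := fun i j H =>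
    mul_nonneg (eInd_nonneg _) (mul_nonneg (qq_nonneg hn hk _ _) (qq_nonneg hn hk _ _))
  -- step 2: box
  have step2 := sum_tri_le_box
    (G := fun p => W p.1 p.2.1 p.2.2 * (opG k n ^ p.1) (psiS p.2.1 p.2.2) Finset.univ)
    (fun p => mul_nonneg (hWn _ _ _) (star_lam_nonneg hn _ (hpsiS0 _ _) _)) M
  simp only at step2
  -- step 3: for each t, use box_amgm inside the average
  have step3 : ∀ t, ∑ i ∈ range M, ∑ j ∈ range M, W t i j * (opG k n ^ t) (psiS i j) Finset.univ ≤
      s * W0 k n * satProb k n t +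
        (∑ i ∈ range M, ∑ j ∈ range M, W t i j * (opG k n ^ t) (psiQ i j) Finset.univ) / s := by
    intro t
    have hL : ∑ i ∈ range M, ∑ j ∈ range M, W t i j * (opG k n ^ t) (psiS i j) Finset.univ =
        (opG k n ^ t) (fun H => ∑ p ∈ range M ×ˢ range M, W t p.1 p.2 * psiS p.1 p.2 H) Finset.univ := by
      rw [star_lam_sum, Finset.sum_product]
    have hR : (∑ i ∈ range M, ∑ j ∈ range M, W t i j * (opG k n ^ t) (psiQ i j) Finset.univ) =
        (opG k n ^ t) (fun H => ∑ p ∈ range M ×ˢ range M, W t p.1 p.2 * psiQ p.1 p.2 H) Finset.univ := by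
      rw [star_lam_sum, Finset.sum_product]
    rw [hL, hR]
    have hpt : ∀ H : Finset (Fin n → Bool),
        ∑ p ∈ range M ×ˢ range M, W t p.1 p.2 * psiS p.1 p.2 H ≤
          (s * W0 k n) * eInd H + (1 / s) * ∑ p ∈ range M ×ˢ range M, W t p.1 p.2 * psiQ p.1 p.2 H := by
      intro H
      have ham := box_amgm hx.le hz hs t M (a := fun i => qq k n i H) (qq_mono hn hk H)
        (fun i => qq_nonneg hn hk i H)
      have hbox := Wh_box_sum_le hx hz (xP_add k n) t M
      rw [← W0_eq hn] at hbox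
      simp only [Finset.sum_product, hpsiS, hpsiQ]
      have e1 : ∑ i ∈ range M, ∑ j ∈ range M, W t i j * (eInd H * (qq k n i H + qq k n j H)) =
          eInd H * ∑ i ∈ range M, ∑ j ∈ range M, W t i j * (qq k n i H + qq k n j H) := by
        rw [Finset.mul_sum]
        refine Finset.sum_congr rfl fun i _ => ?_
        rw [Finset.mul_sum]
        refine Finset.sum_congr rfl fun j _ => ?_
        ring
      have e2 : ∑ i ∈ range M, ∑ j ∈ range M, W t i j * (eInd H * (qq k n i H * qq k n j H)) =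
          eInd H * ∑ i ∈ range M, ∑ j ∈ range M, W t i j * (qq k n i H * qq k n j H) := by
        rw [Finset.mul_sum]
        refine Finset.sum_congr rfl fun i _ => ?_
        rw [Finset.mul_sum]
        refine Finset.sum_congr rfl fun j _ => ?_
        ring
      rw [e1, e2]
      have he0 := eInd_nonneg H
      have h5 : s * ∑ i ∈ range M, ∑ j ∈ range M, W t i j ≤ s * W0 k n :=
        mul_le_mul_of_nonneg_left hbox hs.le
      have h6 := mul_le_mul_of_nonneg_left (ham.trans (add_le_add_left h5 _)) he0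
      calc eInd H * ∑ i ∈ range M, ∑ j ∈ range M, W t i j * (qq k n i H + qq k n j H)
          ≤ eInd H * (s * W0 k n + (∑ i ∈ range M, ∑ j ∈ range M, W t i j * (qq k n i H * qq k n j H)) / s) := h6
        _ = s * W0 k n * eInd H + 1 / s * (eInd H * ∑ i ∈ range M, ∑ j ∈ range M, W t i j * (qq k n i H * qq k n j H)) := by
          ring
    have hmono := star_lam_mono hn t hpt Finset.univ
    have hlin : (opG k n ^ t) (fun H => (s * W0 k n) * eInd H + (1 / s) * ∑ p ∈ range M ×ˢ range M, W t p.1 p.2 * psiQ p.1 p.2 H) Finset.univ =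
        s * W0 k n * (opG k n ^ t) eInd Finset.univ +
          (1 / s) * (opG k n ^ t) (fun H => ∑ p ∈ range M ×ˢ range M, W t p.1 p.2 * psiQ p.1 p.2 H) Finset.univ := by
      have e : (fun H => (s * W0 k n) * eInd H + (1 / s) * ∑ p ∈ range M ×ˢ range M, W t p.1 p.2 * psiQ p.1 p.2 H) =
          (s * W0 k n) • eInd + (1 / s) • (fun H => ∑ p ∈ range M ×ˢ range M, W t p.1 p.2 * psiQ p.1 p.2 H) := by
        funext H; simp
      rw [e, map_add, map_smul, map_smul]
      simp
    rw [hlin, opG_pow_eval hn] at hmono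
    calc _ ≤ _ := hmono
      _ = _ := by ring
  have hW0 : 0 ≤ W0 k n := by rw [W0_eq hn]; positivity
  have hsumP : ∑ t ∈ range M, satProb k n t ≤ tau k n :=
    (summable_satProb hk hn).sum_le_tsum _ (fun i _ => satProb_nonneg _ _ _)
  have hbox2 := sum_box_le_tri
    (G := fun p => W p.1 p.2.1 p.2.2 * (opG k n ^ p.1) (psiQ p.2.1 p.2.2) Finset.univ)
    (fun p => mul_nonneg (hWn _ _ _) (star_lam_nonneg hn _ (hpsiQ0 _ _) _)) M
  simp only at hbox2
  have hid := star_identity_range hk hn (3 * M)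
  calc ∑ m ∈ range M, ((opG k (n + 1)) ^ m) (frz (n + 1)) Finset.univ
      ≤ ∑ m ∈ range M, ∑ p ∈ tri m, W p.1 p.2.1 p.2.2 * (opG k n ^ p.1) (psiS p.2.1 p.2.2) Finset.univ :=
        Finset.sum_le_sum fun m _ => step1 m
    _ ≤ ∑ t ∈ range M, ∑ i ∈ range M, ∑ j ∈ range M, W t i j * (opG k n ^ t) (psiS i j) Finset.univ := step2
    _ ≤ ∑ t ∈ range M, (s * W0 k n * satProb k n t +
        (∑ i ∈ range M, ∑ j ∈ range M, W t i j * (opG k n ^ t) (psiQ i j) Finset.univ) / s) :=
        Finset.sum_le_sum fun t _ => step3 t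
    _ = s * W0 k n * ∑ t ∈ range M, satProb k n t +
        (∑ t ∈ range M, ∑ i ∈ range M, ∑ j ∈ range M, W t i j * (opG k n ^ t) (psiQ i j) Finset.univ) / s := by
        rw [Finset.sum_add_distrib, Finset.mul_sum, Finset.sum_div]
    _ ≤ s * (W0 k n * tau k n) + (W0 k n * tau k n - ∑ m ∈ range (3 * M), satProb k (n + 1) m) / s := by
        have h1 : s * W0 k n * ∑ t ∈ range M, satProb k n t ≤ s * (W0 k n * tau k n) := by
          rw [mul_assoc]
          exact mul_le_mul_of_nonneg_left (mul_le_mul_of_nonneg_left hsumP hW0) hs.le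
        have h2 : (∑ t ∈ range M, ∑ i ∈ range M, ∑ j ∈ range M, W t i j * (opG k n ^ t) (psiQ i j) Finset.univ) ≤
            W0 k n * tau k n - ∑ m ∈ range (3 * M), satProb k (n + 1) m := hbox2.trans hid
        have h3 := div_le_div_of_nonneg_right h2 hs.le
        linarith

/-- Partial sums for the bigger system. -/
lemma star_rise_finite (hk : 1 ≤ k) (hn : k ≤ n) (M : ℕ) :
    ∑ m ∈ range M, satProb k (n + 1) m ≤ W0 k n * tau k n := by
  have hx := xP_pos hn
  have hz := zP_nonneg k n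
  have h1 := star_identity_range hk hn M
  have h0 : 0 ≤ ∑ m ∈ range M, ∑ p ∈ tri m, Wh (xP k n) (zP k n) p.1 p.2.1 p.2.2 *
        (opG k n ^ p.1) (fun H => eInd H * (qq k n p.2.1 H * qq k n p.2.2 H)) Finset.univ := by
    refine Finset.sum_nonneg fun m _ => Finset.sum_nonneg fun p _ => mul_nonneg (Wh_nonneg hx.le hz _ _ _) ?_
    exact star_lam_nonneg hn _ (fun H => mul_nonneg (eInd_nonneg _)
      (mul_nonneg (qq_nonneg hn hk _ _) (qq_nonneg hn hk _ _))) _
  linarith

/-- Rise bound. -/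
theorem rise (hk : 1 ≤ k) (hn : k ≤ n) : tau k (n + 1) ≤ W0 k n * tau k n := by
  have hsum : Summable (satProb k (n + 1)) := summable_satProb hk (by omega)
  unfold tau at *
  exact hsum.tsum_le_of_sum_range_le (fun M => star_rise_finite hk hn M)

/-- The key inequality. -/
theorem star (hk : 1 ≤ k) (hn : k ≤ n) {s : ℝ} (hs : 0 < s) :
    frzSum k (n + 1) ≤ s * (W0 k n * tau k n) + Qn k n / s := by
  have hsum : Summable (satProb k (n + 1)) := summable_satProb hk (by omega)
  have hτ0 : Tendsto (fun M : ℕ => ∑ m ∈ range (3 * M), satProb k (n + 1) m) atTop (𝓝 (tau k (n + 1))) :=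
    hsum.hasSum.tendsto_sum_nat.comp (tendsto_id.const_mul_atTop' (by norm_num))
  have hR : Tendsto (fun M : ℕ => s * (W0 k n * tau k n) +
      (W0 k n * tau k n - ∑ m ∈ range (3 * M), satProb k (n + 1) m) / s) atTop
      (𝓝 (s * (W0 k n * tau k n) + (W0 k n * tau k n - tau k (n + 1)) / s)) :=
    tendsto_const_nhds.add ((tendsto_const_nhds.sub hτ0).div_const s)
  have hnn : ∀ r, 0 ≤ ((opG k (n + 1)) ^ r) (frz (n + 1)) Finset.univ := fun r =>
    star_lam_nonneg (by omega) r (fun S => frz_nonneg S) _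
  have hbd : ∀ M, ∑ m ∈ range M, ((opG k (n + 1)) ^ m) (frz (n + 1)) Finset.univ ≤
      s * (W0 k n * tau k n) + (W0 k n * tau k n) / s := by
    intro M
    refine (star_finite hk hn hs M).trans ?_
    have h2 : 0 ≤ ∑ m ∈ range (3 * M), satProb k (n + 1) m :=
      Finset.sum_nonneg fun _ _ => satProb_nonneg _ _ _
    have h3 : (W0 k n * tau k n - ∑ m ∈ range (3 * M), satProb k (n + 1) m) / s ≤ (W0 k n * tau k n) / s :=
      div_le_div_of_nonneg_right (by linarith) hs.le
    linarith
  have hsumF : Summable (fun r => ((opG k (n + 1)) ^ r) (frz (n + 1)) Finset.univ) :=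
    summable_of_sum_range_le hnn hbd
  have hS := hsumF.hasSum.tendsto_sum_nat
  have := le_of_tendsto_of_tendsto' hS hR (fun M => star_finite hk hn hs M)
  unfold frzSum Qn
  exact this

lemma Qn_nonneg (hk : 1 ≤ k) (hn : k ≤ n) : 0 ≤ Qn k n := by
  have := rise hk hn
  unfold Qn
  linarith

end Vale.Agent.Lib.P170T
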