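import Vale.Agent.Lib.P170T.Defs

/-!
# Module CHAIN: abstract cut chain. See notes/P170T_blueprint.md, part B.
-/

open Finset Filter Topology

namespace Vale.Agent.Lib.P170T

open Vale.Agent.Lib.P170 Vale.Agent.Lib.P170B

variable {Ω U : Type} [Fintype Ω] [DecidableEq Ω] [Fintype U] [Nonempty U] {φ : U → Finset Ω}
variable {K ρ : ℝ}

private lemma card_U_pos : (0 : ℝ) < (Fintype.card U : ℝ) := by
  exact_mod_cast Fintype.card_pos

lemma surv_nonneg (S : Finset Ω) (m : ℕ) : 0 ≤ surv φ S m := by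
  unfold surv
  have h := ((avgOp_stoch φ).pow m).mono (fun _ => 0) eInd (fun X => eInd_nonneg X) S
  rw [((avgOp_stoch φ).pow m).const] at h
  simpa using h

private lemma eInd_le_one' (S : Finset Ω) : eInd S ≤ 1 := by
  unfold eInd
  split_ifs <;> norm_num

lemma surv_le_one (S : Finset Ω) (m : ℕ) : surv φ S m ≤ 1 := by
  unfold surv
  have h := ((avgOp_stoch φ).pow m).mono eInd (fun _ => 1) (fun X => eInd_le_one' X) S
  rw [((avgOp_stoch φ).pow m).const] at h
  simpa using h

lemma surv_empty (m : ℕ) : surv φ (∅ : Finset Ω) m = 0 := by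
  unfold surv
  induction m with
  | zero => simp [eInd]
  | succ m ih =>
    rw [pow_succ']
    show avgOp φ ((avgOp φ ^ m) eInd) ∅ = 0
    rw [avgOp_apply]
    simp only [Finset.empty_inter]
    rw [ih]
    simp

lemma surv_zero {S : Finset Ω} (hS : S.Nonempty) : surv φ S 0 = 1 := by
  unfold surv
  simp [eInd, hS]

lemma surv_succ (S : Finset Ω) (m : ℕ) :
    surv φ S (m + 1) = (∑ u, surv φ (S ∩ φ u) m) / (Fintype.card U : ℝ) := by
  unfold surv
  rw [pow_succ']
  rfl

lemma surv_mono {S S' : Finset Ω} (h : S ⊆ S') (m : ℕ) : surv φ S m ≤ surv φ S' m := by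
  induction m generalizing S S' with
  | zero =>
    unfold surv
    simp only [pow_zero, Module.End.one_apply]
    unfold eInd
    by_cases hS : S.Nonempty
    · rw [if_pos hS, if_pos (hS.mono h)]
    · rw [if_neg hS]
      split_ifs <;> norm_num
  | succ m ih =>
    rw [surv_succ, surv_succ]
    apply div_le_div_of_nonneg_right _ (le_of_lt card_U_pos)
    exact Finset.sum_le_sum (fun u _ => ih (Finset.inter_subset_inter_right h))

lemma summable_surv (h : Decay φ K ρ) (S : Finset Ω) : Summable (surv φ S) := by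
  refine Summable.of_nonneg_of_le (fun m => surv_nonneg S m) (fun m => ?_)
    ((summable_geometric_of_lt_one h.rho_nonneg h.rho_lt).mul_left K)
  exact (surv_mono (Finset.subset_univ S) m).trans (h.bound m)

lemma life_empty : life φ (∅ : Finset Ω) = 0 := by
  unfold life
  simp only [surv_empty]
  simp

lemma life_nonneg (S : Finset Ω) : 0 ≤ life φ S := tsum_nonneg (fun m => surv_nonneg S m)

lemma life_mono (h : Decay φ K ρ) {S S' : Finset Ω} (hS : S ⊆ S') : life φ S ≤ life φ S' :=
  (summable_surv h S).tsum_le_tsum (fun m => surv_mono hS m) (summable_surv h S')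

/-- First step analysis. -/
lemma life_rec (h : Decay φ K ρ) {S : Finset Ω} (hS : S.Nonempty) :
    life φ S = 1 + avgOp φ (life φ) S := by
  unfold life
  rw [(summable_surv h S).tsum_eq_zero_add, surv_zero hS, avgOp_apply]
  congr 1
  simp only [surv_succ]
  rw [tsum_div_const, Summable.tsum_finsetSum (fun u _ => summable_surv h (S ∩ φ u))]

lemma one_le_life (h : Decay φ K ρ) {S : Finset Ω} (hS : S.Nonempty) : 1 ≤ life φ S := by
  rw [life_rec h hS, avgOp_apply]
  have : 0 ≤ (∑ u, life φ (S ∩ φ u)) / (Fintype.card U : ℝ) :=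
    div_nonneg (Finset.sum_nonneg (fun u _ => life_nonneg _)) (le_of_lt card_U_pos)
  linarith

lemma haz_nonneg (S : Finset Ω) : 0 ≤ haz φ S := by
  unfold haz
  positivity

lemma haz_le_one (S : Finset Ω) : haz φ S ≤ 1 := by
  classical
  unfold haz
  rw [div_le_one card_U_pos]
  exact_mod_cast Finset.card_le_univ _

lemma haz_anti {S S' : Finset Ω} (h : S ⊆ S') : haz φ S' ≤ haz φ S := by
  classical
  unfold haz
  apply div_le_div_of_nonneg_right _ (le_of_lt card_U_pos)
  have : (Finset.univ.filter (fun u => S' ∩ φ u = ∅)) ⊆ (Finset.univ.filter (fun u => S ∩ φ u = ∅)) := by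
    intro u hu
    simp only [Finset.mem_filter, Finset.mem_univ, true_and] at hu ⊢
    exact Finset.subset_empty.1 (hu ▸ Finset.inter_subset_inter_right h)
  exact_mod_cast Finset.card_le_card this

/-- One step: split the sum over killers and non-killers. -/
private lemma surv_le_pow (S : Finset Ω) (m : ℕ) : surv φ S m ≤ (1 - haz φ S) ^ m := by
  classical
  induction m generalizing S with
  | zero =>
    simpa using surv_le_one S 0
  | succ m ih =>
    rw [surv_succ, div_le_iff₀ card_U_pos]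
    have h0 : 0 ≤ 1 - haz φ S := by linarith [haz_le_one (φ := φ) S]
    have key : ∀ u, surv φ (S ∩ φ u) m ≤ (if S ∩ φ u = ∅ then 0 else (1 - haz φ S) ^ m) := by
      intro u
      split_ifs with hu
      · rw [hu, surv_empty]
      · refine (ih (S ∩ φ u)).trans (pow_le_pow_left₀ ?_ ?_ m)
        · linarith [haz_le_one (φ := φ) (S ∩ φ u)]
        · linarith [haz_anti (φ := φ) (Finset.inter_subset_left (s₁ := S) (s₂ := φ u))]
    refine (Finset.sum_le_sum (fun u _ => key u)).trans (le_of_eq ?_)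
    rw [Finset.sum_ite, Finset.sum_const_zero, zero_add, Finset.sum_const, nsmul_eq_mul]
    have hc : ((Finset.univ.filter (fun u => ¬ S ∩ φ u = ∅)).card : ℝ)
        = (Fintype.card U : ℝ) * (1 - haz φ S) := by
      have h1 := Finset.card_filter_add_card_filter_not (s := (Finset.univ : Finset U))
        (fun u => S ∩ φ u = ∅)
      have h2 : ((Finset.univ.filter (fun u => S ∩ φ u = ∅)).card : ℝ)
          + ((Finset.univ.filter (fun u => ¬ S ∩ φ u = ∅)).card : ℝ) = (Fintype.card U : ℝ) := by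
        exact_mod_cast h1
      have h3 : haz φ S = ((Finset.univ.filter (fun u => S ∩ φ u = ∅)).card : ℝ)
          / (Fintype.card U : ℝ) := rfl
      rw [h3]
      have hne := (card_U_pos (U := U)).ne'
      field_simp
      linarith
    rw [hc, pow_succ]
    ring

/-- Geometric domination: the hazard only grows along the chain. -/
lemma haz_mul_life_le_one (h : Decay φ K ρ) {S : Finset Ω} (hS : S.Nonempty) :
    haz φ S * life φ S ≤ 1 := by
  by_cases hz : haz φ S = 0
  · rw [hz]; norm_num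
  have hpos : 0 < haz φ S := lt_of_le_of_ne (haz_nonneg S) (Ne.symm hz)
  have h0 : 0 ≤ 1 - haz φ S := by linarith [haz_le_one (φ := φ) S]
  have h1 : 1 - haz φ S < 1 := by linarith
  have hg := summable_geometric_of_lt_one h0 h1
  have hle : life φ S ≤ ∑' m : ℕ, (1 - haz φ S) ^ m :=
    (summable_surv h S).tsum_le_tsum (fun m => surv_le_pow S m) hg
  rw [tsum_geometric_of_lt_one h0 h1] at hle
  have : (1 - (1 - haz φ S))⁻¹ = (haz φ S)⁻¹ := by congr 1; ring
  rw [this] at hle
  calc haz φ S * life φ S ≤ haz φ S * (haz φ S)⁻¹ := by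
        exact mul_le_mul_of_nonneg_left hle hpos.le
    _ = 1 := mul_inv_cancel₀ hz

lemma gfun_nonneg (h : Decay φ K ρ) (S : Finset Ω) : 0 ≤ gfun φ S := by
  unfold gfun
  split_ifs with hS
  · have := one_le_life h hS
    exact mul_nonneg (haz_nonneg S) (by linarith)
  · exact le_rfl

lemma gfun_le_two (h : Decay φ K ρ) (S : Finset Ω) : gfun φ S ≤ 2 * eInd S := by
  unfold gfun eInd
  split_ifs with hS
  · have h1 := haz_mul_life_le_one h hS
    have h2 := haz_nonneg (φ := φ) S
    nlinarith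
  · norm_num

/-- The jump recursion `G S ≤ g S + T G S` with `G S = E (L S - L (S ∩ φ u))^2`. -/
lemma jump_rec (h : Decay φ K ρ) {S : Finset Ω} (hS : S.Nonempty) :
    avgOp φ (fun X => (life φ S - life φ X) ^ 2) S ≤
      gfun φ S + avgOp φ (fun X => avgOp φ (fun Y => (life φ X - life φ Y) ^ 2) X) S := by
  classical
  set L := life φ with hL
  have hc := (card_U_pos (U := U))
  have hcne := hc.ne'
  set n : ℝ := (Fintype.card U : ℝ) with hn
  -- the average over v, for fixed u
  let A : U → ℝ := fun u => (∑ v, (L (S ∩ φ v) - L (S ∩ φ v ∩ φ u)) ^ 2) / n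
  have hrec : L S = 1 + (∑ v, L (S ∩ φ v)) / n := by
    have := life_rec h hS
    rw [avgOp_apply] at this
    exact this
  -- Cauchy-Schwarz for the average
  have hCS : ∀ a : U → ℝ, ((∑ v, a v) / n) ^ 2 ≤ (∑ v, a v ^ 2) / n := by
    intro a
    have h1 : (∑ v, a v) ^ 2 ≤ (Finset.univ : Finset U).card * ∑ v, a v ^ 2 :=
      sq_sum_le_card_mul_sum_sq
    rw [Finset.card_univ] at h1
    rw [div_pow, div_le_div_iff₀ (by positivity) hc]
    calc (∑ v, a v) ^ 2 * n ≤ (n * ∑ v, a v ^ 2) * n := by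
          exact mul_le_mul_of_nonneg_right h1 hc.le
      _ = (∑ v, a v ^ 2) * n ^ 2 := by ring
  -- the pointwise estimate
  have key : ∀ u, (L S - L (S ∩ φ u)) ^ 2 ≤
      A u + (if S ∩ φ u = ∅ then 2 * L S - 1 else 0) := by
    intro u
    by_cases hu : S ∩ φ u = ∅
    · rw [if_pos hu, hu]
      have hLe : L ∅ = 0 := life_empty
      rw [hLe, sub_zero]
      have hA : A u = (∑ v, (L (S ∩ φ v)) ^ 2) / n := by
        show (∑ v, (L (S ∩ φ v) - L (S ∩ φ v ∩ φ u)) ^ 2) / n = _
        congr 1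
        refine Finset.sum_congr rfl (fun v _ => ?_)
        have : S ∩ φ v ∩ φ u = ∅ := by
          rw [Finset.inter_right_comm, hu, Finset.empty_inter]
        rw [this, hLe, sub_zero]
      have h2 := hCS (fun v => L (S ∩ φ v))
      have h3 : (∑ v, L (S ∩ φ v)) / n = L S - 1 := by linarith
      rw [h3] at h2
      rw [hA]
      nlinarith
    · rw [if_neg hu, add_zero]
      have hne : (S ∩ φ u).Nonempty := Finset.nonempty_iff_ne_empty.2 hu
      have hrec2 : L (S ∩ φ u) = 1 + (∑ v, L (S ∩ φ u ∩ φ v)) / n := by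
        have := life_rec h hne
        rw [avgOp_apply] at this
        exact this
      have hD : L S - L (S ∩ φ u) = (∑ v, (L (S ∩ φ v) - L (S ∩ φ v ∩ φ u))) / n := by
        rw [Finset.sum_sub_distrib, sub_div, hrec, hrec2]
        have : ∀ v, S ∩ φ v ∩ φ u = S ∩ φ u ∩ φ v := fun v => Finset.inter_right_comm _ _ _
        simp only [this]
        ring
      rw [hD]
      exact hCS _
  -- sum over u
  have hsum : ∑ u, (L S - L (S ∩ φ u)) ^ 2 ≤
      ∑ u, (A u + (if S ∩ φ u = ∅ then 2 * L S - 1 else 0)) :=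
    Finset.sum_le_sum (fun u _ => key u)
  rw [Finset.sum_add_distrib, Finset.sum_ite, Finset.sum_const_zero, add_zero,
    Finset.sum_const, nsmul_eq_mul] at hsum
  have hg : gfun φ S = ((Finset.univ.filter (fun u => S ∩ φ u = ∅)).card : ℝ) / n
      * (2 * L S - 1) := by
    unfold gfun
    rw [if_pos hS]
    rfl
  have hAsum : avgOp φ (fun X => avgOp φ (fun Y => (L X - L Y) ^ 2) X) S = (∑ u, A u) / n := by
    rw [avgOp_apply]
    simp only [avgOp_apply]
    rw [Finset.sum_div, ← hn]
    show _ = (∑ u, (∑ v, (L (S ∩ φ v) - L (S ∩ φ v ∩ φ u)) ^ 2) / n) / n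
    rw [← Finset.sum_div, ← Finset.sum_div, ← Finset.sum_div, Finset.sum_comm]
  rw [avgOp_apply, hg, hAsum]
  rw [div_le_iff₀ hc]
  have hfin : ((∑ u, A u) / n + ((Finset.univ.filter (fun u => S ∩ φ u = ∅)).card : ℝ) / n
      * (2 * L S - 1)) * n = ∑ u, A u + ((Finset.univ.filter (fun u => S ∩ φ u = ∅)).card : ℝ)
      * (2 * L S - 1) := by
    field_simp
  calc _ ≤ ∑ u, A u + ((Finset.univ.filter (fun u => S ∩ φ u = ∅)).card : ℝ) * (2 * L S - 1) := hsum
    _ = _ := by
      rw [← hfin]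
      ring

/-! ### The potentials `Ghat`, `Z` and the maximum principle (module Chain-cheb) -/

section Cheb

set_option linter.unusedSectionVars false

omit [Fintype Ω] [DecidableEq Ω] in
lemma chebAux_pow_succ_apply [DecidableEq Ω] (T : Module.End ℝ (Finset Ω → ℝ)) (r : ℕ) (f : Finset Ω → ℝ) :
    (T ^ (r + 1)) f = T ((T ^ r) f) := by
  rw [pow_succ']
  rfl

lemma chebAux_const_mul (c : ℝ) (f : Finset Ω → ℝ) (S : Finset Ω) :
    avgOp φ (fun X => c * f X) S = c * avgOp φ f S := by
  simp only [avgOp_apply]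
  rw [← Finset.mul_sum, mul_div_assoc]

lemma chebAux_card_ne : (Fintype.card U : ℝ) ≠ 0 := by
  exact_mod_cast Fintype.card_ne_zero

/-- The empty set is a fixed point of the chain. -/
lemma chebAux_pow_empty (f : Finset Ω → ℝ) (r : ℕ) : ((avgOp φ) ^ r) f ∅ = f ∅ := by
  induction r generalizing f with
  | zero => simp
  | succ r ih =>
    rw [pow_succ]
    show ((avgOp φ) ^ r) (avgOp φ f) ∅ = f ∅
    rw [ih]
    have hc := chebAux_card_ne (U := U)
    simp only [avgOp_apply, Finset.empty_inter, Finset.sum_const, Finset.card_univ, nsmul_eq_mul]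
    field_simp

lemma chebAux_K_nonneg (h : Decay φ K ρ) : 0 ≤ K := by
  have h0 := h.bound 0
  have h1 := surv_nonneg (φ := φ) Finset.univ 0
  simp only [pow_zero, mul_one] at h0
  linarith

lemma chebAux_surv_le (h : Decay φ K ρ) (S : Finset Ω) (r : ℕ) : surv φ S r ≤ K * ρ ^ r :=
  (surv_mono (Finset.subset_univ S) r).trans (h.bound r)

lemma chebAux_pow_g_nonneg (h : Decay φ K ρ) (r : ℕ) (S : Finset Ω) :
    0 ≤ ((avgOp φ) ^ r) (gfun φ) S := by
  have hs := ((avgOp_stoch φ).pow r).mono (fun _ => 0) (gfun φ) (fun X => gfun_nonneg h X) S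
  have hc := ((avgOp_stoch φ).pow r).const 0
  rw [hc] at hs
  exact hs

lemma chebAux_pow_g_le (h : Decay φ K ρ) (r : ℕ) (S : Finset Ω) :
    ((avgOp φ) ^ r) (gfun φ) S ≤ 2 * surv φ S r := by
  have hs := ((avgOp_stoch φ).pow r).mono (gfun φ) ((2 : ℝ) • eInd) (fun X => by
    simpa [smul_eq_mul] using gfun_le_two h X) S
  rw [map_smul] at hs
  simpa [surv, smul_eq_mul] using hs

lemma chebAux_summable_mul_geom (h : Decay φ K ρ) :
    Summable (fun r : ℕ => ((r : ℝ) + 1) * (2 * (K * ρ ^ r))) := by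
  have hρ : ‖ρ‖ < 1 := by
    rw [Real.norm_eq_abs, abs_of_nonneg h.rho_nonneg]
    exact h.rho_lt
  have h1 : Summable (fun r : ℕ => ((r : ℝ) ^ 1) * ρ ^ r) :=
    summable_pow_mul_geometric_of_norm_lt_one 1 hρ
  have h2 : Summable (fun r : ℕ => ρ ^ r) := summable_geometric_of_norm_lt_one hρ
  have h3 := ((h1.add h2).mul_left (2 * K))
  refine h3.congr (fun r => ?_)
  ring

lemma chebAux_summable_geom (h : Decay φ K ρ) :
    Summable (fun r : ℕ => 2 * (K * ρ ^ r)) := by
  have hρ : ‖ρ‖ < 1 := by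
    rw [Real.norm_eq_abs, abs_of_nonneg h.rho_nonneg]
    exact h.rho_lt
  have h2 : Summable (fun r : ℕ => ρ ^ r) := summable_geometric_of_norm_lt_one hρ
  exact (h2.mul_left K).mul_left 2

lemma chebAux_summable_pow_g (h : Decay φ K ρ) (S : Finset Ω) :
    Summable (fun r : ℕ => ((avgOp φ) ^ r) (gfun φ) S) := by
  refine Summable.of_nonneg_of_le (fun r => chebAux_pow_g_nonneg h r S) (fun r => ?_)
    (chebAux_summable_geom h)
  have h1 := chebAux_pow_g_le h r S
  have h2 := chebAux_surv_le h S r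
  linarith

lemma chebAux_summable_Z (h : Decay φ K ρ) (S : Finset Ω) :
    Summable (fun r : ℕ => ((r : ℝ) + 1) * ((avgOp φ) ^ r) (gfun φ) S) := by
  refine Summable.of_nonneg_of_le (fun r => mul_nonneg (by positivity) (chebAux_pow_g_nonneg h r S))
    (fun r => ?_) (chebAux_summable_mul_geom h)
  have h1 := chebAux_pow_g_le h r S
  have h2 := chebAux_surv_le h S r
  exact mul_le_mul_of_nonneg_left (by linarith) (by positivity)

/-- The averaging operator commutes with convergent series. -/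
lemma chebAux_avg_tsum {F : ℕ → Finset Ω → ℝ} (hF : ∀ X, Summable (fun r => F r X)) (S : Finset Ω) :
    avgOp φ (fun X => ∑' r, F r X) S = ∑' r, avgOp φ (F r) S := by
  simp only [avgOp_apply]
  rw [← Summable.tsum_finsetSum (fun u _ => hF _)]
  rw [tsum_div_const]

/-- The sum of the iterates of the source term. -/
noncomputable def chebGhat (φ : U → Finset Ω) (S : Finset Ω) : ℝ :=
  ∑' r : ℕ, ((avgOp φ) ^ r) (gfun φ) S

lemma chebGhat_empty (h : Decay φ K ρ) : chebGhat φ (∅ : Finset Ω) = 0 := by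
  have hg : gfun φ (∅ : Finset Ω) = 0 := by
    have h1 := gfun_nonneg h (∅ : Finset Ω)
    have h2 := gfun_le_two h (∅ : Finset Ω)
    have h3 : eInd (∅ : Finset Ω) = 0 := by simp [eInd]
    rw [h3] at h2
    linarith
  unfold chebGhat
  simp only [chebAux_pow_empty, hg, tsum_zero]

lemma chebGhat_fix (h : Decay φ K ρ) (S : Finset Ω) :
    chebGhat φ S = gfun φ S + avgOp φ (chebGhat φ) S := by
  unfold chebGhat
  rw [(chebAux_summable_pow_g h S).tsum_eq_zero_add]
  congr 1
  have e : avgOp φ (fun X => ∑' r : ℕ, ((avgOp φ) ^ r) (gfun φ) X) S =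
      ∑' r : ℕ, avgOp φ (((avgOp φ) ^ r) (gfun φ)) S :=
    chebAux_avg_tsum (fun X => chebAux_summable_pow_g h X) S
  rw [e]
  refine tsum_congr (fun r => ?_)
  rw [chebAux_pow_succ_apply]

lemma Zfun_nonneg (h : Decay φ K ρ) (S : Finset Ω) : 0 ≤ Zfun φ S :=
  tsum_nonneg (fun r => mul_nonneg (by positivity) (chebAux_pow_g_nonneg h r S))

lemma Zfun_empty (h : Decay φ K ρ) : Zfun φ (∅ : Finset Ω) = 0 := by
  have hg : gfun φ (∅ : Finset Ω) = 0 := by
    have h1 := gfun_nonneg h (∅ : Finset Ω)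
    have h2 := gfun_le_two h (∅ : Finset Ω)
    have h3 : eInd (∅ : Finset Ω) = 0 := by simp [eInd]
    rw [h3] at h2
    linarith
  unfold Zfun
  simp only [chebAux_pow_empty, hg, mul_zero, tsum_zero]

/-- The fixed point equation of the weighted potential. -/
lemma Zfun_fix (h : Decay φ K ρ) (S : Finset Ω) :
    Zfun φ S = chebGhat φ S + avgOp φ (Zfun φ) S := by
  have e : avgOp φ (fun X => ∑' r : ℕ, ((r : ℝ) + 1) * ((avgOp φ) ^ r) (gfun φ) X) S =
      ∑' r : ℕ, avgOp φ (fun X => ((r : ℝ) + 1) * ((avgOp φ) ^ r) (gfun φ) X) S :=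
    chebAux_avg_tsum (fun X => chebAux_summable_Z h X) S
  have e1 : avgOp φ (Zfun φ) S = ∑' r : ℕ, ((r : ℝ) + 1) * ((avgOp φ) ^ (r + 1)) (gfun φ) S := by
    show avgOp φ (fun X => ∑' r : ℕ, ((r : ℝ) + 1) * ((avgOp φ) ^ r) (gfun φ) X) S = _
    rw [e]
    refine tsum_congr (fun r => ?_)
    rw [chebAux_const_mul, chebAux_pow_succ_apply]
  have hs := chebAux_summable_Z h S
  have hs1 : Summable (fun r : ℕ => (r : ℝ) * ((avgOp φ) ^ r) (gfun φ) S) := by
    refine Summable.of_nonneg_of_le
      (fun r => mul_nonneg (by positivity) (chebAux_pow_g_nonneg h r S)) (fun r => ?_) hs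
    exact mul_le_mul_of_nonneg_right (by linarith) (chebAux_pow_g_nonneg h r S)
  have hsplit : Zfun φ S = chebGhat φ S + ∑' r : ℕ, (r : ℝ) * ((avgOp φ) ^ r) (gfun φ) S := by
    unfold Zfun chebGhat
    rw [← (chebAux_summable_pow_g h S).tsum_add hs1]
    refine tsum_congr (fun r => ?_)
    ring
  have htail : ∑' r : ℕ, (r : ℝ) * ((avgOp φ) ^ r) (gfun φ) S =
      ∑' r : ℕ, ((r : ℝ) + 1) * ((avgOp φ) ^ (r + 1)) (gfun φ) S := by
    rw [hs1.tsum_eq_zero_add]
    simp
  rw [hsplit, e1, htail]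

/-- The maximum principle: `G ≤ Ghat`. -/
lemma cheb_G_le (h : Decay φ K ρ) (S : Finset Ω) :
    avgOp φ (fun Y => (life φ S - life φ Y) ^ 2) S ≤ chebGhat φ S := by
  set Gf : Finset Ω → ℝ := fun X => avgOp φ (fun Y => (life φ X - life φ Y) ^ 2) X with hGf
  set B : Finset Ω → ℝ := fun X => Gf X - chebGhat φ X with hB
  have hGe : Gf ∅ = 0 := by
    have hc := chebAux_card_ne (U := U)
    simp only [hGf, avgOp_apply, Finset.empty_inter, sub_self]
    simp
  have hBe : B ∅ = 0 := by
    simp only [hB, hGe, chebGhat_empty h, sub_zero]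
  have hAvgEmpty : ∀ f : Finset Ω → ℝ, avgOp φ f ∅ = f ∅ := by
    intro f
    have := chebAux_pow_empty (φ := φ) f 1
    simpa using this
  have hstep : ∀ X, B X ≤ avgOp φ B X := by
    intro X
    have hsub : avgOp φ B X = avgOp φ Gf X - avgOp φ (chebGhat φ) X := by
      have : B = Gf - chebGhat φ := rfl
      rw [this, map_sub]
      rfl
    rw [hsub]
    by_cases hX : X.Nonempty
    · have hj := jump_rec h hX
      have hfix := chebGhat_fix h X
      simp only [hB, hGf] at *
      linarith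
    · have hXe : X = ∅ := Finset.not_nonempty_iff_eq_empty.mp hX
      subst hXe
      rw [hAvgEmpty, hAvgEmpty]
  have hiter : ∀ m : ℕ, ∀ X, B X ≤ ((avgOp φ) ^ m) B X := by
    intro m
    induction m with
    | zero => intro X; simp
    | succ m ih =>
      intro X
      refine (ih X).trans ?_
      rw [pow_succ]
      exact ((avgOp_stoch φ).pow m).mono _ _ hstep X
  set C : ℝ := ∑ X, |B X| with hC
  have hC0 : 0 ≤ C := Finset.sum_nonneg (fun _ _ => abs_nonneg _)
  have hbd : ∀ X, B X ≤ ((C : ℝ) • (eInd : Finset Ω → ℝ)) X := by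
    intro X
    by_cases hX : X.Nonempty
    · have h1 : eInd X = 1 := by simp [eInd, hX]
      simp only [Pi.smul_apply, smul_eq_mul, h1, mul_one]
      exact (le_abs_self _).trans (Finset.single_le_sum (f := fun X => |B X|)
        (fun _ _ => abs_nonneg _) (Finset.mem_univ X))
    · have hXe : X = ∅ := Finset.not_nonempty_iff_eq_empty.mp hX
      subst hXe
      simp [hBe, eInd]
  have hfin : ∀ m : ℕ, B S ≤ C * (K * ρ ^ m) := by
    intro m
    have h1 := hiter m S
    have h2 := ((avgOp_stoch φ).pow m).mono _ _ hbd S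
    rw [map_smul] at h2
    have h3 : ((avgOp φ ^ m) (eInd : Finset Ω → ℝ)) S = surv φ S m := rfl
    simp only [Pi.smul_apply, smul_eq_mul, h3] at h2
    have h4 := chebAux_surv_le h S m
    calc B S ≤ _ := h1
      _ ≤ _ := h2
      _ ≤ _ := mul_le_mul_of_nonneg_left h4 hC0
  have hlim : Tendsto (fun m : ℕ => C * (K * ρ ^ m)) atTop (𝓝 (C * (K * 0))) :=
    (((tendsto_pow_atTop_nhds_zero_of_lt_one h.rho_nonneg h.rho_lt).const_mul K).const_mul C)
  have hB0 : B S ≤ C * (K * 0) := ge_of_tendsto' hlim hfin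
  simp only [mul_zero] at hB0
  have : Gf S - chebGhat φ S ≤ 0 := hB0
  have h5 : Gf S ≤ chebGhat φ S := by linarith
  exact h5

/-- The common step of the two Chebyshev inductions. -/
lemma cheb_step (h : Decay φ K ρ) {S : Finset Ω} (hS : S.Nonempty) (a : ℝ) :
    avgOp φ (fun X => (life φ X - (a - 1)) ^ 2 + Zfun φ X) S ≤ (life φ S - a) ^ 2 + Zfun φ S := by
  set L := life φ S with hL
  have hrec : L = 1 + avgOp φ (life φ) S := life_rec h hS
  have hfun : (fun X => (life φ X - (a - 1)) ^ 2 + Zfun φ X) =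
      (fun Y => (L - life φ Y) ^ 2) + ((2 * L - 2 * (a - 1)) • life φ) +
        (fun _ => (a - 1) ^ 2 - L ^ 2) + Zfun φ := by
    funext X
    simp only [Pi.add_apply, Pi.smul_apply, smul_eq_mul]
    ring
  have hconst : avgOp φ (fun _ => (a - 1) ^ 2 - L ^ 2) S = (a - 1) ^ 2 - L ^ 2 := by
    have := (avgOp_stoch φ).const ((a - 1) ^ 2 - L ^ 2)
    rw [this]
  rw [hfun, map_add, map_add, map_add, map_smul]
  simp only [Pi.add_apply, Pi.smul_apply, smul_eq_mul]
  rw [hconst]
  have hG := cheb_G_le h S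
  rw [← hL] at hG
  have hZ := Zfun_fix h S
  have hE : avgOp φ (life φ) S = L - 1 := by linarith
  rw [hE]
  nlinarith

lemma chebAux_avg_one_sub_surv (S : Finset Ω) (m : ℕ) (c : ℝ) :
    avgOp φ (fun X => (1 - surv φ X m) * c) S = (1 - surv φ S (m + 1)) * c := by
  have hc := chebAux_card_ne (U := U)
  simp only [avgOp_apply]
  rw [surv_succ, ← Finset.sum_mul, Finset.sum_sub_distrib]
  simp only [Finset.sum_const, Finset.card_univ, nsmul_eq_mul, mul_one]
  field_simp

lemma chebAux_avg_surv (S : Finset Ω) (m : ℕ) (c : ℝ) :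
    avgOp φ (fun X => surv φ X m * c) S = surv φ S (m + 1) * c := by
  simp only [avgOp_apply]
  rw [surv_succ, ← Finset.sum_mul]
  ring

/-- Chebyshev for the lower tail, for all starting sets and centres. -/
lemma cheb_lower_aux (h : Decay φ K ρ) (m : ℕ) : ∀ (S : Finset Ω) (a : ℝ), (m : ℝ) ≤ a →
    (1 - surv φ S m) * (a - m) ^ 2 ≤ (life φ S - a) ^ 2 + Zfun φ S := by
  induction m with
  | zero =>
    intro S a _
    by_cases hS : S.Nonempty
    · rw [surv_zero hS]
      have h1 := Zfun_nonneg h S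
      simp only [sub_self, zero_mul]
      positivity
    · have hSe : S = ∅ := Finset.not_nonempty_iff_eq_empty.mp hS
      subst hSe
      rw [surv_empty, life_empty, Zfun_empty h]
      simp
  | succ m ih =>
    intro S a ha
    push_cast at ha ⊢
    by_cases hS : S.Nonempty
    · have h1 : ∀ X, (1 - surv φ X m) * ((a - 1) - m) ^ 2 ≤
          (life φ X - (a - 1)) ^ 2 + Zfun φ X := fun X => ih X (a - 1) (by linarith)
      have h2 := (avgOp_stoch φ).mono _ _ h1 S
      rw [chebAux_avg_one_sub_surv] at h2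
      have h3 := cheb_step h hS a
      have e : a - (m + 1) = a - 1 - m := by ring
      rw [e]
      exact h2.trans h3
    · have hSe : S = ∅ := Finset.not_nonempty_iff_eq_empty.mp hS
      subst hSe
      rw [surv_empty, life_empty, Zfun_empty h]
      have hm : (0 : ℝ) ≤ m := by positivity
      have h0 : 0 ≤ a - (m + 1) := by linarith
      have h1 : a - (m + 1) ≤ a := by linarith
      have := pow_le_pow_left₀ h0 h1 2
      simp only [sub_zero, one_mul, add_zero, zero_sub, neg_sq]
      exact this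

/-- Chebyshev for the upper tail, for all starting sets and centres. -/
lemma cheb_upper_aux (h : Decay φ K ρ) (m : ℕ) : ∀ (S : Finset Ω) (a : ℝ), a ≤ (m : ℝ) →
    surv φ S m * ((m : ℝ) - a) ^ 2 ≤ (life φ S - a) ^ 2 + Zfun φ S := by
  induction m with
  | zero =>
    intro S a ha
    have hZ := Zfun_nonneg h S
    by_cases hS : S.Nonempty
    · rw [surv_zero hS]
      have h1 := one_le_life h hS
      simp only [Nat.cast_zero] at ha ⊢
      have h2 : 0 ≤ -a := by linarith
      have h3 : -a ≤ life φ S - a := by linarith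
      have h4 := pow_le_pow_left₀ h2 h3 2
      have e : (0 - a) ^ 2 = (-a) ^ 2 := by ring
      rw [one_mul, e]
      linarith
    · have hSe : S = ∅ := Finset.not_nonempty_iff_eq_empty.mp hS
      subst hSe
      rw [surv_empty, zero_mul]
      positivity
  | succ m ih =>
    intro S a ha
    push_cast at ha ⊢
    have hZ := Zfun_nonneg h S
    by_cases hS : S.Nonempty
    · have h1 : ∀ X, surv φ X m * ((m : ℝ) - (a - 1)) ^ 2 ≤
          (life φ X - (a - 1)) ^ 2 + Zfun φ X := fun X => ih X (a - 1) (by linarith)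
      have h2 := (avgOp_stoch φ).mono _ _ h1 S
      rw [chebAux_avg_surv] at h2
      have h3 := cheb_step h hS a
      have e : (m : ℝ) + 1 - a = (m : ℝ) - (a - 1) := by ring
      rw [e]
      exact h2.trans h3
    · have hSe : S = ∅ := Finset.not_nonempty_iff_eq_empty.mp hS
      subst hSe
      rw [surv_empty, zero_mul]
      positivity

/-- Chebyshev, lower tail of the death time. -/
theorem cheb_lower (h : Decay φ K ρ) (m : ℕ) (hm : (m : ℝ) ≤ life φ Finset.univ) :
    (1 - surv φ Finset.univ m) * (life φ Finset.univ - m) ^ 2 ≤ Zfun φ Finset.univ := by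
  have := cheb_lower_aux h m Finset.univ _ hm
  simpa using this

/-- Chebyshev, upper tail of the death time. -/
theorem cheb_upper (h : Decay φ K ρ) (m : ℕ) (hm : life φ Finset.univ ≤ m) :
    surv φ Finset.univ m * ((m : ℝ) - life φ Finset.univ) ^ 2 ≤ Zfun φ Finset.univ := by
  have := cheb_upper_aux h m Finset.univ _ hm
  simpa using this

/-- Splitting the potential at time `M`. -/
theorem Zfun_split (h : Decay φ K ρ) {f : Finset Ω → ℝ} {ϑ : ℝ} (hϑ : 0 ≤ ϑ)
    (hf0 : ∀ S, 0 ≤ f S) (hf1 : ∀ S, f S ≤ 1) (hfe : f ∅ = 0)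
    (hg : ∀ S, gfun φ S ≤ ϑ * f S) (M : ℕ) :
    Zfun φ Finset.univ ≤ (M : ℝ) * ϑ * (∑' r, (avgOp φ ^ r) f Finset.univ) +
      2 * ∑' r : ℕ, ((r : ℝ) + M + 1) * surv φ Finset.univ (r + M) := by
  set S : Finset Ω := Finset.univ with hS
  have hZs := chebAux_summable_Z h S
  -- the iterates of `f`
  have hfnn : ∀ r : ℕ, 0 ≤ ((avgOp φ) ^ r) f S := by
    intro r
    have hs := ((avgOp_stoch φ).pow r).mono (fun _ => 0) f hf0 S
    rw [((avgOp_stoch φ).pow r).const 0] at hs
    exact hs
  have hfe' : ∀ X, f X ≤ eInd X := by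
    intro X
    by_cases hX : X.Nonempty
    · simpa [eInd, hX] using hf1 X
    · have hXe : X = ∅ := Finset.not_nonempty_iff_eq_empty.mp hX
      subst hXe
      simp [hfe, eInd]
  have hfle : ∀ r : ℕ, ((avgOp φ) ^ r) f S ≤ K * ρ ^ r := by
    intro r
    have h1 := ((avgOp_stoch φ).pow r).mono _ _ hfe' S
    exact h1.trans (chebAux_surv_le h S r)
  have hgeom : Summable (fun r : ℕ => K * ρ ^ r) := by
    have hρ : ‖ρ‖ < 1 := by
      rw [Real.norm_eq_abs, abs_of_nonneg h.rho_nonneg]
      exact h.rho_lt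
    exact (summable_geometric_of_norm_lt_one hρ).mul_left K
  have hfs : Summable (fun r : ℕ => ((avgOp φ) ^ r) f S) :=
    Summable.of_nonneg_of_le hfnn hfle hgeom
  -- comparison of the iterates of `g` and `f`
  have hgf : ∀ r : ℕ, ((avgOp φ) ^ r) (gfun φ) S ≤ ϑ * ((avgOp φ) ^ r) f S := by
    intro r
    have h1 := ((avgOp_stoch φ).pow r).mono (gfun φ) (ϑ • f) (fun X => by
      simpa [smul_eq_mul] using hg X) S
    rw [map_smul] at h1
    simpa [smul_eq_mul] using h1
  -- split at `M`
  have hsplit := hZs.sum_add_tsum_nat_add M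
  have hZdef : Zfun φ S = ∑' r : ℕ, ((r : ℝ) + 1) * ((avgOp φ) ^ r) (gfun φ) S := rfl
  rw [hZdef, ← hsplit]
  refine add_le_add ?_ ?_
  · -- the initial segment
    have h1 : ∑ i ∈ Finset.range M, ((i : ℝ) + 1) * ((avgOp φ) ^ i) (gfun φ) S ≤
        ∑ i ∈ Finset.range M, (M : ℝ) * ϑ * ((avgOp φ) ^ i) f S := by
      refine Finset.sum_le_sum (fun i hi => ?_)
      have hi' : (i : ℝ) + 1 ≤ M := by
        have := Finset.mem_range.mp hi
        exact_mod_cast this
      have h2 := hgf i
      have h3 := chebAux_pow_g_nonneg h i S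
      calc ((i : ℝ) + 1) * ((avgOp φ) ^ i) (gfun φ) S
          ≤ (M : ℝ) * ((avgOp φ) ^ i) (gfun φ) S := mul_le_mul_of_nonneg_right hi' h3
        _ ≤ (M : ℝ) * (ϑ * ((avgOp φ) ^ i) f S) := mul_le_mul_of_nonneg_left h2 (by positivity)
        _ = _ := by ring
    refine h1.trans ?_
    rw [← Finset.mul_sum]
    refine mul_le_mul_of_nonneg_left ?_ (by positivity)
    exact hfs.sum_le_tsum _ (fun i _ => hfnn i)
  · -- the tail
    have htail : Summable (fun r : ℕ => ((r : ℝ) + M + 1) * surv φ S (r + M)) := by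
      have hb : Summable (fun r : ℕ => (((r + M : ℕ) : ℝ) + 1) * (2 * (K * ρ ^ (r + M)))) :=
        (summable_nat_add_iff M).mpr (chebAux_summable_mul_geom h)
      refine Summable.of_nonneg_of_le
        (fun r => mul_nonneg (by positivity) (surv_nonneg _ _)) (fun r => ?_) hb
      have h1 := chebAux_surv_le h S (r + M)
      have h2 := surv_nonneg (φ := φ) S (r + M)
      push_cast
      refine mul_le_mul_of_nonneg_left ?_ (by positivity)
      linarith
    have hs1 : Summable (fun i : ℕ => (((i + M : ℕ) : ℝ) + 1) * ((avgOp φ) ^ (i + M)) (gfun φ) S) :=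
      (summable_nat_add_iff (f := fun r : ℕ => ((r : ℝ) + 1) * ((avgOp φ) ^ r) (gfun φ) S) M).mpr hZs
    have hle : ∀ r : ℕ, (((r + M : ℕ) : ℝ) + 1) * ((avgOp φ) ^ (r + M)) (gfun φ) S ≤
        2 * (((r : ℝ) + M + 1) * surv φ S (r + M)) := by
      intro r
      have h1 := chebAux_pow_g_le h (r + M) S
      have h2 : (0 : ℝ) ≤ (r : ℝ) + M + 1 := by positivity
      have e : (((r + M : ℕ) : ℝ) + 1) = (r : ℝ) + M + 1 := by push_cast; ring
      rw [e]
      calc ((r : ℝ) + M + 1) * ((avgOp φ) ^ (r + M)) (gfun φ) S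
          ≤ ((r : ℝ) + M + 1) * (2 * surv φ S (r + M)) := mul_le_mul_of_nonneg_left h1 h2
        _ = _ := by ring
    have hfin := Summable.tsum_le_tsum hle hs1 (htail.mul_left 2)
    rw [tsum_mul_left] at hfin
    exact hfin

end Cheb

end Vale.Agent.Lib.P170T
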