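import Mathlib

/-!
# Module CONV: a bounded sequence with the chain property converges.
See notes/P170T_blueprint.md, part C.
-/

open Filter Topology

namespace Vale.Agent.Lib.P170T

/-- Integer `60`-th roots with remainder. -/
lemma conv_exists_root (N : ℕ) : ∃ d : ℕ, d ^ 60 ≤ N ∧ N < (d + 1) ^ 60 := by
  refine ⟨Nat.findGreatest (fun d => d ^ 60 ≤ N) N, ?_, ?_⟩
  · exact Nat.findGreatest_spec (P := fun d => d ^ 60 ≤ N) (m := 0) (Nat.zero_le _) (by simp)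
  · by_contra h
    rw [not_lt] at h
    have h1 : Nat.findGreatest (fun d => d ^ 60 ≤ N) N + 1 ≤ N :=
      (Nat.le_self_pow (by norm_num) _).trans h
    have h2 := Nat.le_findGreatest (P := fun d => d ^ 60 ≤ N) h1 h
    omega

/-- The next scale in the chain. -/
lemma conv_next (D : ℕ) (hD : 2 ^ 20 ≤ D) :
    ∃ D' : ℕ, 2 * D ≤ D' ∧ D' ^ 60 ≤ D ^ 63 ∧ D ^ 63 < (D' + 1) ^ 60 ∧ D' ^ 62 ≤ D ^ 66 := by
  obtain ⟨d, h1, h2⟩ := conv_exists_root (D ^ 63)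
  refine ⟨d, ?_, h1, h2, ?_⟩
  · by_contra h
    rw [not_le] at h
    have h3 : d + 1 ≤ 2 * D := h
    have h4 : (d + 1) ^ 60 ≤ (2 * D) ^ 60 := Nat.pow_le_pow_left h3 60
    have h5 : (2 * D) ^ 60 ≤ D ^ 63 := by
      have h6 : (2 : ℕ) ^ 60 ≤ D ^ 3 := by
        calc (2 : ℕ) ^ 60 = (2 ^ 20) ^ 3 := by norm_num
          _ ≤ D ^ 3 := Nat.pow_le_pow_left hD 3
      calc (2 * D) ^ 60 = 2 ^ 60 * D ^ 60 := by rw [mul_pow]
        _ ≤ D ^ 3 * D ^ 60 := Nat.mul_le_mul_right _ h6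
        _ = D ^ 63 := by rw [← pow_add]
    omega
  · have hD1 : 1 ≤ D := le_trans (by norm_num) hD
    have h3 : (d ^ 62) ^ 60 ≤ (D ^ 66) ^ 60 := by
      calc (d ^ 62) ^ 60 = (d ^ 60) ^ 62 := by rw [← pow_mul, ← pow_mul]
        _ ≤ (D ^ 63) ^ 62 := Nat.pow_le_pow_left h1 62
        _ = D ^ (63 * 62) := (pow_mul D 63 62).symm
        _ ≤ D ^ (66 * 60) := Nat.pow_le_pow_right hD1 (by norm_num)
        _ = (D ^ 66) ^ 60 := pow_mul D 66 60
    exact (Nat.pow_le_pow_iff_left (by norm_num)).1 h3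

/-- The chain argument. -/
lemma conv_chain (δ : ℕ → ℝ) {C : ℝ} (hC : 0 ≤ C) (D₁ : ℕ) (hD₁ : 2 ^ 20 ≤ D₁)
    (H : ∀ D : ℕ, D₁ ≤ D → ∀ N₀ : ℕ, D ^ 60 ≤ N₀ → N₀ < (D + 1) ^ 60 →
      ∀ N : ℕ, D ^ 62 ≤ N → N ≤ D ^ 66 → δ N₀ - C / D ≤ δ N) (L : ℕ) :
    ∀ D : ℕ, D₁ ≤ D → ∀ N₀ : ℕ, D ^ 60 ≤ N₀ → N₀ < (D + 1) ^ 60 → ∀ a : ℝ, a ≤ δ N₀ →
      ∀ N : ℕ, D ^ 62 ≤ N → N ≤ 2 ^ L * D ^ 66 → a - 2 * C / D ≤ δ N := by
  induction L with
  | zero =>
    intro D hD N₀ h1 h2 a ha N h3 h4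
    have h5 := H D hD N₀ h1 h2 N h3 (by simpa using h4)
    have hDpos : (0 : ℝ) < D := by
      have : 0 < D := lt_of_lt_of_le (by norm_num) (hD₁.trans hD)
      exact_mod_cast this
    have h6 : C / D ≤ 2 * C / D := by
      apply div_le_div_of_nonneg_right _ hDpos.le
      linarith only [hC]
    linarith only [h5, h6, ha]
  | succ L ih =>
    intro D hD N₀ h1 h2 a ha N h3 h4
    have hDbig : 2 ^ 20 ≤ D := hD₁.trans hD
    have hDpos : (0 : ℝ) < D := by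
      have : 0 < D := lt_of_lt_of_le (by norm_num) hDbig
      exact_mod_cast this
    have hD1 : 1 ≤ D := le_trans (by norm_num) hDbig
    have h6 : C / D ≤ 2 * C / D := by
      apply div_le_div_of_nonneg_right _ hDpos.le
      linarith only [hC]
    by_cases hN : N ≤ D ^ 66
    · have h5 := H D hD N₀ h1 h2 N h3 hN
      linarith only [h5, h6, ha]
    · rw [not_le] at hN
      obtain ⟨D', h7, h8, h9, h10⟩ := conv_next D hDbig
      have hD' : D₁ ≤ D' := by omega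
      have hN₁ : δ N₀ - C / D ≤ δ (D ^ 63) :=
        H D hD N₀ h1 h2 (D ^ 63) (Nat.pow_le_pow_right hD1 (by norm_num))
          (Nat.pow_le_pow_right hD1 (by norm_num))
      have hDD' : (2 : ℝ) * D ≤ D' := by exact_mod_cast h7
      have hD'pos : (0 : ℝ) < D' := by
        have : (0 : ℝ) < 2 * D := mul_pos (by norm_num) hDpos
        linarith only [this, hDD']
      have hbound : N ≤ 2 ^ L * D' ^ 66 := by
        have h11 : 2 ^ (L + 1) * D ^ 66 ≤ 2 ^ L * D' ^ 66 := by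
          have h12 : (2 * D) ^ 66 ≤ D' ^ 66 := Nat.pow_le_pow_left h7 66
          have h13 : 2 * D ^ 66 ≤ (2 * D) ^ 66 := by
            rw [mul_pow]
            exact Nat.mul_le_mul_right _ (Nat.le_self_pow (by norm_num) 2)
          calc 2 ^ (L + 1) * D ^ 66 = 2 ^ L * (2 * D ^ 66) := by ring
            _ ≤ 2 ^ L * D' ^ 66 := Nat.mul_le_mul_left _ (h13.trans h12)
        exact h4.trans h11
      have h14 := ih D' hD' (D ^ 63) h8 h9 (a - C / D) (by linarith only [hN₁, ha]) N (h10.trans hN.le) hbound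
      have h15 : 2 * C / D' ≤ C / D := by
        rw [div_le_div_iff₀ hD'pos hDpos]
        nlinarith only [hDD', hC, mul_le_mul_of_nonneg_left hDD' hC]
      have h16 : 2 * C / D = C / D + C / D := by ring
      linarith only [h14, h15, h16]

/-- Abstract chain lemma. -/
theorem chain_conv (δ : ℕ → ℝ) {B C : ℝ} (hB : ∀ᶠ n in atTop, |δ n| ≤ B) (D₀ : ℕ)
    (H : ∀ D : ℕ, D₀ ≤ D → ∀ N₀ : ℕ, D ^ 60 ≤ N₀ → N₀ < (D + 1) ^ 60 →
      ∀ N : ℕ, D ^ 62 ≤ N → N ≤ D ^ 66 → δ N₀ - C / D ≤ δ N) :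
    ∃ α : ℝ, Tendsto δ atTop (𝓝 α) := by
  -- a nonnegative constant
  set C' : ℝ := max C 0 with hC'
  have hC0 : 0 ≤ C' := le_max_right _ _
  have hH' : ∀ D : ℕ, max D₀ (2 ^ 20) ≤ D → ∀ N₀ : ℕ, D ^ 60 ≤ N₀ → N₀ < (D + 1) ^ 60 →
      ∀ N : ℕ, D ^ 62 ≤ N → N ≤ D ^ 66 → δ N₀ - C' / D ≤ δ N := by
    intro D hD N₀ h1 h2 N h3 h4
    have h5 := H D ((le_max_left _ _).trans hD) N₀ h1 h2 N h3 h4
    have h6 : C / D ≤ C' / D :=
      div_le_div_of_nonneg_right (le_max_left _ _) (Nat.cast_nonneg D)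
    linarith only [h5, h6]
  set D₁ : ℕ := max D₀ (2 ^ 20) with hD₁
  have hD₁big : 2 ^ 20 ≤ D₁ := le_max_right _ _
  -- the consequence of the chain
  have key : ∀ D : ℕ, D₁ ≤ D → ∀ N₀ : ℕ, D ^ 60 ≤ N₀ → N₀ < (D + 1) ^ 60 →
      ∀ N : ℕ, D ^ 62 ≤ N → δ N₀ - 2 * C' / D ≤ δ N := by
    intro D hD N₀ h1 h2 N h3
    refine conv_chain δ hC0 D₁ hD₁big hH' N D hD N₀ h1 h2 (δ N₀) le_rfl N h3 ?_
    have hD1 : 1 ≤ D := le_trans (by norm_num) (hD₁big.trans hD)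
    have h4 : N ≤ 2 ^ N := Nat.lt_two_pow_self.le
    have h5 : 1 ≤ D ^ 66 := Nat.one_le_pow _ _ hD1
    calc N ≤ 2 ^ N := h4
      _ = 2 ^ N * 1 := by ring
      _ ≤ 2 ^ N * D ^ 66 := Nat.mul_le_mul_left _ h5
  -- boundedness
  have hb1 : IsBoundedUnder (· ≤ ·) atTop δ :=
    ⟨B, by
      rw [eventually_map]
      filter_upwards [hB] with n hn
      exact (abs_le.1 hn).2⟩
  have hb2 : IsBoundedUnder (· ≥ ·) atTop δ :=
    ⟨-B, by
      rw [eventually_map]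
      filter_upwards [hB] with n hn
      exact (abs_le.1 hn).1⟩
  have hb3 : IsCoboundedUnder (· ≤ ·) atTop δ := hb2.isCoboundedUnder_le
  refine ⟨limsup δ atTop, tendsto_order.2 ⟨fun a ha => ?_, fun b hb => ?_⟩⟩
  · -- lower side
    obtain ⟨a', ha1, ha2⟩ := exists_between ha
    have hfreq : ∃ᶠ n in atTop, a' < δ n := frequently_lt_of_lt_limsup hb3 ha2
    -- a scale that makes the error small
    obtain ⟨D₂, hD₂⟩ := exists_nat_gt (2 * C' / (a' - a))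
    have hpos : 0 < a' - a := by linarith only [ha1]
    set D₃ : ℕ := max D₁ (D₂ + 1) with hD₃
    obtain ⟨N₀, hN₀big, hN₀⟩ := (frequently_atTop.1 hfreq) (D₃ ^ 60)
    obtain ⟨D, h1, h2⟩ := conv_exists_root N₀
    have hDD₃ : D₃ ≤ D := by
      by_contra h
      rw [not_le] at h
      have h3 : (D + 1) ^ 60 ≤ D₃ ^ 60 := Nat.pow_le_pow_left h 60
      exact absurd (h2.trans_le (h3.trans hN₀big)) (lt_irrefl _)
    have hDD₁ : D₁ ≤ D := (le_max_left _ _).trans hDD₃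
    have hDD₂ : D₂ + 1 ≤ D := (le_max_right _ _).trans hDD₃
    have hDpos : (0 : ℝ) < D := by
      have : 0 < D := by omega
      exact_mod_cast this
    have hDgt : 2 * C' / (a' - a) < D := by
      have : ((D₂ + 1 : ℕ) : ℝ) ≤ D := by exact_mod_cast hDD₂
      push_cast at this
      linarith only [this, hD₂]
    have herr : 2 * C' / D < a' - a := by
      rw [div_lt_iff₀ hDpos]
      rw [div_lt_iff₀ hpos] at hDgt
      linarith only [hDgt]
    filter_upwards [eventually_ge_atTop (D ^ 62)] with N hN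
    have h3 := key D hDD₁ N₀ h1 h2 N hN
    linarith only [h3, herr, hN₀]
  · exact eventually_lt_of_limsup_lt hb hb1

end Vale.Agent.Lib.P170T
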