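import Vale.Agent.Lib.P170B.Master

/-!
# P170T: definitions for the polynomial window proof of the threshold conjecture

Blueprint: `notes/P170T_blueprint.md`.  All statements are about finite averages.
-/

open Finset Filter Topology

namespace Vale.Agent.Lib.P170T

open Vale.Agent.Lib.P170 Vale.Agent.Lib.P170B

section Abstract

variable {Ω U : Type} [Fintype Ω] [DecidableEq Ω] [Fintype U] (φ : U → Finset Ω)

/-- Probability that `S` is still nonempty after `m` random cuts `S ↦ S ∩ φ u`. -/
noncomputable def surv (S : Finset Ω) (m : ℕ) : ℝ := ((avgOp φ) ^ m) eInd S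

/-- Expected number of steps until `S` is cut to the empty set. -/
noncomputable def life (S : Finset Ω) : ℝ := ∑' m, surv φ S m

open Classical in
/-- Probability that one random cut kills `S`. -/
noncomputable def haz (S : Finset Ω) : ℝ :=
  ((Finset.univ.filter (fun u => S ∩ φ u = ∅)).card : ℝ) / (Fintype.card U : ℝ)

open Classical in
/-- The source term of the jump recursion. -/
noncomputable def gfun (S : Finset Ω) : ℝ :=
  if S.Nonempty then haz φ S * (2 * life φ S - 1) else 0

/-- The weighted potential bounding the variance. -/
noncomputable def Zfun (S : Finset Ω) : ℝ :=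
  ∑' r : ℕ, ((r : ℝ) + 1) * ((avgOp φ ^ r) (gfun φ) S)

/-- Exponential decay of the survival probability from the full set. -/
structure Decay (K ρ : ℝ) : Prop where
  rho_nonneg : 0 ≤ ρ
  rho_lt : ρ < 1
  bound : ∀ m, surv φ Finset.univ m ≤ K * ρ ^ m

end Abstract

/-- Expected death time of the random formula: the sum of `P_{k,n}(m)` over all `m`. -/
noncomputable def tau (k n : ℕ) : ℝ := ∑' m, satProb k n m

open Classical in
/-- Is the variable `v` frozen in the nonempty set `S`? The indicator, zero on the empty set. -/
noncomputable def frzAt {n : ℕ} (v : Fin n) (S : Finset (Fin n → Bool)) : ℝ :=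
  if S.Nonempty ∧ ∀ σ ∈ S, ∀ σ' ∈ S, σ v = σ' v then 1 else 0

/-- Fraction of frozen variables of `S` (zero on the empty set). -/
noncomputable def frz (n : ℕ) (S : Finset (Fin n → Bool)) : ℝ :=
  (∑ v : Fin n, frzAt v S) / (n : ℝ)

/-- Expected total frozen fraction along the clause process up to death. -/
noncomputable def frzSum (k n : ℕ) : ℝ := ∑' r, ((opG k n) ^ r) (frz n) Finset.univ

/-- `W₀ = 1/(1-p)`, `p = k/(n+1)`. -/
noncomputable def W0 (k n : ℕ) : ℝ := ((n : ℝ) + 1) / ((n : ℝ) + 1 - k)

/-- Expected extra life gained by deleting the clauses containing one variable of `n+1`. -/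
noncomputable def Qn (k n : ℕ) : ℝ := W0 k n * tau k n - tau k (n + 1)

/-- The density `tau/n`. -/
noncomputable def delta (k n : ℕ) : ℝ := tau k n / n

end Vale.Agent.Lib.P170T
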