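import Vale.Agent.Lib.P170T.Defs

/-!
# Module HALL: small density is satisfiable. See notes/P170T_blueprint.md, part D.
-/

open Finset Filter Topology

namespace Vale.Agent.Lib.P170T

open Vale.Agent.Lib.P170 Vale.Agent.Lib.P170B

variable {k : ℕ}

/-- A tuple of clauses in which every `j` clauses involve at least `j` variables is satisfiable. -/
lemma sat_of_hall {n m : ℕ} (F : Fin m → ProperClause k n)
    (hF : ∀ J : Finset (Fin m), J.card ≤ (J.biUnion (fun i => (F i).1.1)).card) :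
    FormulaSat F := by
  classical
  obtain ⟨r, hr, hmem⟩ :=
    (Finset.all_card_le_biUnion_card_iff_exists_injective (fun i => (F i).1.1)).1 hF
  refine ⟨fun v => if h : ∃ i, r i = v then
    (F h.choose).2 ⟨v, by have := hmem h.choose; rwa [h.choose_spec] at this⟩ else true,
    fun i => ⟨⟨r i, hmem i⟩, ?_⟩⟩
  have h : ∃ j, r j = r i := ⟨i, rfl⟩
  have hi : h.choose = i := hr h.choose_spec
  simp only [dif_pos h]
  have : ∀ (j : Fin m) (hj : j = i) (hv : r i ∈ (F j).1.1),
      (F j).2 ⟨r i, hv⟩ = (F i).2 ⟨r i, hmem i⟩ := by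
    intro j hj hv
    subst hj
    rfl
  exact this _ hi _

/-- Clauses supported inside `W`. -/
noncomputable def hallIn {n : ℕ} (k : ℕ) (W : Finset (Fin n)) : Finset (ProperClause k n) := by
  classical
  exact Finset.univ.filter (fun c => c.1.1 ⊆ W)

lemma hallIn_card {n : ℕ} (W : Finset (Fin n)) : (hallIn k W).card = W.card.choose k * 2 ^ k := by
  classical
  unfold hallIn
  have h1 : (Finset.univ.filter (fun c : ProperClause k n => c.1.1 ⊆ W)) =
      (Finset.univ.filter (fun S : {S : Finset (Fin n) // S.card = k} => S.1 ⊆ W)).sigma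
        (fun _ => Finset.univ) := by
    ext c
    simp
  rw [h1, Finset.card_sigma]
  have h2 : ∀ S : {S : Finset (Fin n) // S.card = k},
      (Finset.univ : Finset (S.1 → Bool)).card = 2 ^ k := by
    intro S
    simp [S.2]
  simp only [h2, Finset.sum_const, smul_eq_mul]
  congr 1
  rw [← Finset.card_powersetCard k W]
  refine Finset.card_bij (fun S _ => S.1) ?_ ?_ ?_
  · intro S hS
    simp only [Finset.mem_filter, Finset.mem_univ, true_and] at hS
    exact Finset.mem_powersetCard.2 ⟨hS, S.2⟩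
  · intro S _ S' _ h
    exact Subtype.ext h
  · intro S hS
    obtain ⟨h1, h2⟩ := Finset.mem_powersetCard.1 hS
    exact ⟨⟨S, h2⟩, by simpa using h1, rfl⟩

/-- The tuples whose clauses in `J` are supported in `W`. -/
noncomputable def hallBad {n m : ℕ} (k : ℕ) (J : Finset (Fin m)) (W : Finset (Fin n)) :
    Finset (Fin m → ProperClause k n) := by
  classical
  exact Fintype.piFinset (fun i => if i ∈ J then hallIn k W else Finset.univ)

lemma hallBad_card {n m : ℕ} (J : Finset (Fin m)) (W : Finset (Fin n)) :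
    (hallBad k J W).card =
      (W.card.choose k * 2 ^ k) ^ J.card * (n.choose k * 2 ^ k) ^ (m - J.card) := by
  classical
  unfold hallBad
  rw [Fintype.card_piFinset]
  have h : ∀ i : Fin m, (if i ∈ J then hallIn k W else (Finset.univ : Finset (ProperClause k n))).card
      = if i ∈ J then W.card.choose k * 2 ^ k else n.choose k * 2 ^ k := by
    intro i
    split_ifs
    · exact hallIn_card W
    · rw [Finset.card_univ, card_clause]
  simp only [h]
  rw [Finset.prod_ite, Finset.prod_const, Finset.prod_const]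
  congr 2
  · simp
  · have : (Finset.univ.filter (fun i : Fin m => i ∉ J)) = Jᶜ := by
      ext i
      simp
    rw [this, Finset.card_compl]
    simp

/-- Every unsatisfiable tuple lies in some bad set. -/
lemma unsat_mem_hallBad {n m : ℕ} (hmn : m ≤ n) (F : Fin m → ProperClause k n)
    (hF : ¬ FormulaSat F) :
    ∃ j ∈ Finset.Icc 1 m, ∃ J ∈ Finset.powersetCard j (Finset.univ : Finset (Fin m)),
      ∃ W ∈ Finset.powersetCard (j - 1) (Finset.univ : Finset (Fin n)), F ∈ hallBad k J W := by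
  classical
  have h : ¬ ∀ J : Finset (Fin m), J.card ≤ (J.biUnion (fun i => (F i).1.1)).card :=
    fun h => hF (sat_of_hall F h)
  push Not at h
  obtain ⟨J, hJ⟩ := h
  have hJ1 : 1 ≤ J.card := by omega
  have hJm : J.card ≤ m := by simpa using Finset.card_le_univ J
  obtain ⟨W, hW, hWc⟩ := Finset.exists_superset_card_eq
    (s := J.biUnion (fun i => (F i).1.1)) (n := J.card - 1) (by omega)
    (by simp; omega)
  refine ⟨J.card, Finset.mem_Icc.2 ⟨hJ1, hJm⟩, J, Finset.mem_powersetCard.2 ⟨Finset.subset_univ _, rfl⟩,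
    W, Finset.mem_powersetCard.2 ⟨Finset.subset_univ _, hWc⟩, ?_⟩
  unfold hallBad
  rw [Fintype.mem_piFinset]
  intro i
  split_ifs with hi
  · unfold hallIn
    simp only [Finset.mem_filter, Finset.mem_univ, true_and]
    exact (Finset.subset_biUnion_of_mem (fun i => (F i).1.1) hi).trans hW
  · simp

open Classical in
/-- The union bound in counting form. -/
lemma unsat_count_le {n m : ℕ} (hmn : m ≤ n) :
    (Finset.univ.filter (fun F : Fin m → ProperClause k n => ¬ FormulaSat F)).card ≤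
      ∑ j ∈ Finset.Icc 1 m, m.choose j * (n.choose (j - 1) *
        (((j - 1).choose k * 2 ^ k) ^ j * (n.choose k * 2 ^ k) ^ (m - j))) := by
  classical
  have hsub : (Finset.univ.filter (fun F : Fin m → ProperClause k n => ¬ FormulaSat F)) ⊆
      (Finset.Icc 1 m).biUnion (fun j =>
        (Finset.powersetCard j (Finset.univ : Finset (Fin m))).biUnion (fun J =>
          (Finset.powersetCard (j - 1) (Finset.univ : Finset (Fin n))).biUnion (fun W =>
            hallBad k J W))) := by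
    intro F hF
    simp only [Finset.mem_filter, Finset.mem_univ, true_and] at hF
    obtain ⟨j, hj, J, hJ, W, hW, hFW⟩ := unsat_mem_hallBad hmn F hF
    exact Finset.mem_biUnion.2 ⟨j, hj, Finset.mem_biUnion.2 ⟨J, hJ, Finset.mem_biUnion.2 ⟨W, hW, hFW⟩⟩⟩
  refine (Finset.card_le_card hsub).trans ?_
  refine Finset.card_biUnion_le.trans (Finset.sum_le_sum fun j _ => ?_)
  refine Finset.card_biUnion_le.trans ?_
  have h1 : ∀ J ∈ Finset.powersetCard j (Finset.univ : Finset (Fin m)),
      ((Finset.powersetCard (j - 1) (Finset.univ : Finset (Fin n))).biUnion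
        (fun W => hallBad k J W)).card ≤ n.choose (j - 1) *
        (((j - 1).choose k * 2 ^ k) ^ j * (n.choose k * 2 ^ k) ^ (m - j)) := by
    intro J hJ
    have hJc := (Finset.mem_powersetCard.1 hJ).2
    refine Finset.card_biUnion_le.trans ?_
    have h2 : ∀ W ∈ Finset.powersetCard (j - 1) (Finset.univ : Finset (Fin n)),
        (hallBad k J W).card = ((j - 1).choose k * 2 ^ k) ^ j * (n.choose k * 2 ^ k) ^ (m - j) := by
      intro W hW
      rw [hallBad_card, (Finset.mem_powersetCard.1 hW).2, hJc]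
    rw [Finset.sum_congr rfl h2, Finset.sum_const, Finset.card_powersetCard]
    simp
  refine (Finset.sum_le_sum h1).trans ?_
  rw [Finset.sum_const, Finset.card_powersetCard]
  simp

/-- One term of the union bound. -/
lemma hall_term_le (hk : 3 ≤ k) {n m j : ℕ} (hn : k ≤ n) (hm : 6 * m ≤ n) (hj1 : 1 ≤ j)
    (hjm : j ≤ m) :
    (m.choose j : ℝ) * ((n.choose (j - 1) : ℝ) *
      (((j - 1).choose k : ℝ) / (n.choose k : ℝ)) ^ j) ≤
      (2 * j / n) * (1 / 4 : ℝ) ^ j := by
  have hn3 : 3 ≤ n := by omega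
  have hn0 : (0 : ℝ) < n := by exact_mod_cast (by omega : 0 < n)
  have hjn : j ≤ n := by omega
  have hm0 : (m : ℝ) / n ≤ 1 / 6 := by
    rw [div_le_iff₀ hn0]
    have : (6 * m : ℝ) ≤ n := by exact_mod_cast hm
    linarith
  have hj0 : (j : ℝ) / n ≤ 1 / 6 := by
    rw [div_le_iff₀ hn0]
    have h1 : (6 * j : ℝ) ≤ n := by exact_mod_cast (by omega : 6 * j ≤ n)
    linarith
  have hj00 : (0 : ℝ) ≤ (j : ℝ) / n := by positivity
  have hm00 : (0 : ℝ) ≤ (m : ℝ) / n := by positivity
  have hcj : (0 : ℝ) < (n.choose j : ℝ) := by exact_mod_cast Nat.choose_pos hjn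
  -- (b)
  have hb : (m.choose j : ℝ) ≤ ((m : ℝ) / n) ^ j * (n.choose j : ℝ) := by
    have := choose_div_le (a := m) (N := n) (k := j) (by omega) hjn
    rwa [div_le_iff₀ hcj] at this
  -- (c)
  have hc : (n.choose (j - 1) : ℝ) ≤ (n.choose j : ℝ) * (2 * j / n) := by
    obtain ⟨i, rfl⟩ : ∃ i, j = i + 1 := ⟨j - 1, by omega⟩
    have h1 := Nat.choose_succ_right_eq n i
    simp only [Nat.add_sub_cancel]
    have h1' : (n.choose (i + 1) : ℝ) * ((i : ℝ) + 1) = (n.choose i : ℝ) * ((n - i : ℕ) : ℝ) := by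
      exact_mod_cast h1
    have h2 : (n : ℝ) / 2 ≤ ((n - i : ℕ) : ℝ) := by
      rw [Nat.cast_sub (by omega)]
      have : (2 * i : ℝ) ≤ n := by exact_mod_cast (by omega : 2 * i ≤ n)
      linarith
    have hci : (0 : ℝ) ≤ (n.choose i : ℝ) := by positivity
    rw [mul_div_assoc', le_div_iff₀ hn0]
    push_cast
    have h3 : (n.choose i : ℝ) * (n / 2) ≤ (n.choose (i + 1) : ℝ) * ((i : ℝ) + 1) := by
      rw [h1']
      exact mul_le_mul_of_nonneg_left h2 hci
    nlinarith
  -- (a)
  have ha : (((j - 1).choose k : ℝ) / (n.choose k : ℝ)) ≤ ((j : ℝ) / n) ^ k := by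
    have h1 := choose_div_le (a := j - 1) (N := n) (k := k) (by omega) hn
    refine h1.trans ?_
    apply pow_le_pow_left₀ (by positivity)
    apply div_le_div_of_nonneg_right _ hn0.le
    have : ((j - 1 : ℕ) : ℝ) ≤ j := by exact_mod_cast Nat.sub_le _ _
    exact this
  have ha0 : (0 : ℝ) ≤ ((j - 1).choose k : ℝ) / (n.choose k : ℝ) := by positivity
  -- (d)
  have hd : (n.choose j : ℝ) * ((j : ℝ) / n) ^ j ≤ Real.exp j := by
    have h1 : (1 + (j : ℝ) / n) ^ n ≤ Real.exp j := by
      have h2 : 1 + (j : ℝ) / n ≤ Real.exp ((j : ℝ) / n) := by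
        have := Real.add_one_le_exp ((j : ℝ) / n)
        linarith
      calc (1 + (j : ℝ) / n) ^ n ≤ (Real.exp ((j : ℝ) / n)) ^ n :=
            pow_le_pow_left₀ (by positivity) h2 _
        _ = Real.exp j := by
            rw [← Real.exp_nat_mul]
            congr 1
            field_simp
    refine le_trans ?_ h1
    have h3 := add_pow ((j : ℝ) / n) 1 n
    rw [add_comm] at h3
    rw [h3]
    have h4 := Finset.single_le_sum (f := fun i => ((j : ℝ) / n) ^ i * (1 : ℝ) ^ (n - i) * (n.choose i : ℝ))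
      (s := Finset.range (n + 1)) (fun i _ => by positivity) (Finset.mem_range.2 (by omega : j < n + 1))
    simp only [one_pow, mul_one] at h4 ⊢
    linarith
  have hd0 : (0 : ℝ) ≤ (n.choose j : ℝ) * ((j : ℝ) / n) ^ j := by positivity
  have hd2 : ((n.choose j : ℝ) * ((j : ℝ) / n) ^ j) ^ 2 ≤ (9 : ℝ) ^ j := by
    have h1 : ((n.choose j : ℝ) * ((j : ℝ) / n) ^ j) ^ 2 ≤ (Real.exp j) ^ 2 :=
      pow_le_pow_left₀ hd0 hd 2
    refine h1.trans ?_
    have h2 : Real.exp j = (Real.exp 1) ^ j := by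
      rw [← Real.exp_nat_mul]
      simp
    rw [h2, ← pow_mul, mul_comm, pow_mul]
    have h3 : (Real.exp 1) ^ 2 ≤ 9 := by
      have := Real.exp_one_lt_d9
      have h0 := Real.exp_pos 1
      nlinarith
    exact pow_le_pow_left₀ (by positivity) h3 _
  -- combine
  have hkj : ((j : ℝ) / n) ^ k ≤ ((j : ℝ) / n) ^ 2 * ((j : ℝ) / n) := by
    have : ((j : ℝ) / n) ^ k ≤ ((j : ℝ) / n) ^ 3 :=
      pow_le_pow_of_le_one hj00 (by linarith) hk
    calc _ ≤ _ := this
      _ = _ := by ring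
  have hpow : (((j - 1).choose k : ℝ) / (n.choose k : ℝ)) ^ j ≤
      ((j : ℝ) / n) ^ (2 * j) * ((j : ℝ) / n) ^ j := by
    calc _ ≤ (((j : ℝ) / n) ^ 2 * ((j : ℝ) / n)) ^ j :=
          pow_le_pow_left₀ ha0 (ha.trans hkj) _
      _ = _ := by rw [mul_pow, ← pow_mul]
  have hpow0 : (0 : ℝ) ≤ (((j - 1).choose k : ℝ) / (n.choose k : ℝ)) ^ j := by positivity
  have hq : (0 : ℝ) ≤ (2 * j / n) := by positivity
  calc (m.choose j : ℝ) * ((n.choose (j - 1) : ℝ) *
        (((j - 1).choose k : ℝ) / (n.choose k : ℝ)) ^ j)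
      ≤ (((m : ℝ) / n) ^ j * (n.choose j : ℝ)) * (((n.choose j : ℝ) * (2 * j / n)) *
        (((j : ℝ) / n) ^ (2 * j) * ((j : ℝ) / n) ^ j)) := by
        apply mul_le_mul hb _ (by positivity) (by positivity)
        exact mul_le_mul hc hpow hpow0 (by positivity)
    _ = (2 * j / n) * (((m : ℝ) / n) ^ j * ((j : ℝ) / n) ^ j) *
        ((n.choose j : ℝ) * ((j : ℝ) / n) ^ j) ^ 2 := by
        rw [mul_pow (n.choose j : ℝ), ← pow_mul, mul_comm j 2]
        ring
    _ ≤ (2 * j / n) * (((m : ℝ) / n) ^ j * ((j : ℝ) / n) ^ j) * (9 : ℝ) ^ j := by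
        apply mul_le_mul_of_nonneg_left hd2 (by positivity)
    _ = (2 * j / n) * (((m : ℝ) / n) * ((j : ℝ) / n) * 9) ^ j := by
        rw [mul_pow, mul_pow]
        ring
    _ ≤ (2 * j / n) * (1 / 4 : ℝ) ^ j := by
        apply mul_le_mul_of_nonneg_left _ hq
        apply pow_le_pow_left₀ (by positivity)
        nlinarith [mul_le_mul hm0 hj0 hj00 (by norm_num : (0 : ℝ) ≤ 1 / 6)]

lemma sum_j_four (M : ℕ) :
    ∑ j ∈ Finset.Icc 1 M, (j : ℝ) * (1 / 4 : ℝ) ^ j =
      4 / 9 - (3 * (M : ℝ) + 4) / 9 * (1 / 4 : ℝ) ^ M := by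
  induction M with
  | zero => simp
  | succ M ih =>
    rw [Finset.sum_Icc_succ_top (by omega), ih]
    push_cast
    rw [pow_succ]
    ring

/-- Union bound over bad clause sets and their variable sets: for `m ≤ n/6`, `n ≥ 2`. -/
theorem unsat_small (hk : 3 ≤ k) {n m : ℕ} (hn : k ≤ n) (hm : 6 * m ≤ n) :
    1 - satProb k n m ≤ 1 / (n : ℝ) := by
  classical
  have hn3 : 3 ≤ n := by omega
  have hn0 : (0 : ℝ) < n := by exact_mod_cast (by omega : 0 < n)
  have hmn : m ≤ n := by omega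
  have hc : (0 : ℝ) < (n.choose k : ℝ) := by exact_mod_cast Nat.choose_pos hn
  have hC : (0 : ℝ) < ((n.choose k : ℝ) * 2 ^ k) := by positivity
  -- satisfiable plus unsatisfiable
  have hsum : ((Finset.univ.filter (fun F : Fin m → ProperClause k n => FormulaSat F)).card : ℝ) +
      ((Finset.univ.filter (fun F : Fin m → ProperClause k n => ¬ FormulaSat F)).card : ℝ) =
      ((n.choose k : ℝ) * 2 ^ k) ^ m := by
    have := Finset.card_filter_add_card_filter_not (s := (Finset.univ : Finset (Fin m → ProperClause k n)))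
      (fun F : Fin m → ProperClause k n => FormulaSat F)
    have h2 : (Finset.univ : Finset (Fin m → ProperClause k n)).card = (n.choose k * 2 ^ k) ^ m := by
      rw [Finset.card_univ, Fintype.card_fun, card_clause, Fintype.card_fin]
    rw [h2] at this
    exact_mod_cast this
  have hsat : 1 - satProb k n m =
      ((Finset.univ.filter (fun F : Fin m → ProperClause k n => ¬ FormulaSat F)).card : ℝ) /
        ((n.choose k : ℝ) * 2 ^ k) ^ m := by
    unfold satProb
    rw [card_clause]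
    push_cast
    field_simp
    linarith
  rw [hsat, div_le_iff₀ (by positivity)]
  have hcount : ((Finset.univ.filter (fun F : Fin m → ProperClause k n => ¬ FormulaSat F)).card : ℝ) ≤
      ∑ j ∈ Finset.Icc 1 m, (m.choose j : ℝ) * ((n.choose (j - 1) : ℝ) *
        ((((j - 1).choose k : ℝ) * 2 ^ k) ^ j * ((n.choose k : ℝ) * 2 ^ k) ^ (m - j))) := by
    exact_mod_cast unsat_count_le (k := k) hmn
  refine hcount.trans ?_
  have hterm : ∀ j ∈ Finset.Icc 1 m, (m.choose j : ℝ) * ((n.choose (j - 1) : ℝ) *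
        ((((j - 1).choose k : ℝ) * 2 ^ k) ^ j * ((n.choose k : ℝ) * 2 ^ k) ^ (m - j))) ≤
      ((2 * j / n) * (1 / 4 : ℝ) ^ j) * ((n.choose k : ℝ) * 2 ^ k) ^ m := by
    intro j hj
    obtain ⟨hj1, hjm⟩ := Finset.mem_Icc.1 hj
    have h := hall_term_le hk hn hm hj1 hjm
    have hid : ((n.choose k : ℝ) * 2 ^ k) ^ m =
        ((n.choose k : ℝ) * 2 ^ k) ^ j * ((n.choose k : ℝ) * 2 ^ k) ^ (m - j) := by
      rw [← pow_add]
      congr 1
      omega
    have hid2 : ((((j - 1).choose k : ℝ) * 2 ^ k) ^ j) =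
        (((j - 1).choose k : ℝ) / (n.choose k : ℝ)) ^ j * ((n.choose k : ℝ) * 2 ^ k) ^ j := by
      rw [← mul_pow]
      congr 1
      field_simp
    calc _ = ((m.choose j : ℝ) * ((n.choose (j - 1) : ℝ) *
          (((j - 1).choose k : ℝ) / (n.choose k : ℝ)) ^ j)) * ((n.choose k : ℝ) * 2 ^ k) ^ m := by
          rw [hid, hid2]
          ring
      _ ≤ _ := mul_le_mul_of_nonneg_right h (by positivity)
  refine (Finset.sum_le_sum hterm).trans ?_
  rw [← Finset.sum_mul]
  apply mul_le_mul_of_nonneg_right _ (by positivity)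
  have h1 : ∑ j ∈ Finset.Icc 1 m, (2 * (j : ℝ) / n) * (1 / 4 : ℝ) ^ j =
      (2 / n) * ∑ j ∈ Finset.Icc 1 m, (j : ℝ) * (1 / 4 : ℝ) ^ j := by
    rw [Finset.mul_sum]
    refine Finset.sum_congr rfl fun j _ => ?_
    ring
  rw [h1, sum_j_four]
  have h2 : (0 : ℝ) ≤ (3 * (m : ℝ) + 4) / 9 * (1 / 4 : ℝ) ^ m := by positivity
  have h3 : (2 / (n : ℝ)) * (4 / 9 - (3 * (m : ℝ) + 4) / 9 * (1 / 4 : ℝ) ^ m) ≤ (2 / n) * (1 / 2) := by
    apply mul_le_mul_of_nonneg_left _ (by positivity)
    linarith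
  calc _ ≤ _ := h3
    _ = 1 / (n : ℝ) := by ring

/-- Small density is satisfiable with high probability. -/
theorem small_density (hk : 3 ≤ k) : ∃ c₀ : ℝ, 0 < c₀ ∧ ∃ n₀ : ℕ, ∀ n : ℕ, n₀ ≤ n →
    1 / 2 ≤ satProb k n ⌊c₀ * n⌋₊ := by
  refine ⟨1 / 6, by norm_num, k, fun n hn => ?_⟩
  have hn3 : 3 ≤ n := by omega
  have hn0 : (3 : ℝ) ≤ n := by exact_mod_cast hn3
  have hm : 6 * ⌊(1 / 6 : ℝ) * n⌋₊ ≤ n := by
    have h1 : ((⌊(1 / 6 : ℝ) * n⌋₊ : ℕ) : ℝ) ≤ (1 / 6 : ℝ) * n :=
      Nat.floor_le (by positivity)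
    have h2 : ((6 * ⌊(1 / 6 : ℝ) * n⌋₊ : ℕ) : ℝ) ≤ n := by
      push_cast
      linarith
    exact_mod_cast h2
  have h := unsat_small hk hn hm
  have h2 : 1 / (n : ℝ) ≤ 1 / 2 := by
    apply one_div_le_one_div_of_le (by norm_num)
    linarith
  linarith

end Vale.Agent.Lib.P170T
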