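import Vale.Agent.Lib.P170T.Scale
import Vale.Agent.Lib.P170T.Conv
import Vale.Agent.Lib.P170T.Hall

/-!
# Module FINAL: the threshold.
-/

open Finset Filter Topology

namespace Vale.Agent.Lib.P170T

open Vale.Agent.Lib.P170 Vale.Agent.Lib.P170B

variable {k : ℕ}

/-- Integer `e`-th root, rounded down. -/
def rootLe (e N : ℕ) : ℕ := Nat.findGreatest (fun D => D ^ e ≤ N) N

lemma rootLe_pow_le {e : ℕ} (he : 1 ≤ e) (N : ℕ) : rootLe e N ^ e ≤ N := by
  have h0 : (fun D => D ^ e ≤ N) 0 := by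
    show 0 ^ e ≤ N
    rw [zero_pow (by omega)]
    exact Nat.zero_le _
  exact Nat.findGreatest_spec (P := fun D => D ^ e ≤ N) (Nat.zero_le N) h0

lemma lt_rootLe_succ_pow {e : ℕ} (he : 1 ≤ e) (N : ℕ) : N < (rootLe e N + 1) ^ e := by
  by_contra hcon
  push Not at hcon
  have hle : rootLe e N + 1 ≤ N :=
    (Nat.le_self_pow (by omega) _).trans hcon
  have := Nat.le_findGreatest (P := fun D => D ^ e ≤ N) hle hcon
  unfold rootLe at *
  omega

lemma le_rootLe {e : ℕ} (he : 1 ≤ e) {D N : ℕ} (h : D ^ e ≤ N) : D ≤ rootLe e N := by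
  have hle : D ≤ N := (Nat.le_self_pow (by omega) _).trans h
  exact Nat.le_findGreatest (P := fun D => D ^ e ≤ N) hle h

lemma tendsto_rootLe {e : ℕ} (he : 1 ≤ e) : Tendsto (rootLe e) atTop atTop := by
  refine tendsto_atTop_atTop.2 (fun D => ⟨D ^ e, fun N hN => le_rootLe he hN⟩)

/-- Elementary: `(D+1)^e ≤ 2 D^e` for `D` large. -/
lemma succ_pow_le_two_mul (e : ℕ) : ∃ D₀ : ℕ, ∀ D : ℕ, D₀ ≤ D → (D + 1) ^ e ≤ 2 * D ^ e := by
  have hlim : Tendsto (fun D : ℕ => (1 + 1 / (D : ℝ)) ^ e) atTop (𝓝 ((1 + 0) ^ e)) :=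
    ((tendsto_const_nhds.add tendsto_one_div_atTop_nhds_zero_nat)).pow e
  have hlt : ((1 : ℝ) + 0) ^ e < 2 := by norm_num
  obtain ⟨D₁, hD₁⟩ := ((tendsto_order.1 hlim).2 2 hlt).exists_forall_of_atTop
  refine ⟨max D₁ 1, fun D hD => ?_⟩
  have hD0 : (0 : ℝ) < D := by
    have : 0 < D := by
      have := le_max_right D₁ 1
      omega
    exact_mod_cast this
  have h := (hD₁ D (le_trans (le_max_left _ _) hD)).le
  have h2 : ((D : ℝ) + 1) ^ e = (1 + 1 / (D : ℝ)) ^ e * (D : ℝ) ^ e := by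
    rw [← mul_pow]
    congr 1
    field_simp
  have h3 : (((D + 1) ^ e : ℕ) : ℝ) ≤ ((2 * D ^ e : ℕ) : ℝ) := by
    push_cast
    rw [h2]
    exact mul_le_mul_of_nonneg_right h (by positivity)
  exact_mod_cast h3

lemma delta_nonneg (n : ℕ) : 0 ≤ delta k n := by
  unfold delta
  exact div_nonneg (tau_nonneg k n) (Nat.cast_nonneg n)

lemma delta_le (hk : 1 ≤ k) {n : ℕ} (hn : k ≤ n) : delta k n ≤ 2 ^ (k + 1) := by
  unfold delta
  have hn0 : (0 : ℝ) < n := by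
    have : 0 < n := by omega
    exact_mod_cast this
  rw [div_le_iff₀ hn0]
  have h1 := tau_le hk hn
  have h2 : (1 : ℝ) ≤ n := by
    have : 1 ≤ n := by omega
    exact_mod_cast this
  have h3 : (0 : ℝ) < 2 ^ k := by positivity
  rw [pow_succ]
  nlinarith

/-- The density of the expected death time converges. -/
theorem delta_conv (hk : 3 ≤ k) : ∃ α : ℝ, Tendsto (delta k) atTop (𝓝 α) := by
  obtain ⟨C, _, D₀, H⟩ := delta_step hk
  have hB : ∀ᶠ n in atTop, |delta k n| ≤ (2 : ℝ) ^ (k + 1) := by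
    filter_upwards [eventually_ge_atTop k] with n hn
    rw [abs_of_nonneg (delta_nonneg n)]
    exact delta_le (by omega) hn
  exact chain_conv (delta k) hB D₀ H

/-- The limit is positive. -/
theorem delta_lim_pos (hk : 3 ≤ k) {α : ℝ} (hα : Tendsto (delta k) atTop (𝓝 α)) : 0 < α := by
  obtain ⟨c₀, hc₀, n₀, h⟩ := small_density hk
  have h1 : ∀ᶠ n in atTop, c₀ / 2 ≤ delta k n := by
    filter_upwards [eventually_ge_atTop (max n₀ (max k 1))] with n hn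
    have hn₀ : n₀ ≤ n := le_trans (le_max_left _ _) hn
    have hnk : k ≤ n := le_trans (le_trans (le_max_left _ _) (le_max_right _ _)) hn
    have hn1 : 1 ≤ n := le_trans (le_trans (le_max_right _ _) (le_max_right _ _)) hn
    have hn0 : (0 : ℝ) < n := by exact_mod_cast hn1
    have h2 := tau_ge (k := k) (n := n) (by omega) hnk ⌊c₀ * n⌋₊
    have h3 := h n hn₀
    have h4 : c₀ * n < (⌊c₀ * n⌋₊ : ℝ) + 1 := Nat.lt_floor_add_one _
    unfold delta
    rw [le_div_iff₀ hn0]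
    have h5 : (0 : ℝ) ≤ satProb k n ⌊c₀ * n⌋₊ := satProb_nonneg _ _ _
    have h6 : (c₀ * n) * (1 / 2) ≤ ((⌊c₀ * n⌋₊ : ℝ) + 1) * satProb k n ⌊c₀ * n⌋₊ :=
      mul_le_mul h4.le h3 (by norm_num) (by positivity)
    nlinarith
  have h2 : c₀ / 2 ≤ α := ge_of_tendsto hα h1
  linarith

/-- The satisfiable side. -/
theorem sat_side (hk : 3 ≤ k) {α c : ℝ} (hα : Tendsto (delta k) atTop (𝓝 α)) (hc : c < α) :
    Tendsto (fun N : ℕ => satProb k N ⌊c * N⌋₊) atTop (𝓝 1) := by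
  obtain ⟨C, hC, D₀, H⟩ := scale_main hk
  obtain ⟨D₁, hD₁⟩ := succ_pow_le_two_mul 64
  set ε := α - c with hε
  have hεpos : 0 < ε := by rw [hε]; linarith
  -- the scale `D = rootLe 64 N` tends to infinity
  have hroot := tendsto_rootLe (e := 64) (by norm_num)
  have hpow : Tendsto (fun D : ℕ => D ^ 60) atTop atTop :=
    tendsto_pow_atTop (by norm_num)
  have hδ : Tendsto (fun D : ℕ => delta k (D ^ 60)) atTop (𝓝 α) := hα.comp hpow
  have hCD : Tendsto (fun D : ℕ => C / (D : ℝ)) atTop (𝓝 0) :=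
    tendsto_const_nhds.div_atTop tendsto_natCast_atTop_atTop
  have hlow : Tendsto (fun N : ℕ => 1 - C / (rootLe 64 N : ℝ)) atTop (𝓝 1) := by
    have := (tendsto_const_nhds (x := (1 : ℝ))).sub (hCD.comp hroot)
    simpa using this
  have hev : ∀ᶠ D : ℕ in atTop, c ≤ delta k (D ^ 60) - C / (D : ℝ) := by
    have h := hδ.sub hCD
    rw [sub_zero] at h
    exact ((tendsto_order.1 h).1 c hc).mono (fun _ h => h.le)
  refine tendsto_of_tendsto_of_tendsto_of_le_of_le' hlow tendsto_const_nhds ?_ ?_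
  · have h1 := hroot.eventually hev
    have h2 := hroot.eventually (eventually_ge_atTop (max D₀ (max D₁ 2)))
    have key : ∀ (D N : ℕ), c ≤ delta k (D ^ 60) - C / (D : ℝ) → max D₀ (max D₁ 2) ≤ D → k ≤ N →
        D ^ 64 ≤ N → N < (D + 1) ^ 64 → 1 - C / (D : ℝ) ≤ satProb k N ⌊c * N⌋₊ := by
      intro D N hN1 hN2 hk' hN₁ hN₂
      have hD0 : D₀ ≤ D := le_trans (le_max_left _ _) hN2
      have hD1 : D₁ ≤ D := le_trans (le_trans (le_max_left _ _) (le_max_right _ _)) hN2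
      have hD2 : 2 ≤ D := le_trans (le_trans (le_max_right _ _) (le_max_right _ _)) hN2
      have hlo : D ^ 62 ≤ N := (Nat.pow_le_pow_right (lt_of_lt_of_le (by norm_num) hD2) (by norm_num)).trans hN₁
      have hhi : N ≤ D ^ 66 := by
        have h3 := hD₁ D hD1
        have h5 : 2 ≤ D ^ 2 := hD2.trans (Nat.le_self_pow (by norm_num) D)
        calc N ≤ (D + 1) ^ 64 := hN₂.le
          _ ≤ 2 * D ^ 64 := h3
          _ ≤ D ^ 2 * D ^ 64 := Nat.mul_le_mul_right _ h5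
          _ = D ^ 66 := by rw [← pow_add]
      have hmain := H D hD0 (D ^ 60) le_rfl (Nat.pow_lt_pow_left (Nat.lt_succ_self D) (by norm_num)) N hlo hhi
      refine hmain.trans ?_
      have hM := Vale.Agent.Lib.P170.card_pos_of_le (k := k) hk'
      refine satProb_antitone hM ?_
      refine Nat.floor_le_floor ?_
      exact mul_le_mul_of_nonneg_right hN1 (Nat.cast_nonneg N)
    filter_upwards [h1, h2, eventually_ge_atTop k] with N hN1 hN2 hNk
    exact key _ N hN1 hN2 hNk (rootLe_pow_le (by norm_num) N) (lt_rootLe_succ_pow (by norm_num) N)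
  · exact Eventually.of_forall (fun N => satProb_le_one k N _)

/-- Among the `D^59` values of `n` below `N` there is one with `Qn k n ≤ D^2`. -/
lemma exists_good (hk : 3 ≤ k) : ∃ D₁ : ℕ, ∀ D : ℕ, D₁ ≤ D → ∀ N : ℕ, D ^ 60 ≤ N → N ≤ 2 * D ^ 60 →
    ∃ n : ℕ, N - D ^ 59 ≤ n ∧ n < N ∧ Qn k n ≤ (D : ℝ) ^ 2 := by
  refine ⟨2 ^ (k + 1) * (1 + 2 * k) + 2 * k + 2, fun D hD N hN1 hN2 => ?_⟩
  by_contra hcon
  push Not at hcon
  have hDk : 2 * k + 2 ≤ D := le_trans (Nat.le_add_left _ _) (by simpa [add_assoc] using hD)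
  have hD0 : 0 < D := by omega
  have hDle : D ^ 59 ≤ D ^ 60 := Nat.pow_le_pow_right hD0 (by norm_num)
  have hD59 : D ≤ D ^ 59 := Nat.le_self_pow (by norm_num) D
  have hsub : N - D ^ 59 + D ^ 59 = N := Nat.sub_add_cancel (hDle.trans hN1)
  have hD60 : D ^ 60 = D * D ^ 59 := by ring
  have ha : 2 * k ≤ N - D ^ 59 := by
    have h1 : 2 * D ^ 59 ≤ D ^ 60 := by
      rw [hD60]
      exact Nat.mul_le_mul_right _ (by omega)
    have h2 : 2 * k ≤ D ^ 59 := by omega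
    omega
  have hDpos : (0 : ℝ) < D := by exact_mod_cast hD0
  have hb := bad_count hk (a := N - D ^ 59) (b := N) (Nat.sub_le _ _) ha hDpos
  have hfil : (Finset.Ico (N - D ^ 59) N).filter (fun n => (D : ℝ) ^ 2 < Qn k n) =
      Finset.Ico (N - D ^ 59) N := by
    refine Finset.filter_true_of_mem (fun n hn => ?_)
    have hn' := Finset.mem_Ico.1 hn
    exact hcon n hn'.1 hn'.2
  rw [hfil, Nat.card_Ico] at hb
  have hcard : N - (N - D ^ 59) = D ^ 59 := by omega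
  rw [hcard] at hb
  have hNr : (N : ℝ) ≤ 2 * (D : ℝ) ^ 60 := by exact_mod_cast hN2
  have hcast1 : (((N - D ^ 59 : ℕ) : ℝ)) + (D : ℝ) ^ 59 = N := by exact_mod_cast hsub
  have hD59r : (1 : ℝ) ≤ (D : ℝ) ^ 59 := by
    have : 1 ≤ D ^ 59 := Nat.one_le_pow _ _ hD0
    exact_mod_cast this
  have hN0 : (0 : ℝ) ≤ (N - D ^ 59 : ℕ) := Nat.cast_nonneg _
  have hsubr : (N : ℝ) - ((N - D ^ 59 : ℕ) : ℝ) = (D : ℝ) ^ 59 := by linarith
  rw [hsubr] at hb
  have ha1 : ((N - D ^ 59 : ℕ) : ℝ) + 1 ≤ N := by linarith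
  have h2k : (0 : ℝ) < 2 ^ k := by positivity
  have hD602 : (D : ℝ) ^ 60 = D * (D : ℝ) ^ 59 := by ring
  have hD61 : ((D ^ 59 : ℕ) : ℝ) * (D : ℝ) ^ 2 = (D : ℝ) * (D : ℝ) ^ 60 := by
    push_cast
    ring
  rw [hD61] at hb
  have hup : (2 : ℝ) ^ k * (((N - D ^ 59 : ℕ) : ℝ) + 1) + 2 * k * 2 ^ (k + 1) * (D : ℝ) ^ 59 ≤
      (2 ^ (k + 1) * (1 + 2 * k) : ℝ) * (D : ℝ) ^ 60 := by
    have h1 : (2 : ℝ) ^ k * (((N - D ^ 59 : ℕ) : ℝ) + 1) ≤ 2 ^ k * (2 * (D : ℝ) ^ 60) :=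
      mul_le_mul_of_nonneg_left (ha1.trans hNr) h2k.le
    have h2 : (D : ℝ) ^ 59 ≤ (D : ℝ) ^ 60 := by
      rw [hD602]
      have : (1 : ℝ) ≤ D := by exact_mod_cast hD0
      nlinarith
    have h3 : (2 * k * 2 ^ (k + 1) : ℝ) * (D : ℝ) ^ 59 ≤ (2 * k * 2 ^ (k + 1) : ℝ) * (D : ℝ) ^ 60 :=
      mul_le_mul_of_nonneg_left h2 (by positivity)
    have h4 : (2 : ℝ) ^ (k + 1) = 2 ^ k * 2 := pow_succ _ _
    rw [h4] at h3 ⊢
    nlinarith
  have h60pos : (0 : ℝ) < (D : ℝ) ^ 60 := by positivity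
  have hfinal : (D : ℝ) ≤ 2 ^ (k + 1) * (1 + 2 * k) := by
    have := hb.trans hup
    exact le_of_mul_le_mul_right this h60pos
  have hDbig : (2 ^ (k + 1) * (1 + 2 * k) + 2 * k + 2 : ℕ) ≤ D := hD
  have : ((2 ^ (k + 1) * (1 + 2 * k) + 2 * k + 2 : ℕ) : ℝ) ≤ D := by exact_mod_cast hDbig
  push_cast at this
  have hk0 : (0 : ℝ) ≤ k := Nat.cast_nonneg k
  linarith

lemma aux_range {A B N n k : ℕ} (h2 : 2 * B ≤ A) (hN₁ : A ≤ N) (hN2 : N ≤ 2 * A) (hk : k ≤ B)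
    (hn1 : N - B ≤ n) (hn2 : n < N) :
    N ≤ n + 1 + B ∧ A ≤ 2 * (n + 1) ∧ n + 1 ≤ 2 * A ∧ k ≤ n + 1 := by omega

lemma aux_n1 {n₁ D A n : ℕ} (h1 : 2 * n₁ ≤ D) (h2 : D ≤ A) (h3 : A ≤ 2 * (n + 1)) : n₁ ≤ n + 1 := by
  omega

/-- The core estimate of the unsatisfiable side. -/
lemma unsat_core (hk : 3 ≤ k) {α c ε Cg : ℝ} (hε : ε = (c - α) / 4) (hεpos : 0 < ε) (hcpos : 0 < c)
    (hα0 : 0 < α) {D N x B : ℕ} (hD0 : 0 < D) (h2D : 2 ≤ D) (hxN : x ≤ N) (hkx : k ≤ x)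
    (hx0n : 0 < x) (hx1 : N ≤ x + B) (hB1 : D * B ≤ N) (hkB : k ≤ B)
    (h2ε : 2 / ε ≤ D) (h2c : 2 * k * c / ε ≤ D) (hδ : delta k x < α + ε / 2)
    (hg : ∀ m : ℕ, tau k x + x / D ≤ m → satProb k x m ≤ Cg / (D : ℝ) ^ 7) :
    satProb k N ⌊c * N⌋₊ ≤ Cg / (D : ℝ) ^ 7 + c / (ε ^ 2 * N) := by
  have hDr : (0 : ℝ) < D := by exact_mod_cast hD0
  have hx0 : (0 : ℝ) < (x : ℝ) := by exact_mod_cast hx0n
  have h1D : 1 / (D : ℝ) ≤ ε / 2 := by
    rw [div_le_iff₀ hDr]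
    rw [div_le_iff₀ hεpos] at h2ε
    linarith
  set J := ⌈(α + ε) * (x : ℝ)⌉₊ with hJ
  have hJge : (α + ε) * (x : ℝ) ≤ J := Nat.le_ceil _
  have hJle : (J : ℝ) < (α + ε) * (x : ℝ) + 1 :=
    Nat.ceil_lt_add_one (by positivity)
  have hτ : tau k x + (x : ℝ) / D ≤ J := by
    have e1 : tau k x = delta k x * (x : ℝ) := by
      unfold delta
      field_simp
    have e2 : (x : ℝ) / D = (1 / (D : ℝ)) * (x : ℝ) := by ring
    rw [e1, e2, ← add_mul]
    refine le_trans (mul_le_mul_of_nonneg_right ?_ hx0.le) hJge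
    linarith
  have hPJ := hg J hτ
  -- the ratio
  set r := ratio k x N with hr
  have hr1 : r ≤ 1 := ratio_le_one hxN hkx
  have hr0 : 0 ≤ r := ratio_nonneg _ _ _
  have hNr : (0 : ℝ) < N := by
    have : 0 < N := by omega
    exact_mod_cast this
  have hrlow : 1 - 2 * k / (D : ℝ) ≤ r := by
    have h1 := ratio_lower (k := k) (le_trans (by norm_num) hk) hkx hxN
    have h2 : 1 - 2 / (D : ℝ) ≤ ((x : ℝ) + 1 - k) / N := by
      rw [le_div_iff₀ hNr]
      have h3 : ((N : ℝ)) ≤ (x : ℝ) + (B : ℝ) := by exact_mod_cast hx1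
      have h4 : (D : ℝ) * B ≤ N := by exact_mod_cast hB1
      have h5 : (2 / (D : ℝ)) * N ≥ 2 * (B : ℝ) := by
        have e : (2 / (D : ℝ)) * ((D : ℝ) * B) = 2 * (B : ℝ) := by
          field_simp
        rw [← e]
        exact mul_le_mul_of_nonneg_left h4 (by positivity)
      have h6 : (k : ℝ) ≤ (B : ℝ) := by exact_mod_cast hkB
      have e3 : (1 - 2 / (D : ℝ)) * N = N - (2 / (D : ℝ)) * N := by ring
      rw [e3]
      linarith
    have h7 : -2 ≤ - (2 / (D : ℝ)) := by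
      have : 2 / (D : ℝ) ≤ 2 := by
        rw [div_le_iff₀ hDr]
        have : (1 : ℝ) ≤ D := by exact_mod_cast hD0
        linarith
      linarith
    have h8 : 1 + (k : ℝ) * (- (2 / (D : ℝ))) ≤ (1 + (- (2 / (D : ℝ)))) ^ k :=
      one_add_mul_le_pow h7 k
    have h9 : (1 + (- (2 / (D : ℝ)))) ^ k ≤ (((x : ℝ) + 1 - k) / N) ^ k := by
      refine pow_le_pow_left₀ ?_ (by linarith) k
      have : 2 / (D : ℝ) ≤ 1 := by
        rw [div_le_iff₀ hDr]
        have : (2 : ℝ) ≤ D := by exact_mod_cast h2D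
        linarith
      linarith
    have e4 : 1 + (k : ℝ) * (- (2 / (D : ℝ))) = 1 - 2 * k / (D : ℝ) := by ring
    rw [e4] at h8
    linarith
  -- numbers
  set m := ⌊c * N⌋₊ with hm
  have hmle : (m : ℝ) ≤ c * N := Nat.floor_le (by positivity)
  have hmge : c * N < (m : ℝ) + 1 := Nat.lt_floor_add_one _
  have hεN : 2 ≤ ε * N := by
    have h1 : (D : ℝ) ≤ N := by
      have h0 : B ≠ 0 := by omega
      have : D ≤ D * B := Nat.le_mul_of_pos_right _ (Nat.pos_of_ne_zero h0)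
      exact_mod_cast this.trans hB1
    rw [div_le_iff₀ hεpos] at h2ε
    nlinarith
  have h2kc : 2 * k * c / (D : ℝ) ≤ ε := by
    rw [div_le_iff₀ hDr]
    rw [div_le_iff₀ hεpos] at h2c
    linarith
  have hxNr : (x : ℝ) ≤ N := by exact_mod_cast hxN
  have hαε : 0 < α + ε := by linarith
  have hJN : (J : ℝ) ≤ (α + ε) * N + 1 := by
    have := mul_le_mul_of_nonneg_left hxNr hαε.le
    linarith
  have hgap : ε * N ≤ m * r - J := by
    have hrm : (m : ℝ) * (1 - 2 * k / (D : ℝ)) ≤ m * r :=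
      mul_le_mul_of_nonneg_left hrlow (Nat.cast_nonneg _)
    have hmm : (m : ℝ) * (2 * k / (D : ℝ)) ≤ (c * N) * (2 * k / (D : ℝ)) :=
      mul_le_mul_of_nonneg_right hmle (by positivity)
    have e5 : (c * N) * (2 * k / (D : ℝ)) = (2 * k * c / (D : ℝ)) * N := by ring
    have hmm2 : (2 * k * c / (D : ℝ)) * N ≤ ε * N :=
      mul_le_mul_of_nonneg_right h2kc hNr.le
    have hcα : c = α + 4 * ε := by rw [hε]; ring
    have e6 : (m : ℝ) * (1 - 2 * k / (D : ℝ)) = m - (m : ℝ) * (2 * k / (D : ℝ)) := by ring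
    have hc4 : c * N = (α + ε) * N + 3 * (ε * N) := by rw [hcα]; ring
    nlinarith
  have hgap0 : 0 < ε * N := by positivity
  have hJlt : (J : ℝ) < m * r := by linarith
  have hku := key_upper hxN hkx hJlt
  refine hku.trans (add_le_add hPJ ?_)
  have hsq : (ε * N) ^ 2 ≤ (m * r - J) ^ 2 := pow_le_pow_left₀ hgap0.le hgap 2
  have hnum : (m : ℝ) * r * (1 - r) ≤ c * N := by
    have h1 : r * (1 - r) ≤ 1 := by nlinarith
    have h2 : (m : ℝ) * r * (1 - r) = m * (r * (1 - r)) := by ring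
    rw [h2]
    have h3 : (m : ℝ) * (r * (1 - r)) ≤ m * 1 :=
      mul_le_mul_of_nonneg_left h1 (Nat.cast_nonneg _)
    linarith
  have hnum0 : 0 ≤ (m : ℝ) * r * (1 - r) := by
    have : 0 ≤ 1 - r := by linarith
    positivity
  calc (m : ℝ) * r * (1 - r) / (m * r - J) ^ 2 ≤ (c * N) / (ε * N) ^ 2 :=
        div_le_div₀ (by positivity) hnum (by positivity) hsq
    _ = c / (ε ^ 2 * N) := by
        field_simp

/-- The unsatisfiable side. -/
theorem unsat_side (hk : 3 ≤ k) {α c : ℝ} (hα : Tendsto (delta k) atTop (𝓝 α)) (hc : α < c)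
    (hα0 : 0 < α) :
    Tendsto (fun N : ℕ => satProb k N ⌊c * N⌋₊) atTop (𝓝 0) := by
  obtain ⟨Cg, hCg, Dg, Hg⟩ := conc_good hk
  obtain ⟨D₁, hD₁⟩ := exists_good hk
  obtain ⟨D₂, hD₂⟩ := succ_pow_le_two_mul 60
  set ε := (c - α) / 4 with hε
  have hεpos : 0 < ε := by rw [hε]; linarith
  have hcpos : 0 < c := by linarith
  obtain ⟨n₁, hn₁⟩ := (((tendsto_order.1 hα).2 (α + ε / 2) (by linarith))).exists_forall_of_atTop
  have key : ∀ (D N : ℕ), max (max Dg D₁) (max D₂ (max (2 * n₁) (max (k + 2)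
      (max ⌈2 / ε⌉₊ ⌈2 * k * c / ε⌉₊)))) ≤ D →
      D ^ 60 ≤ N → N < (D + 1) ^ 60 →
      satProb k N ⌊c * N⌋₊ ≤ Cg / (D : ℝ) ^ 7 + c / (ε ^ 2 * N) := by
    intro D N hD
    have hDg : Dg ≤ D := le_trans (le_trans (le_max_left _ _) (le_max_left _ _)) hD
    have hDD₁ : D₁ ≤ D := le_trans (le_trans (le_max_right _ _) (le_max_left _ _)) hD
    have hrest := le_trans (le_max_right _ _) hD
    have hDD₂ : D₂ ≤ D := le_trans (le_max_left _ _) hrest
    have hrest2 := le_trans (le_max_right _ _) hrest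
    have hDn : 2 * n₁ ≤ D := le_trans (le_max_left _ _) hrest2
    have hrest3 := le_trans (le_max_right _ _) hrest2
    have hDk : k + 2 ≤ D := le_trans (le_max_left _ _) hrest3
    have hrest4 := le_trans (le_max_right _ _) hrest3
    have hDε : ⌈2 / ε⌉₊ ≤ D := le_trans (le_max_left _ _) hrest4
    have hDc : ⌈2 * k * c / ε⌉₊ ≤ D := le_trans (le_max_right _ _) hrest4
    have hD0 : 0 < D := by omega
    have h2ε : 2 / ε ≤ D := (Nat.le_ceil _).trans (by exact_mod_cast hDε)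
    have h2c : 2 * k * c / ε ≤ D := (Nat.le_ceil _).trans (by exact_mod_cast hDc)
    have h2D : 2 ≤ D := by omega
    have hkD : k ≤ D := by omega
    intro hN₁ hN₂
    have hN2 : N ≤ 2 * D ^ 60 := hN₂.le.trans (hD₂ D hDD₂)
    clear hN₂
    obtain ⟨n, hn1, hn2, hn3⟩ := hD₁ D hDD₁ N hN₁ hN2
    have hD60 : D ^ 60 = D * D ^ 59 := by ring
    have hD59 : D ≤ D ^ 59 := Nat.le_self_pow (by norm_num) D
    have h2D59 : 2 * D ^ 59 ≤ D ^ 60 := by
      rw [hD60]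
      exact Nat.mul_le_mul_right _ h2D
    have hkD59 : k ≤ D ^ 59 := hkD.trans hD59
    obtain ⟨hx1, hxlow, hxhigh, hkx⟩ := aux_range h2D59 hN₁ hN2 hkD59 hn1 hn2
    have hxN : n + 1 ≤ N := hn2
    have hQ : Qn k (n + 1 - 1) ≤ (D : ℝ) ^ 2 := by simpa using hn3
    have hg := (Hg D hDg (n + 1) hxlow hxhigh hQ).2
    have hxn₁ : n₁ ≤ n + 1 := aux_n1 hDn (Nat.le_self_pow (by norm_num) D) hxlow
    have hδ := hn₁ (n + 1) hxn₁
    have hB1 : D * D ^ 59 ≤ N := by rw [← hD60]; exact hN₁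
    exact unsat_core hk hε hεpos hcpos hα0 hD0 h2D hxN hkx (Nat.succ_pos n) hx1 hB1 hkD59 h2ε h2c hδ hg
  have hroot := tendsto_rootLe (e := 60) (by norm_num)
  have hup : Tendsto (fun N : ℕ => Cg / ((rootLe 60 N : ℕ) : ℝ) ^ 7 + c / (ε ^ 2 * N)) atTop
      (𝓝 (0 + 0)) := by
    refine Tendsto.add ?_ ?_
    · refine tendsto_const_nhds.div_atTop ?_
      exact (tendsto_pow_atTop (by norm_num)).comp (tendsto_natCast_atTop_atTop.comp hroot)
    · refine tendsto_const_nhds.div_atTop ?_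
      exact Tendsto.const_mul_atTop (by positivity) tendsto_natCast_atTop_atTop
  rw [add_zero] at hup
  refine tendsto_of_tendsto_of_tendsto_of_le_of_le' tendsto_const_nhds hup
    (Eventually.of_forall (fun N => satProb_nonneg _ _ _)) ?_
  filter_upwards [hroot.eventually (eventually_ge_atTop _)] with N hN
  exact key _ N hN (rootLe_pow_le (by norm_num) N) (lt_rootLe_succ_pow (by norm_num) N)

/-- The satisfiability threshold conjecture for `k ≥ 3`. -/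
theorem threshold (hk : 3 ≤ k) : ∃ α : ℝ, 0 < α ∧
    (∀ c : ℝ, c < α → Tendsto (fun n : ℕ => satProb k n ⌊c * n⌋₊) atTop (𝓝 1)) ∧
    (∀ c : ℝ, α < c → Tendsto (fun n : ℕ => satProb k n ⌊c * n⌋₊) atTop (𝓝 0)) := by
  obtain ⟨α, hα⟩ := delta_conv hk
  have hpos := delta_lim_pos hk hα
  exact ⟨α, hpos, fun c hc => sat_side hk hα hc, fun c hc => unsat_side hk hα hc hpos⟩

end Vale.Agent.Lib.P170T
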