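import Vale.Agent.Lib.P170T.Defs

/-!
# Module FKG: the composition weights. See notes/P170T_blueprint.md, part A.
-/

open Finset

namespace Vale.Agent.Lib.P170T

/-- The weight of a composition with `t` clauses avoiding the variable and `i`, `j` clauses
containing it with either sign: the multinomial coefficient times `x^t z^(i+j)`. -/
noncomputable def Wh (x z : ℝ) (t i j : ℕ) : ℝ :=
  ((t + i + j).choose t : ℝ) * ((i + j).choose i : ℝ) * x ^ t * z ^ (i + j)

lemma Wh_nonneg {x z : ℝ} (hx : 0 ≤ x) (hz : 0 ≤ z) (t i j : ℕ) : 0 ≤ Wh x z t i j := by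
  unfold Wh; positivity

lemma Wh_symm (x z : ℝ) (t i j : ℕ) : Wh x z t i j = Wh x z t j i := by
  unfold Wh
  rw [show t + i + j = t + j + i by ring, show i + j = j + i by ring, Nat.choose_symm_add]

/-- Closed form of the weight coefficient. -/
lemma coeff_eq (t i j : ℕ) :
    ((t + i + j).choose t : ℝ) * ((i + j).choose i : ℝ) =
      ((t + i + j).factorial : ℝ) / ((t.factorial : ℝ) * (i.factorial : ℝ) * (j.factorial : ℝ)) := by
  have h1 : ((t + i + j).choose t : ℝ) =
      ((t + i + j).factorial : ℝ) / ((t.factorial : ℝ) * ((i + j).factorial : ℝ)) := by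
    have := Nat.cast_add_choose ℝ (a := t) (b := i + j)
    rw [show t + i + j = t + (i + j) by ring]; exact this
  have h2 : ((i + j).choose i : ℝ) =
      ((i + j).factorial : ℝ) / ((i.factorial : ℝ) * (j.factorial : ℝ)) :=
    Nat.cast_add_choose ℝ (a := i) (b := j)
  rw [h1, h2]
  have : ((i + j).factorial : ℝ) ≠ 0 := by positivity
  have : (t.factorial : ℝ) ≠ 0 := by positivity
  have : (i.factorial : ℝ) ≠ 0 := by positivity
  have : (j.factorial : ℝ) ≠ 0 := by positivity
  field_simp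

/-- The factorial log-supermodularity. -/
lemma fact_super (u a b : ℕ) :
    (u + a).factorial * (u + b).factorial ≤ u.factorial * (u + a + b).factorial := by
  induction b with
  | zero => simp [Nat.mul_comm]
  | succ b ih =>
    have h1 : (u + (b + 1)).factorial = (u + b + 1) * (u + b).factorial := by
      rw [show u + (b + 1) = (u + b) + 1 by ring, Nat.factorial_succ]
    have h2 : (u + a + (b + 1)).factorial = (u + a + b + 1) * (u + a + b).factorial := by
      rw [show u + a + (b + 1) = (u + a + b) + 1 by ring, Nat.factorial_succ]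
    rw [h1, h2]
    calc (u + a).factorial * ((u + b + 1) * (u + b).factorial)
        = (u + b + 1) * ((u + a).factorial * (u + b).factorial) := by ring
      _ ≤ (u + a + b + 1) * (u.factorial * (u + a + b).factorial) :=
          Nat.mul_le_mul (by omega) ih
      _ = u.factorial * ((u + a + b + 1) * (u + a + b).factorial) := by ring

/-- Total positivity of order two. -/
lemma Wh_tp2 {x z : ℝ} (hx : 0 ≤ x) (hz : 0 ≤ z) (t : ℕ) {i i' j j' : ℕ} (hi : i ≤ i') (hj : j ≤ j') :
    Wh x z t i j' * Wh x z t i' j ≤ Wh x z t i j * Wh x z t i' j' := by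
  obtain ⟨a, rfl⟩ := Nat.exists_eq_add_of_le hi
  obtain ⟨b, rfl⟩ := Nat.exists_eq_add_of_le hj
  have key := fact_super (t + i + j) a b
  have keyR : (((t + i + j + a).factorial * (t + i + j + b).factorial : ℕ) : ℝ) ≤
      (((t + i + j).factorial * (t + i + j + a + b).factorial : ℕ) : ℝ) := by
    exact_mod_cast key
  push_cast at keyR
  unfold Wh
  rw [show ((t + i + (j + b)).choose t : ℝ) * ((i + (j + b)).choose i : ℝ) * x ^ t * z ^ (i + (j + b))
        = (((t + i + (j + b)).choose t : ℝ) * ((i + (j + b)).choose i : ℝ)) * (x ^ t * z ^ (i + (j + b))) by ring,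
      show ((t + (i + a) + j).choose t : ℝ) * (((i + a) + j).choose (i + a) : ℝ) * x ^ t * z ^ ((i + a) + j)
        = (((t + (i + a) + j).choose t : ℝ) * (((i + a) + j).choose (i + a) : ℝ)) * (x ^ t * z ^ ((i + a) + j)) by ring,
      show ((t + i + j).choose t : ℝ) * ((i + j).choose i : ℝ) * x ^ t * z ^ (i + j)
        = (((t + i + j).choose t : ℝ) * ((i + j).choose i : ℝ)) * (x ^ t * z ^ (i + j)) by ring,
      show ((t + (i + a) + (j + b)).choose t : ℝ) * (((i + a) + (j + b)).choose (i + a) : ℝ) * x ^ t * z ^ ((i + a) + (j + b))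
        = (((t + (i + a) + (j + b)).choose t : ℝ) * (((i + a) + (j + b)).choose (i + a) : ℝ)) * (x ^ t * z ^ ((i + a) + (j + b))) by ring,
      coeff_eq, coeff_eq, coeff_eq, coeff_eq]
  have hpow : (x ^ t * z ^ (i + (j + b))) * (x ^ t * z ^ ((i + a) + j)) =
      (x ^ t * z ^ (i + j)) * (x ^ t * z ^ ((i + a) + (j + b))) := by ring
  have hD : ((t.factorial : ℝ) * (i.factorial : ℝ) * ((j + b).factorial : ℝ)) *
      ((t.factorial : ℝ) * ((i + a).factorial : ℝ) * (j.factorial : ℝ)) =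
      ((t.factorial : ℝ) * (i.factorial : ℝ) * (j.factorial : ℝ)) *
      ((t.factorial : ℝ) * ((i + a).factorial : ℝ) * ((j + b).factorial : ℝ)) := by ring
  have hP : 0 ≤ (x ^ t * z ^ (i + j)) * (x ^ t * z ^ ((i + a) + (j + b))) := by positivity
  have hDpos : 0 < ((t.factorial : ℝ) * (i.factorial : ℝ) * (j.factorial : ℝ)) *
      ((t.factorial : ℝ) * ((i + a).factorial : ℝ) * ((j + b).factorial : ℝ)) := by positivity
  rw [show (((t + i + (j + b)).factorial : ℝ) / ((t.factorial : ℝ) * (i.factorial : ℝ) * ((j + b).factorial : ℝ)) * (x ^ t * z ^ (i + (j + b)))) *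
        (((t + (i + a) + j).factorial : ℝ) / ((t.factorial : ℝ) * ((i + a).factorial : ℝ) * (j.factorial : ℝ)) * (x ^ t * z ^ ((i + a) + j))) =
      (((t + i + (j + b)).factorial : ℝ) * ((t + (i + a) + j).factorial : ℝ)) /
        (((t.factorial : ℝ) * (i.factorial : ℝ) * ((j + b).factorial : ℝ)) * ((t.factorial : ℝ) * ((i + a).factorial : ℝ) * (j.factorial : ℝ))) *
        ((x ^ t * z ^ (i + (j + b))) * (x ^ t * z ^ ((i + a) + j))) by
        ring,
      show (((t + i + j).factorial : ℝ) / ((t.factorial : ℝ) * (i.factorial : ℝ) * (j.factorial : ℝ)) * (x ^ t * z ^ (i + j))) *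
        (((t + (i + a) + (j + b)).factorial : ℝ) / ((t.factorial : ℝ) * ((i + a).factorial : ℝ) * ((j + b).factorial : ℝ)) * (x ^ t * z ^ ((i + a) + (j + b)))) =
      (((t + i + j).factorial : ℝ) * ((t + (i + a) + (j + b)).factorial : ℝ)) /
        (((t.factorial : ℝ) * (i.factorial : ℝ) * (j.factorial : ℝ)) * ((t.factorial : ℝ) * ((i + a).factorial : ℝ) * ((j + b).factorial : ℝ))) *
        ((x ^ t * z ^ (i + j)) * (x ^ t * z ^ ((i + a) + (j + b)))) by
        ring,
      hpow, hD]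
  apply mul_le_mul_of_nonneg_right _ hP
  apply div_le_div_of_nonneg_right _ hDpos.le
  rw [show t + i + (j + b) = t + i + j + b by ring, show t + (i + a) + j = t + i + j + a by ring,
    show t + (i + a) + (j + b) = t + i + j + a + b by ring]
  linarith

/-- The general FKG inequality for a TP2 weight on a box, as a product inequality. -/
lemma prod_expand (R : ℕ) (f g : ℕ → ℕ → ℝ) :
    (∑ i ∈ range R, ∑ j ∈ range R, f i j) * (∑ i' ∈ range R, ∑ j' ∈ range R, g i' j') =
      ∑ i ∈ range R, ∑ i' ∈ range R, ∑ j ∈ range R, ∑ j' ∈ range R, f i j * g i' j' := by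
  rw [Finset.sum_mul_sum]
  refine Finset.sum_congr rfl fun i _ => Finset.sum_congr rfl fun i' _ => ?_
  rw [Finset.sum_mul_sum]

lemma fkg_aux (R : ℕ) (W : ℕ → ℕ → ℝ) (a : ℕ → ℝ) (ha : Monotone a)
    (htp : ∀ {i i' j j' : ℕ}, i ≤ i' → j ≤ j' → W i j' * W i' j ≤ W i j * W i' j') :
    (∑ i ∈ range R, ∑ j ∈ range R, W i j * a i) * (∑ i ∈ range R, ∑ j ∈ range R, W i j * a j) ≤
      (∑ i ∈ range R, ∑ j ∈ range R, W i j) *
        (∑ i ∈ range R, ∑ j ∈ range R, W i j * (a i * a j)) := by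
  set F : ℕ → ℕ → ℕ → ℕ → ℝ := fun i i' j j' =>
    W i j * W i' j' * ((a i - a i') * (a j - a j')) with hF
  -- pointwise positivity of the symmetrised term
  have hsym : ∀ i i' j j', 0 ≤ F i i' j j' + F i i' j' j := by
    intro i i' j j'
    have e : F i i' j j' + F i i' j' j =
        (W i j * W i' j' - W i j' * W i' j) * ((a i - a i') * (a j - a j')) := by
      simp only [hF]; ring
    rw [e]
    rcases le_total i i' with hi | hi <;> rcases le_total j j' with hj | hj
    · apply mul_nonneg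
      · linarith [htp hi hj]
      · exact mul_nonneg_of_nonpos_of_nonpos (by linarith [ha hi]) (by linarith [ha hj])
    · apply mul_nonneg_of_nonpos_of_nonpos
      · linarith [htp hi hj]
      · exact mul_nonpos_of_nonpos_of_nonneg (by linarith [ha hi]) (by linarith [ha hj])
    · apply mul_nonneg_of_nonpos_of_nonpos
      · linarith [htp hi hj]
      · exact mul_nonpos_of_nonneg_of_nonpos (by linarith [ha hi]) (by linarith [ha hj])
    · apply mul_nonneg
      · linarith [htp hi hj]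
      · exact mul_nonneg (by linarith [ha hi]) (by linarith [ha hj])
  have hpair : ∀ i i', 0 ≤ ∑ j ∈ range R, ∑ j' ∈ range R, F i i' j j' := by
    intro i i'
    have h2 : ∑ j ∈ range R, ∑ j' ∈ range R, F i i' j j' =
        ∑ j ∈ range R, ∑ j' ∈ range R, F i i' j' j := Finset.sum_comm
    have h3 : 0 ≤ ∑ j ∈ range R, ∑ j' ∈ range R, (F i i' j j' + F i i' j' j) :=
      Finset.sum_nonneg fun j _ => Finset.sum_nonneg fun j' _ => hsym i i' j j'
    simp only [Finset.sum_add_distrib] at h3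
    linarith
  have hS : 0 ≤ ∑ i ∈ range R, ∑ i' ∈ range R, ∑ j ∈ range R, ∑ j' ∈ range R, F i i' j j' :=
    Finset.sum_nonneg fun i _ => Finset.sum_nonneg fun i' _ => hpair i i'
  have hexp : ∑ i ∈ range R, ∑ i' ∈ range R, ∑ j ∈ range R, ∑ j' ∈ range R, F i i' j j' =
      (∑ i ∈ range R, ∑ j ∈ range R, W i j * (a i * a j)) * (∑ i' ∈ range R, ∑ j' ∈ range R, W i' j')
      + (∑ i ∈ range R, ∑ j ∈ range R, W i j) * (∑ i' ∈ range R, ∑ j' ∈ range R, W i' j' * (a i' * a j'))
      - (∑ i ∈ range R, ∑ j ∈ range R, W i j * a i) * (∑ i' ∈ range R, ∑ j' ∈ range R, W i' j' * a j')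
      - (∑ i ∈ range R, ∑ j ∈ range R, W i j * a j) * (∑ i' ∈ range R, ∑ j' ∈ range R, W i' j' * a i') := by
    rw [prod_expand, prod_expand, prod_expand, prod_expand]
    simp only [← Finset.sum_add_distrib, ← Finset.sum_sub_distrib]
    refine Finset.sum_congr rfl fun i _ => Finset.sum_congr rfl fun i' _ =>
      Finset.sum_congr rfl fun j _ => Finset.sum_congr rfl fun j' _ => ?_
    simp only [hF]; ring
  rw [hexp] at hS
  nlinarith [hS]

/-- Two dimensional FKG on a box. -/
theorem fkg_box {x z : ℝ} (hx : 0 ≤ x) (hz : 0 ≤ z) (t R : ℕ) {a : ℕ → ℝ} (ha : Monotone a)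
    (ha0 : ∀ i, 0 ≤ a i) :
    (∑ i ∈ range R, ∑ j ∈ range R, Wh x z t i j * a i) ^ 2 ≤
      (∑ i ∈ range R, ∑ j ∈ range R, Wh x z t i j) *
        (∑ i ∈ range R, ∑ j ∈ range R, Wh x z t i j * (a i * a j)) := by
  have h := fkg_aux R (Wh x z t) a ha (fun hi hj => Wh_tp2 hx hz t hi hj)
  have hs : ∑ i ∈ range R, ∑ j ∈ range R, Wh x z t i j * a j =
      ∑ i ∈ range R, ∑ j ∈ range R, Wh x z t i j * a i := by
    rw [Finset.sum_comm]
    refine Finset.sum_congr rfl fun i _ => Finset.sum_congr rfl fun j _ => ?_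
    rw [Wh_symm]
  rw [hs] at h
  rw [sq]; exact h

/-- AM-GM form of `fkg_box`. -/
theorem box_amgm {x z s : ℝ} (hx : 0 ≤ x) (hz : 0 ≤ z) (hs : 0 < s) (t R : ℕ) {a : ℕ → ℝ}
    (ha : Monotone a) (ha0 : ∀ i, 0 ≤ a i) :
    ∑ i ∈ range R, ∑ j ∈ range R, Wh x z t i j * (a i + a j) ≤
      s * (∑ i ∈ range R, ∑ j ∈ range R, Wh x z t i j) +
        (∑ i ∈ range R, ∑ j ∈ range R, Wh x z t i j * (a i * a j)) / s := by
  have h := fkg_box hx hz t R ha ha0
  have hsy : ∑ i ∈ range R, ∑ j ∈ range R, Wh x z t i j * a j =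
      ∑ i ∈ range R, ∑ j ∈ range R, Wh x z t i j * a i := by
    rw [Finset.sum_comm]
    refine Finset.sum_congr rfl fun i _ => Finset.sum_congr rfl fun j _ => ?_
    rw [Wh_symm]
  have hl : ∑ i ∈ range R, ∑ j ∈ range R, Wh x z t i j * (a i + a j) =
      2 * ∑ i ∈ range R, ∑ j ∈ range R, Wh x z t i j * a i := by
    have : ∑ i ∈ range R, ∑ j ∈ range R, Wh x z t i j * (a i + a j) =
        ∑ i ∈ range R, ∑ j ∈ range R, Wh x z t i j * a i +
          ∑ i ∈ range R, ∑ j ∈ range R, Wh x z t i j * a j := by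
      simp only [mul_add, Finset.sum_add_distrib]
    rw [this, hsy]; ring
  rw [hl]
  set T1 := ∑ i ∈ range R, ∑ j ∈ range R, Wh x z t i j * a i
  set T0 := ∑ i ∈ range R, ∑ j ∈ range R, Wh x z t i j
  set T2 := ∑ i ∈ range R, ∑ j ∈ range R, Wh x z t i j * (a i * a j)
  have hT0 : 0 ≤ T0 := Finset.sum_nonneg fun i _ => Finset.sum_nonneg fun j _ => Wh_nonneg hx hz t i j
  have hT2 : 0 ≤ T2 := Finset.sum_nonneg fun i _ => Finset.sum_nonneg fun j _ =>
    mul_nonneg (Wh_nonneg hx hz t i j) (mul_nonneg (ha0 i) (ha0 j))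
  have hA : 0 ≤ s * T0 := by positivity
  have hB : 0 ≤ T2 / s := by positivity
  have hAB : (s * T0) * (T2 / s) = T0 * T2 := by field_simp
  have hsq : (2 * T1) ^ 2 ≤ (s * T0 + T2 / s) ^ 2 := by
    nlinarith [sq_nonneg (s * T0 - T2 / s)]
  exact abs_le_of_sq_le_sq' hsq (by positivity) |>.2

/-- Triples with sum `m`. -/
def tri (m : ℕ) : Finset (ℕ × ℕ × ℕ) :=
  (range (m + 1) ×ˢ range (m + 1) ×ˢ range (m + 1)).filter (fun p => p.1 + p.2.1 + p.2.2 = m)

lemma mem_tri {m : ℕ} {p : ℕ × ℕ × ℕ} : p ∈ tri m ↔ p.1 + p.2.1 + p.2.2 = m := by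
  simp only [tri, mem_filter, mem_product, mem_range]
  constructor
  · exact fun h => h.2
  · intro h; refine ⟨⟨?_, ?_, ?_⟩, h⟩ <;> omega

/-- The tri sum as an iterated sum. -/
lemma sum_tri_eq (G : ℕ × ℕ × ℕ → ℝ) (m : ℕ) :
    ∑ p ∈ tri m, G p =
      ∑ t ∈ range (m + 1), ∑ i ∈ range (m - t + 1), G (t, i, m - t - i) := by
  rw [Finset.sum_sigma' (range (m + 1)) (fun t => range (m - t + 1))
    (fun t i => G (t, i, m - t - i))]
  refine Finset.sum_nbij' (fun p => ⟨p.1, p.2.1⟩) (fun q => (q.1, q.2, m - q.1 - q.2))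
    ?_ ?_ ?_ ?_ ?_
  · intro p hp
    have := mem_tri.1 hp
    simp only [mem_sigma, mem_range]
    omega
  · intro q hq
    simp only [mem_sigma, mem_range] at hq
    apply mem_tri.2
    show q.1 + q.2 + (m - q.1 - q.2) = m
    omega
  · intro p hp
    have := mem_tri.1 hp
    obtain ⟨t, i, j⟩ := p
    simp only at this ⊢
    have hj : m - t - i = j := by omega
    rw [hj]
  · intro q hq
    rfl
  · intro p hp
    have := mem_tri.1 hp
    obtain ⟨t, i, j⟩ := p
    simp only at this ⊢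
    have hj : m - t - i = j := by omega
    rw [hj]

/-- Multinomial theorem. -/
theorem Wh_tri_sum {x z : ℝ} (hxz : x + 2 * z = 1) (m : ℕ) :
    ∑ p ∈ tri m, Wh x z p.1 p.2.1 p.2.2 = 1 := by
  rw [sum_tri_eq (fun p => Wh x z p.1 p.2.1 p.2.2)]
  have hinner : ∀ t ∈ range (m + 1), ∑ i ∈ range (m - t + 1), Wh x z t i (m - t - i) =
      x ^ t * (2 * z) ^ (m - t) * (m.choose t : ℝ) := by
    intro t ht
    have htm : t ≤ m := by simpa [Nat.lt_succ_iff] using ht
    have h1 : ∀ i ∈ range (m - t + 1), Wh x z t i (m - t - i) =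
        (m.choose t : ℝ) * x ^ t * z ^ (m - t) * ((m - t).choose i : ℝ) := by
      intro i hi
      have hi' : i ≤ m - t := by simpa [Nat.lt_succ_iff] using hi
      unfold Wh
      rw [show t + i + (m - t - i) = m by omega, show i + (m - t - i) = m - t by omega]
      ring
    rw [Finset.sum_congr rfl h1, ← Finset.mul_sum]
    have h2 : ∑ i ∈ range (m - t + 1), ((m - t).choose i : ℝ) = 2 ^ (m - t) := by
      have := Nat.sum_range_choose (m - t)
      exact_mod_cast this
    rw [h2, mul_pow]; ring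
  rw [Finset.sum_congr rfl hinner]
  have := add_pow x (2 * z) m
  rw [hxz, one_pow] at this
  exact this.symm

/-- Sum over simplices is below the sum over the box. -/
lemma sum_tri_le_box {G : ℕ × ℕ × ℕ → ℝ} (hG : ∀ p, 0 ≤ G p) (M : ℕ) :
    ∑ m ∈ range M, ∑ p ∈ tri m, G p ≤
      ∑ t ∈ range M, ∑ i ∈ range M, ∑ j ∈ range M, G (t, i, j) := by
  have hd : ∀ s : Finset ℕ, Set.PairwiseDisjoint (s : Set ℕ) tri := by
    intro s a _ b _ hab
    refine Finset.disjoint_left.2 fun p hpa hpb => hab ?_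
    exact (mem_tri.1 hpa).symm.trans (mem_tri.1 hpb)
  rw [← Finset.sum_biUnion (hd _)]
  have hbox : ∑ t ∈ range M, ∑ i ∈ range M, ∑ j ∈ range M, G (t, i, j) =
      ∑ p ∈ range M ×ˢ range M ×ˢ range M, G p := by
    rw [Finset.sum_product]
    refine Finset.sum_congr rfl fun t _ => ?_
    rw [Finset.sum_product]
  rw [hbox]
  apply Finset.sum_le_sum_of_subset_of_nonneg
  · intro p hp
    simp only [mem_biUnion, mem_range] at hp
    obtain ⟨m, hm, hp⟩ := hp
    have := mem_tri.1 hp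
    simp only [mem_product, mem_range]
    omega
  · intro p _ _; exact hG p

/-- Sum over the box is below the sum over simplices up to `3M`. -/
lemma sum_box_le_tri {G : ℕ × ℕ × ℕ → ℝ} (hG : ∀ p, 0 ≤ G p) (M : ℕ) :
    ∑ t ∈ range M, ∑ i ∈ range M, ∑ j ∈ range M, G (t, i, j) ≤
      ∑ m ∈ range (3 * M), ∑ p ∈ tri m, G p := by
  have hd : ∀ s : Finset ℕ, Set.PairwiseDisjoint (s : Set ℕ) tri := by
    intro s a _ b _ hab
    refine Finset.disjoint_left.2 fun p hpa hpb => hab ?_
    exact (mem_tri.1 hpa).symm.trans (mem_tri.1 hpb)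
  rw [← Finset.sum_biUnion (hd _)]
  have hbox : ∑ t ∈ range M, ∑ i ∈ range M, ∑ j ∈ range M, G (t, i, j) =
      ∑ p ∈ range M ×ˢ range M ×ˢ range M, G p := by
    rw [Finset.sum_product]
    refine Finset.sum_congr rfl fun t _ => ?_
    rw [Finset.sum_product]
  rw [hbox]
  apply Finset.sum_le_sum_of_subset_of_nonneg
  · intro p hp
    simp only [mem_product, mem_range] at hp
    simp only [mem_biUnion, mem_range]
    refine ⟨p.1 + p.2.1 + p.2.2, by omega, mem_tri.2 rfl⟩
  · intro p _ _; exact hG p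

/-- Negative binomial bound. -/
theorem Wh_box_sum_le {x z : ℝ} (hx : 0 < x) (hz : 0 ≤ z) (hxz : x + 2 * z = 1) (t R : ℕ) :
    ∑ i ∈ range R, ∑ j ∈ range R, Wh x z t i j ≤ 1 / x := by
  classical
  have hy0 : 0 ≤ 2 * z := by positivity
  have hy1 : 2 * z < 1 := by linarith
  -- grouping by `J = i + j`
  have hd : ∀ s : Finset ℕ, Set.PairwiseDisjoint (s : Set ℕ) Finset.HasAntidiagonal.antidiagonal := by
    intro s a _ b _ hab
    refine Finset.disjoint_left.2 fun p hpa hpb => hab ?_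
    exact (Finset.HasAntidiagonal.mem_antidiagonal.1 hpa).symm.trans (Finset.HasAntidiagonal.mem_antidiagonal.1 hpb)
  have hbox : ∑ i ∈ range R, ∑ j ∈ range R, Wh x z t i j =
      ∑ p ∈ range R ×ˢ range R, Wh x z t p.1 p.2 := by
    rw [Finset.sum_product]
  have hle : ∑ p ∈ range R ×ˢ range R, Wh x z t p.1 p.2 ≤
      ∑ J ∈ range (2 * R), ∑ p ∈ Finset.HasAntidiagonal.antidiagonal J, Wh x z t p.1 p.2 := by
    rw [← Finset.sum_biUnion (hd _)]
    apply Finset.sum_le_sum_of_subset_of_nonneg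
    · intro p hp
      simp only [mem_product, mem_range] at hp
      simp only [mem_biUnion, mem_range, Finset.HasAntidiagonal.mem_antidiagonal]
      exact ⟨p.1 + p.2, by omega, rfl⟩
    · intro p _ _; exact Wh_nonneg hx.le hz t p.1 p.2
  have hJ : ∀ J, ∑ p ∈ Finset.HasAntidiagonal.antidiagonal J, Wh x z t p.1 p.2 =
      x ^ t * (((J + t).choose t : ℝ) * (2 * z) ^ J) := by
    intro J
    have h1 : ∀ p ∈ Finset.HasAntidiagonal.antidiagonal J, Wh x z t p.1 p.2 =
        x ^ t * (J + t).choose t * z ^ J * (J.choose p.1 : ℝ) := by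
      intro p hp
      have hp' := Finset.HasAntidiagonal.mem_antidiagonal.1 hp
      unfold Wh
      rw [show t + p.1 + p.2 = J + t by omega, hp']
      ring
    rw [Finset.sum_congr rfl h1, ← Finset.mul_sum]
    have h2 : ∑ p ∈ Finset.HasAntidiagonal.antidiagonal J, (J.choose p.1 : ℝ) = 2 ^ J := by
      rw [Finset.Nat.sum_antidiagonal_eq_sum_range_succ_mk]
      have := Nat.sum_range_choose J
      exact_mod_cast this
    rw [h2, mul_pow]; ring
  have hsum := hasSum_choose_mul_geometric_of_norm_lt_one (𝕜 := ℝ) t (r := 2 * z)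
    (by rw [Real.norm_of_nonneg hy0]; exact hy1)
  have htail : ∑ J ∈ range (2 * R), (((J + t).choose t : ℝ) * (2 * z) ^ J) ≤
      1 / (1 - 2 * z) ^ (t + 1) :=
    sum_le_hasSum _ (fun J _ => by positivity) hsum
  have h1z : 1 - 2 * z = x := by linarith
  rw [h1z] at htail
  rw [hbox]
  refine hle.trans ?_
  rw [Finset.sum_congr rfl fun J _ => hJ J, ← Finset.mul_sum]
  calc x ^ t * ∑ J ∈ range (2 * R), (((J + t).choose t : ℝ) * (2 * z) ^ J)
      ≤ x ^ t * (1 / x ^ (t + 1)) := by gcongr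
    _ = 1 / x := by
        field_simp
        ring

end Vale.Agent.Lib.P170T
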