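import Vale.Agent.Lib.P170T.KSat
import Vale.Agent.Lib.P170T.Cavity

/-!
# Module GOOD: polynomial concentration at good `n`, count of bad `n`.
See notes/P170T_blueprint.md, part C.
-/

open Finset Filter Topology

namespace Vale.Agent.Lib.P170T

open Vale.Agent.Lib.P170 Vale.Agent.Lib.P170B

variable {k : ℕ}

lemma W0_sub_one {n : ℕ} (hn : 2 * k ≤ n) (hk : 1 ≤ k) :
    W0 k n = 1 + (k : ℝ) / ((n : ℝ) + 1 - k) := by
  have h : (k : ℝ) * 2 ≤ n := by exact_mod_cast (by omega : k * 2 ≤ n)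
  have hk0 : (0 : ℝ) ≤ k := Nat.cast_nonneg k
  have h1 : (0 : ℝ) < (n : ℝ) + 1 - k := by linarith
  unfold W0
  field_simp
  ring

lemma W0_le_two {n : ℕ} (hn : 2 * k ≤ n) : W0 k n ≤ 2 := by
  have h : (k : ℝ) * 2 ≤ n := by exact_mod_cast (by omega : k * 2 ≤ n)
  have hk0 : (0 : ℝ) ≤ k := Nat.cast_nonneg k
  have h1 : (0 : ℝ) < (n : ℝ) + 1 - k := by linarith
  unfold W0
  rw [div_le_iff₀ h1]
  linarith

lemma W0_pos {n : ℕ} (hn : 2 * k ≤ n) : 0 < W0 k n := by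
  have h : (k : ℝ) * 2 ≤ n := by exact_mod_cast (by omega : k * 2 ≤ n)
  have hk0 : (0 : ℝ) ≤ k := Nat.cast_nonneg k
  have h1 : (0 : ℝ) < (n : ℝ) + 1 - k := by linarith
  unfold W0
  positivity

/-- One term of the telescoping sum. -/
lemma Qn_le_step (hk : 3 ≤ k) {n : ℕ} (hn : 2 * k ≤ n) :
    Qn k n ≤ (tau k n - tau k (n + 1)) + 2 * k * 2 ^ (k + 1) := by
  have h : (k : ℝ) * 2 ≤ n := by exact_mod_cast (by omega : k * 2 ≤ n)
  have hk0 : (0 : ℝ) < k := by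
    have : 0 < k := by omega
    exact_mod_cast this
  have h1 : (0 : ℝ) < (n : ℝ) + 1 - k := by linarith
  have hτ := tau_le (k := k) (n := n) (by omega) (by omega)
  have h2 : (k : ℝ) / ((n : ℝ) + 1 - k) * tau k n ≤ 2 * k * 2 ^ (k + 1) := by
    have h3 : tau k n ≤ 2 ^ k * ((n : ℝ) + 1) := by nlinarith
    have h4 : (n : ℝ) + 1 ≤ 2 * ((n : ℝ) + 1 - k) := by linarith
    have h5 : tau k n ≤ 2 ^ k * (2 * ((n : ℝ) + 1 - k)) :=
      h3.trans (mul_le_mul_of_nonneg_left h4 (by positivity))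
    calc (k : ℝ) / ((n : ℝ) + 1 - k) * tau k n
        ≤ (k : ℝ) / ((n : ℝ) + 1 - k) * (2 ^ k * (2 * ((n : ℝ) + 1 - k))) :=
          mul_le_mul_of_nonneg_left h5 (by positivity)
      _ = (k : ℝ) * 2 ^ (k + 1) := by
          rw [pow_succ]
          field_simp
      _ ≤ 2 * k * 2 ^ (k + 1) := by
          have : (0 : ℝ) < (k : ℝ) * 2 ^ (k + 1) := by positivity
          linarith
  unfold Qn
  rw [W0_sub_one hn (by omega)]
  nlinarith

/-- Telescoping the definition of `Qn` with `tau_le`. -/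
lemma sum_Qn_le (hk : 3 ≤ k) {a b : ℕ} (hab : a ≤ b) (ha : 2 * k ≤ a) :
    ∑ n ∈ Finset.Ico a b, Qn k n ≤ 2 ^ k * ((a : ℝ) + 1) + 2 * k * 2 ^ (k + 1) * ((b : ℝ) - a) := by
  have h1 : ∑ n ∈ Finset.Ico a b, Qn k n ≤
      ∑ n ∈ Finset.Ico a b, ((tau k n - tau k (n + 1)) + 2 * k * 2 ^ (k + 1)) :=
    Finset.sum_le_sum (fun n hn => Qn_le_step hk (ha.trans (Finset.mem_Ico.1 hn).1))
  refine h1.trans ?_
  have htel : ∀ b' : ℕ, a ≤ b' → ∑ n ∈ Finset.Ico a b', (tau k n - tau k (n + 1)) = tau k a - tau k b' := by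
    intro b' hb'
    induction b', hb' using Nat.le_induction with
    | base => simp
    | succ c hc ih =>
      rw [Finset.sum_Ico_succ_top hc, ih]
      ring
  rw [Finset.sum_add_distrib, Finset.sum_const, Nat.card_Ico, nsmul_eq_mul, htel b hab]
  have h2 := tau_le (k := k) (n := a) (by omega) (by omega)
  have h3 := tau_nonneg k b
  have h4 : ((b - a : ℕ) : ℝ) = (b : ℝ) - a := Nat.cast_sub hab
  rw [h4]
  nlinarith

/-- Markov: few `n` in an interval have a large `Qn`. -/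
lemma bad_count (hk : 3 ≤ k) {a b : ℕ} (hab : a ≤ b) (ha : 2 * k ≤ a) {D : ℝ} (hD : 0 < D) :
    (((Finset.Ico a b).filter (fun n => D ^ 2 < Qn k n)).card : ℝ) * D ^ 2 ≤
      2 ^ k * ((a : ℝ) + 1) + 2 * k * 2 ^ (k + 1) * ((b : ℝ) - a) := by
  refine le_trans ?_ (sum_Qn_le hk hab ha)
  have hQ : ∀ n ∈ Finset.Ico a b, 0 ≤ Qn k n := fun n hn =>
    Qn_nonneg (by omega) (by have := (Finset.mem_Ico.1 hn).1; omega)
  calc (((Finset.Ico a b).filter (fun n => D ^ 2 < Qn k n)).card : ℝ) * D ^ 2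
      = ∑ n ∈ (Finset.Ico a b).filter (fun n => D ^ 2 < Qn k n), D ^ 2 := by
        rw [Finset.sum_const, nsmul_eq_mul]
    _ ≤ ∑ n ∈ (Finset.Ico a b).filter (fun n => D ^ 2 < Qn k n), Qn k n :=
        Finset.sum_le_sum (fun n hn => (Finset.mem_filter.1 hn).2.le)
    _ ≤ ∑ n ∈ Finset.Ico a b, Qn k n :=
        Finset.sum_le_sum_of_subset_of_nonneg (Finset.filter_subset _ _) (fun n hn _ => hQ n hn)

/-- The frozen sum at `n` when `Qn k (n-1)` is small. -/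
lemma frzSum_le (hk : 3 ≤ k) {D n : ℕ} (hD : 2 * k + 2 ≤ D) (h1 : D ^ 60 ≤ 2 * n)
    (h2 : n ≤ 2 * D ^ 60) (hQ : Qn k (n - 1) ≤ (D : ℝ) ^ 2) :
    frzSum k n ≤ (2 ^ (k + 2) + 1) * (D : ℝ) ^ 31 := by
  have hDD : D ^ 2 ≤ D ^ 60 := Nat.pow_le_pow_right (by omega) (by norm_num)
  have hDD2 : 2 * (2 * k + 2) ≤ D ^ 2 := by
    have : 2 ≤ D := by omega
    nlinarith
  have hnD : 2 * (2 * k + 2) ≤ 2 * n := hDD2.trans (hDD.trans h1)
  obtain ⟨n', rfl⟩ : ∃ n', n = n' + 1 := ⟨n - 1, by omega⟩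
  have hn' : 2 * k ≤ n' := by omega
  have hk' : k ≤ n' := by omega
  simp only [Nat.add_sub_cancel] at hQ
  have hDpos : (0 : ℝ) < D := by
    have : 0 < D := by omega
    exact_mod_cast this
  have hs : (0 : ℝ) < 1 / (D : ℝ) ^ 29 := by positivity
  have hstar := star (k := k) (n := n') (by omega) hk' hs
  refine hstar.trans ?_
  have hτ := tau_le (k := k) (n := n') (by omega) hk'
  have hτ0 := tau_nonneg k n'
  have hW := W0_le_two (k := k) hn'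
  have hW0 := W0_pos (k := k) hn'
  have hN : ((n' + 1 : ℕ) : ℝ) ≤ 2 * (D : ℝ) ^ 60 := by exact_mod_cast h2
  push_cast at hN
  have h2k : (0 : ℝ) < 2 ^ k := by positivity
  have hτ2 : tau k n' ≤ 2 ^ k * (2 * (D : ℝ) ^ 60) := by
    have e : (2 : ℝ) ^ k * n' + 2 ^ k = 2 ^ k * ((n' : ℝ) + 1) := by ring
    rw [e] at hτ
    exact hτ.trans (mul_le_mul_of_nonneg_left hN h2k.le)
  have hW2 : W0 k n' * tau k n' ≤ 2 * (2 ^ k * (2 * (D : ℝ) ^ 60)) :=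
    mul_le_mul hW hτ2 hτ0 (by norm_num)
  have e1 : 1 / (D : ℝ) ^ 29 * (W0 k n' * tau k n') ≤ 2 ^ (k + 2) * (D : ℝ) ^ 31 := by
    have e2 : (2 : ℝ) ^ (k + 2) * (D : ℝ) ^ 31 =
        1 / (D : ℝ) ^ 29 * (2 * (2 ^ k * (2 * (D : ℝ) ^ 60))) := by
      rw [pow_add]
      field_simp
    rw [e2]
    exact mul_le_mul_of_nonneg_left hW2 hs.le
  have e3 : Qn k n' / (1 / (D : ℝ) ^ 29) ≤ (D : ℝ) ^ 31 := by
    rw [div_div_eq_mul_div, div_one]
    have e4 : (D : ℝ) ^ 31 = (D : ℝ) ^ 2 * (D : ℝ) ^ 29 := by ring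
    rw [e4]
    exact mul_le_mul_of_nonneg_right hQ (by positivity)
  have e5 : ((2 : ℝ) ^ (k + 2) + 1) * (D : ℝ) ^ 31 =
      2 ^ (k + 2) * (D : ℝ) ^ 31 + (D : ℝ) ^ 31 := by ring
  rw [e5]
  exact add_le_add e1 e3

/-- The right side of the Chebyshev bounds at good `n`. -/
lemma rhs_le (hk : 3 ≤ k) {D n : ℕ} (hD : 2 * k + 2 ≤ D) (h1 : D ^ 60 ≤ 2 * n)
    (h2 : n ≤ 2 * D ^ 60) (hQ : Qn k (n - 1) ≤ (D : ℝ) ^ 2) :
    tau k n ≤ ((2 : ℝ) ^ (k + 2) * (D : ℝ) ^ 20) ^ 3 ∧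
    (2 : ℝ) ^ k * n * ((2 : ℝ) ^ (k + 2) * (D : ℝ) ^ 20) * frzSum k n +
        2 ^ (k + 1) * (2 ^ k * n + 1) + 2 * 4 ^ k ≤
      ((2 : ℝ) ^ (2 * k + 3) * (2 ^ (k + 2) + 1) + 2 ^ (2 * k + 2) + 2 ^ (k + 1) + 2 * 4 ^ k) *
        (D : ℝ) ^ 111 := by
  have hDD : D ≤ D ^ 60 := Nat.le_self_pow (by norm_num) D
  have hnD : 2 * k + 2 ≤ 2 * n := hD.trans (hDD.trans h1)
  have hkn : k ≤ n := by omega
  have hD1 : (1 : ℝ) ≤ D := by
    have : 1 ≤ D := by omega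
    exact_mod_cast this
  have hn1 : (1 : ℝ) ≤ n := by
    have : 1 ≤ n := by omega
    exact_mod_cast this
  have hN : (n : ℝ) ≤ 2 * (D : ℝ) ^ 60 := by exact_mod_cast h2
  have hfr := frzSum_le hk hD h1 h2 hQ
  have h2k : (1 : ℝ) ≤ 2 ^ k := one_le_pow₀ (by norm_num)
  have hp : ∀ a b : ℕ, a ≤ b → (D : ℝ) ^ a ≤ (D : ℝ) ^ b := fun a b h => pow_le_pow_right₀ hD1 h
  constructor
  · have hτ := tau_le (k := k) (n := n) (by omega) hkn
    have e : ((2 : ℝ) ^ (k + 2) * (D : ℝ) ^ 20) ^ 3 = ((2 : ℝ) ^ (k + 2)) ^ 3 * (D : ℝ) ^ 60 := by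
      ring
    rw [e]
    have h60 : (1 : ℝ) ≤ (D : ℝ) ^ 60 := one_le_pow₀ hD1
    have h4 : (2 : ℝ) ^ k * n + 2 ^ k ≤ 2 ^ (k + 2) * (D : ℝ) ^ 60 := by
      have e2 : (2 : ℝ) ^ (k + 2) = 2 ^ k * 4 := by rw [pow_add]; norm_num
      rw [e2]
      have h5 : (n : ℝ) + 1 ≤ 4 * (D : ℝ) ^ 60 := by linarith
      have h6 := mul_le_mul_of_nonneg_left h5 (by positivity : (0 : ℝ) ≤ 2 ^ k)
      linarith
    refine hτ.trans (h4.trans ?_)
    refine mul_le_mul_of_nonneg_right ?_ (by positivity)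
    exact le_self_pow₀ (one_le_pow₀ (by norm_num)) (by norm_num)
  · set F : ℝ := frzSum k n with hF
    have hF0 : (2 : ℝ) ^ k * n * ((2 : ℝ) ^ (k + 2) * (D : ℝ) ^ 20) ≥ 0 := by positivity
    have t1 : (2 : ℝ) ^ k * n * ((2 : ℝ) ^ (k + 2) * (D : ℝ) ^ 20) * F ≤
        (2 : ℝ) ^ (2 * k + 3) * (2 ^ (k + 2) + 1) * (D : ℝ) ^ 111 := by
      calc (2 : ℝ) ^ k * n * ((2 : ℝ) ^ (k + 2) * (D : ℝ) ^ 20) * F
          ≤ (2 : ℝ) ^ k * n * ((2 : ℝ) ^ (k + 2) * (D : ℝ) ^ 20) *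
              ((2 ^ (k + 2) + 1) * (D : ℝ) ^ 31) :=
            mul_le_mul_of_nonneg_left hfr hF0
        _ ≤ (2 : ℝ) ^ k * (2 * (D : ℝ) ^ 60) * ((2 : ℝ) ^ (k + 2) * (D : ℝ) ^ 20) *
              ((2 ^ (k + 2) + 1) * (D : ℝ) ^ 31) := by
            gcongr
        _ = (2 : ℝ) ^ (2 * k + 3) * (2 ^ (k + 2) + 1) * (D : ℝ) ^ 111 := by
            have e : (2 : ℝ) ^ (2 * k + 3) = 2 ^ k * 2 * 2 ^ (k + 2) := by
              rw [show 2 * k + 3 = k + 1 + (k + 2) by ring, pow_add, pow_succ]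
            rw [e]
            ring
    have t2 : (2 : ℝ) ^ (k + 1) * (2 ^ k * n + 1) ≤
        ((2 : ℝ) ^ (2 * k + 2) + 2 ^ (k + 1)) * (D : ℝ) ^ 111 := by
      have e : (2 : ℝ) ^ (2 * k + 2) = 2 ^ (k + 1) * (2 ^ k * 2) := by
        rw [show 2 * k + 2 = k + 1 + (k + 1) by ring, pow_add, pow_succ (2 : ℝ) k]
      rw [e]
      have h60 := hp 60 111 (by norm_num)
      have h0 := hp 0 111 (by norm_num)
      rw [pow_zero] at h0
      have hb : (2 : ℝ) ^ k * n + 1 ≤ 2 ^ k * 2 * (D : ℝ) ^ 111 + (D : ℝ) ^ 111 := by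
        have h7 : (n : ℝ) ≤ 2 * (D : ℝ) ^ 111 := hN.trans (by linarith)
        have h8 := mul_le_mul_of_nonneg_left h7 (by positivity : (0 : ℝ) ≤ 2 ^ k)
        linarith
      have h9 := mul_le_mul_of_nonneg_left hb (by positivity : (0 : ℝ) ≤ 2 ^ (k + 1))
      refine h9.trans (le_of_eq ?_)
      ring
    have t3 : (2 : ℝ) * 4 ^ k ≤ 2 * 4 ^ k * (D : ℝ) ^ 111 := by
      have h0 := hp 0 111 (by norm_num)
      rw [pow_zero] at h0
      have : (0 : ℝ) < 2 * 4 ^ k := by positivity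
      nlinarith
    have e : ((2 : ℝ) ^ (2 * k + 3) * (2 ^ (k + 2) + 1) + 2 ^ (2 * k + 2) + 2 ^ (k + 1) + 2 * 4 ^ k) *
        (D : ℝ) ^ 111 = (2 : ℝ) ^ (2 * k + 3) * (2 ^ (k + 2) + 1) * (D : ℝ) ^ 111 +
          ((2 : ℝ) ^ (2 * k + 2) + 2 ^ (k + 1)) * (D : ℝ) ^ 111 + 2 * 4 ^ k * (D : ℝ) ^ 111 := by ring
    rw [e]
    linarith

/-- Polynomial concentration of the death time at `n` when `Qn k (n-1)` is small. -/
theorem conc_good (hk : 3 ≤ k) : ∃ C : ℝ, 0 < C ∧ ∃ D₀ : ℕ, ∀ D : ℕ, D₀ ≤ D → ∀ n : ℕ,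
    D ^ 60 ≤ 2 * n → n ≤ 2 * D ^ 60 → Qn k (n - 1) ≤ (D : ℝ) ^ 2 →
    (∀ m : ℕ, (m : ℝ) ≤ tau k n - n / D → 1 - satProb k n m ≤ C / (D : ℝ) ^ 7) ∧
    (∀ m : ℕ, tau k n + n / D ≤ m → satProb k n m ≤ C / (D : ℝ) ^ 7) := by
  set C₂ : ℝ := (2 : ℝ) ^ (2 * k + 3) * (2 ^ (k + 2) + 1) + 2 ^ (2 * k + 2) + 2 ^ (k + 1) + 2 * 4 ^ k
    with hC₂
  have hC₂pos : 0 < C₂ := by positivity
  refine ⟨4 * C₂, by positivity, 2 * k + 2, fun D hD n h1 h2 hQ => ?_⟩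
  obtain ⟨hϑ, hR⟩ := rhs_le hk hD h1 h2 hQ
  have hDD : D ≤ D ^ 60 := Nat.le_self_pow (by norm_num) D
  have hnD : 2 * k + 2 ≤ 2 * n := hD.trans (hDD.trans h1)
  have hkn : k ≤ n := by omega
  have hDpos : (0 : ℝ) < D := by
    have : 0 < D := by omega
    exact_mod_cast this
  have hϑ0 : (0 : ℝ) ≤ (2 : ℝ) ^ (k + 2) * (D : ℝ) ^ 20 := by positivity
  have hn60 : (D : ℝ) ^ 60 ≤ 2 * n := by exact_mod_cast h1
  -- the gap is at least `D^59 / 2`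
  have hgap : (D : ℝ) ^ 59 / 2 ≤ (n : ℝ) / D := by
    rw [le_div_iff₀ hDpos]
    have e : (D : ℝ) ^ 59 / 2 * D = (D : ℝ) ^ 60 / 2 := by ring
    rw [e]
    linarith
  have hgap2 : ∀ x : ℝ, (n : ℝ) / D ≤ x → (D : ℝ) ^ 118 / 4 ≤ x ^ 2 := by
    intro x hx
    have h3 : (D : ℝ) ^ 59 / 2 ≤ x := hgap.trans hx
    have h4 : ((D : ℝ) ^ 59 / 2) ^ 2 ≤ x ^ 2 := pow_le_pow_left₀ (by positivity) h3 2
    have e : ((D : ℝ) ^ 59 / 2) ^ 2 = (D : ℝ) ^ 118 / 4 := by ring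
    rwa [e] at h4
  have hfinal : ∀ y : ℝ, 0 ≤ y → y * ((D : ℝ) ^ 118 / 4) ≤ C₂ * (D : ℝ) ^ 111 →
      y ≤ 4 * C₂ / (D : ℝ) ^ 7 := by
    intro y hy h
    rw [le_div_iff₀ (by positivity)]
    have e : y * ((D : ℝ) ^ 118 / 4) = (y * (D : ℝ) ^ 7) * ((D : ℝ) ^ 111 / 4) := by ring
    rw [e] at h
    have e2 : C₂ * (D : ℝ) ^ 111 = (4 * C₂) * ((D : ℝ) ^ 111 / 4) := by ring
    rw [e2] at h
    exact le_of_mul_le_mul_right h (by positivity)
  have hnpos : (0 : ℝ) ≤ (n : ℝ) / D := by positivity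
  constructor
  · intro m hm
    have hm' : (m : ℝ) ≤ tau k n := by linarith
    have hc := cheb_ksat_lower hk hkn hϑ0 hϑ m hm'
    have hP : 0 ≤ 1 - satProb k n m := by linarith [satProb_le_one k n m]
    apply hfinal _ hP
    refine le_trans ?_ (hc.trans hR)
    exact mul_le_mul_of_nonneg_left (hgap2 _ (by linarith)) hP
  · intro m hm
    have hm' : tau k n ≤ (m : ℝ) := by linarith
    have hc := cheb_ksat_upper hk hkn hϑ0 hϑ m hm'
    have hP : 0 ≤ satProb k n m := satProb_nonneg k n m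
    apply hfinal _ hP
    refine le_trans ?_ (hc.trans hR)
    exact mul_le_mul_of_nonneg_left (hgap2 _ (by linarith)) hP

/-- One step of the plateau. -/
lemma delta_step_down (hk : 3 ≤ k) {i : ℕ} (hi : 2 * k ≤ i) :
    delta k (i + 1) * (1 - (k : ℝ) / i) ≤ delta k i := by
  have hi0 : (0 : ℝ) < i := by
    have : 0 < i := by omega
    exact_mod_cast this
  have h : (k : ℝ) * 2 ≤ i := by exact_mod_cast (by omega : k * 2 ≤ i)
  have hk0 : (0 : ℝ) ≤ k := Nat.cast_nonneg k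
  have h1 : (0 : ℝ) < (i : ℝ) + 1 - k := by linarith
  have hr := rise (k := k) (n := i) (by omega) (by omega)
  have hτ : 0 ≤ tau k (i + 1) := tau_nonneg _ _
  unfold W0 at hr
  unfold delta
  push_cast
  have hi1 : (0 : ℝ) < (i : ℝ) + 1 := by linarith
  have h2 : tau k (i + 1) * ((i : ℝ) + 1 - k) ≤ tau k i * ((i : ℝ) + 1) := by
    have e : (((i : ℝ) + 1) / ((i : ℝ) + 1 - k) * tau k i) * ((i : ℝ) + 1 - k) =
        tau k i * ((i : ℝ) + 1) := by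
      field_simp
    rw [← e]
    exact mul_le_mul_of_nonneg_right hr h1.le
  rw [le_div_iff₀ hi0]
  have e1 : tau k (i + 1) / ((i : ℝ) + 1) * (1 - (k : ℝ) / i) * i =
      tau k (i + 1) * ((i : ℝ) - k) / ((i : ℝ) + 1) := by
    field_simp
  rw [e1, div_le_iff₀ hi1]
  have h3 : tau k (i + 1) * ((i : ℝ) - k) ≤ tau k (i + 1) * ((i : ℝ) + 1 - k) :=
    mul_le_mul_of_nonneg_left (by linarith) hτ
  linarith

lemma delta_nonneg' (n : ℕ) : 0 ≤ delta k n := by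
  unfold delta
  exact div_nonneg (tau_nonneg k n) (Nat.cast_nonneg n)

/-- Plateau below any point: `δ` cannot rise fast, by `rise`. -/
lemma delta_plateau (hk : 3 ≤ k) {a N : ℕ} (haN : a ≤ N) (ha : 2 * k ≤ a) :
    delta k N * (1 - (k : ℝ) * ((N : ℝ) - a) / a) ≤ delta k a := by
  have ha0 : (0 : ℝ) < a := by
    have : 0 < a := by omega
    exact_mod_cast this
  induction N, haN using Nat.le_induction with
  | base => simp
  | succ N hN ih =>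
    have hN0 : (0 : ℝ) < N := by
      have : 0 < N := by omega
      exact_mod_cast this
    have hNa : (a : ℝ) ≤ N := by exact_mod_cast hN
    have hk0 : (0 : ℝ) ≤ k := Nat.cast_nonneg k
    set w : ℝ := 1 - (k : ℝ) * ((N : ℝ) - a) / a with hw
    have hstep := delta_step_down hk (i := N) (by omega)
    have e : 1 - (k : ℝ) * (((N + 1 : ℕ) : ℝ) - a) / a = w - (k : ℝ) / a := by
      rw [hw]
      push_cast
      ring
    rw [e]
    have hδ := delta_nonneg' (k := k) (N + 1)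
    have hδa := delta_nonneg' (k := k) a
    by_cases hneg : w - (k : ℝ) / a ≤ 0
    · exact (mul_nonpos_of_nonneg_of_nonpos hδ hneg).trans hδa
    · push Not at hneg
      have hka : (0 : ℝ) ≤ (k : ℝ) / a := by positivity
      have hw0 : 0 ≤ w := by linarith
      have hw1 : w ≤ 1 := by
        have : 0 ≤ (k : ℝ) * ((N : ℝ) - a) / a := by
          have : 0 ≤ (N : ℝ) - a := by linarith
          positivity
        rw [hw]
        linarith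
      have h1 : w - (k : ℝ) / a ≤ (1 - (k : ℝ) / N) * w := by
        have h2 : (k : ℝ) / N * w ≤ (k : ℝ) / a := by
          have h3 : (k : ℝ) / N ≤ (k : ℝ) / a := div_le_div_of_nonneg_left hk0 ha0 hNa
          have h4 : (k : ℝ) / N * w ≤ (k : ℝ) / N * 1 :=
            mul_le_mul_of_nonneg_left hw1 (by positivity)
          linarith
        nlinarith
      calc delta k (N + 1) * (w - (k : ℝ) / a) ≤ delta k (N + 1) * ((1 - (k : ℝ) / N) * w) :=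
            mul_le_mul_of_nonneg_left h1 hδ
        _ = (delta k (N + 1) * (1 - (k : ℝ) / N)) * w := by ring
        _ ≤ delta k N * w := mul_le_mul_of_nonneg_right hstep hw0
        _ ≤ delta k a := ih

end Vale.Agent.Lib.P170T
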