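import Vale.Agent.Lib.P170T.MergePf

/-!
# Module MERGE: sequential merging with the interpolation inequality `master` of P170B.
See notes/P170T_blueprint.md, part C.
-/

open Finset Filter Topology

namespace Vale.Agent.Lib.P170T

open Vale.Agent.Lib.P170 Vale.Agent.Lib.P170B

variable {k : ℕ}

/-- One merge, real form. -/
lemma merge_step_real (hk : 3 ≤ k) {N₁ a : ℕ} {d c₁ c₂ : ℝ} (hd : 100 ≤ d)
    (hdk : (2 : ℝ) ^ (k + 4) * (k : ℝ) ^ 6 ≤ d) (hk₁ : k ≤ N₁) (hk₂ : k ≤ a)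
    (hc₁ : 1 / d ≤ c₁) (hc₁₂ : c₁ ≤ c₂) (hc₁u : c₁ ≤ 2 ^ (k + 1)) (hBr : d ^ 59 ≤ (N₁ : ℝ))
    (hAr : d ^ 59 ≤ (a : ℝ)) (hA4r : (a : ℝ) ≤ 4 * d ^ 60) :
    satProb k N₁ ⌊c₁ * N₁⌋₊ * satProb k a ⌊c₂ * a⌋₊ - 1 / d ^ 30 ≤
      satProb k (N₁ + a) ⌊c₁ * (1 - 3 / d ^ 10) * ((N₁ + a : ℕ) : ℝ)⌋₊ := by
  have hd0 : 0 < d := by linarith
  have hd1 : 1 ≤ d := by linarith
  have hc0 : 0 < c₁ := lt_of_lt_of_le (by positivity) hc₁
  obtain ⟨ξ, hξ⟩ : ∃ ξ : ℝ, ξ = 1 / d ^ 10 := ⟨_, rfl⟩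
  obtain ⟨q, hq⟩ : ∃ q : ℝ, q = 1 - ξ := ⟨_, rfl⟩
  obtain ⟨Nr, hNr⟩ : ∃ Nr : ℝ, Nr = ((N₁ + a : ℕ) : ℝ) := ⟨_, rfl⟩
  have hNre : Nr = (N₁ : ℝ) + a := by rw [hNr]; push_cast; ring
  have hξ0 : 0 < ξ := by rw [hξ]; positivity
  have hξ1 : ξ ≤ 1 / 100 := by
    rw [hξ]
    have : (100 : ℝ) ≤ d ^ 10 := le_trans hd (le_self_pow₀ hd1 (by norm_num))
    exact one_div_le_one_div_of_le (by norm_num) this
  have hNr0 : 0 < Nr := by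
    have : 0 < d ^ 59 := by positivity
    rw [hNre]; linarith
  obtain ⟨M, hM⟩ : ∃ M : ℕ, M = ⌊c₁ * (1 - ξ) * Nr⌋₊ := ⟨_, rfl⟩
  have hinner0 : 0 ≤ c₁ * (1 - ξ) * Nr :=
    mul_nonneg (mul_nonneg hc0.le (by linarith)) hNr0.le
  have hMle : (M : ℝ) ≤ c₁ * (1 - ξ) * Nr := by rw [hM]; exact Nat.floor_le hinner0
  have hMgt : c₁ * (1 - ξ) * Nr - 1 < (M : ℝ) := by
    have := Nat.lt_floor_add_one (c₁ * (1 - ξ) * Nr)
    rw [hM]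
    linarith
  have h3ξ : 3 / d ^ 10 = 3 * ξ := by rw [hξ]; ring
  rw [← hNr, h3ξ]
  obtain ⟨J, hJ⟩ : ∃ J : ℕ, J = ⌊c₁ * (1 - 3 * ξ) * Nr⌋₊ := ⟨_, rfl⟩
  have hinner1 : 0 ≤ c₁ * (1 - 3 * ξ) * Nr :=
    mul_nonneg (mul_nonneg hc0.le (by linarith)) hNr0.le
  have hJle : (J : ℝ) ≤ c₁ * (1 - 3 * ξ) * Nr := by rw [hJ]; exact Nat.floor_le hinner1
  rw [← hJ]
  obtain ⟨t, ht_def⟩ : ∃ t : ℝ, t = c₁ * ξ * d ^ 59 - 1 := ⟨_, rfl⟩
  obtain ⟨ht, hJlt, hE1, hE2⟩ := merge_errors (d := d) (c₁ := c₁) (A := (a : ℝ)) (B := (N₁ : ℝ))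
    (Nr := Nr) (ξ := ξ) (Mr := (M : ℝ)) (Jr := (J : ℝ)) (t := t) (q := q) hd hξ hq hc₁ hBr hAr hA4r
    hNre (Nat.cast_nonneg M) hMle hMgt hJle ht_def
  have hE3 : (M : ℝ) * errTerm k q (N₁ + a) ≤ 1 / d ^ 87 := by
    unfold errTerm
    have hNge : d ^ 59 ≤ Nr := by
      have : 0 < d ^ 59 := by positivity
      rw [hNre]; linarith
    rw [← hNr]
    exact merge_err3 hk hd hdk hξ hq hc₁u hc0.le hNge (Nat.cast_nonneg M) hMle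
  have hq0 : 0 ≤ q := by rw [hq]; linarith
  have hq1 : q < 1 := by rw [hq]; linarith
  have hNcast : ((N₁ + a : ℕ) : ℝ) = Nr := hNr.symm
  have ht₁ : (M : ℝ) * ((N₁ : ℝ) / (N₁ + a : ℕ)) + t ≤ (⌊c₁ * N₁⌋₊ : ℝ) := by
    rw [hNcast]
    exact merge_size hc0.le hξ0.le hBr (Nat.cast_nonneg _) le_rfl hNr0 hMle ht_def
  have ht₂ : (M : ℝ) * ((a : ℝ) / (N₁ + a : ℕ)) + t ≤ (⌊c₂ * a⌋₊ : ℝ) := by
    rw [hNcast]
    exact merge_size hc0.le hξ0.le hAr (Nat.cast_nonneg _) hc₁₂ hNr0 hMle ht_def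
  rw [← hNcast] at hE1
  exact merge_apply hk hd hk₁ hk₂ hq0 hq1 ht hJlt ht₁ ht₂ hE1 hE2 hE3

/-- One merge. `ξ = D^{-10}`, `q = 1 - ξ`. -/
theorem merge_step (hk : 3 ≤ k) : ∃ D₀ : ℕ, ∀ D : ℕ, D₀ ≤ D → ∀ (N₁ a : ℕ) (c₁ c₂ : ℝ),
    (D : ℝ)⁻¹ ≤ c₁ → c₁ ≤ c₂ → c₁ ≤ 2 ^ (k + 1) → D ^ 59 ≤ N₁ → D ^ 59 ≤ a → a ≤ 4 * D ^ 60 →
    satProb k N₁ ⌊c₁ * N₁⌋₊ * satProb k a ⌊c₂ * a⌋₊ - 1 / (D : ℝ) ^ 30 ≤
      satProb k (N₁ + a) ⌊c₁ * (1 - 3 / (D : ℝ) ^ 10) * ((N₁ + a : ℕ) : ℝ)⌋₊ := by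
  refine ⟨100 + 2 ^ (k + 4) * k ^ 6 + k, ?_⟩
  intro D hD N₁ a c₁ c₂ hc₁ hc₁₂ hc₁u hN₁ ha ha4
  have hDr : ((100 + 2 ^ (k + 4) * k ^ 6 + k : ℕ) : ℝ) ≤ (D : ℝ) := by exact_mod_cast hD
  push_cast at hDr
  have hk0r : (0 : ℝ) ≤ (k : ℝ) := by positivity
  have hprod0 : (0 : ℝ) ≤ (2 : ℝ) ^ (k + 4) * (k : ℝ) ^ 6 := by positivity
  have hd : (100 : ℝ) ≤ (D : ℝ) := by linarith
  have hdk : (2 : ℝ) ^ (k + 4) * (k : ℝ) ^ 6 ≤ (D : ℝ) := by linarith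
  have hkD : k ≤ D := by omega
  have hDpow : D ≤ D ^ 59 := Nat.le_self_pow (by norm_num) D
  have hk₁ : k ≤ N₁ := by omega
  have hk₂ : k ≤ a := by omega
  have hBr : (D : ℝ) ^ 59 ≤ (N₁ : ℝ) := by exact_mod_cast hN₁
  have hAr : (D : ℝ) ^ 59 ≤ (a : ℝ) := by exact_mod_cast ha
  have hA4r : (a : ℝ) ≤ 4 * (D : ℝ) ^ 60 := by exact_mod_cast ha4
  exact merge_step_real hk hd hdk hk₁ hk₂ (by rwa [one_div]) hc₁₂ hc₁u hBr hAr hA4r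

/-- Merging a list of parts of size about `D^60`. -/
theorem merge_list (hk : 3 ≤ k) : ∃ D₀ : ℕ, ∀ D : ℕ, D₀ ≤ D → ∀ (l : List ℕ) (c e : ℝ),
    l ≠ [] → 2 * (D : ℝ)⁻¹ ≤ c → c ≤ 2 ^ (k + 1) → l.length ≤ 4 * D ^ 6 → 0 ≤ e →
    (∀ x ∈ l, D ^ 59 ≤ x ∧ x ≤ 4 * D ^ 60 ∧ 1 - e ≤ satProb k x ⌊c * x⌋₊) →
    1 - (l.length : ℝ) * (e + 1 / (D : ℝ) ^ 30) ≤
      satProb k l.sum ⌊c * (1 - 12 / (D : ℝ) ^ 4) * (l.sum : ℝ)⌋₊ := by
  obtain ⟨D₁, hD₁⟩ := merge_step hk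
  refine ⟨D₁ + k + 100, ?_⟩
  intro D hD l c e hl hc hcu hlen he hx
  have hDD₁ : D₁ ≤ D := by omega
  have hd : (100 : ℝ) ≤ (D : ℝ) := by
    have : ((100 : ℕ) : ℝ) ≤ (D : ℝ) := by
      exact_mod_cast (by omega : 100 ≤ D)
    simpa using this
  have hd0 : (0 : ℝ) < (D : ℝ) := by linarith
  have hd1 : (1 : ℝ) ≤ (D : ℝ) := by linarith
  have hkD : k ≤ D := by omega
  obtain ⟨ξ, hξ⟩ : ∃ ξ : ℝ, ξ = 3 / (D : ℝ) ^ 10 := ⟨_, rfl⟩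
  have hd10 : (100 : ℝ) ≤ (D : ℝ) ^ 10 := le_trans hd (le_self_pow₀ hd1 (by norm_num))
  have hξ0 : 0 ≤ ξ := by rw [hξ]; positivity
  have hξ1 : ξ ≤ 1 := by
    rw [hξ, div_le_one (by positivity)]
    linarith
  have hc0 : 0 < c := lt_of_lt_of_le (by positivity) hc
  have hDinv : 0 < (D : ℝ)⁻¹ := by positivity
  -- Bernoulli: the decayed constant stays above `1 - 12 / D^4`
  have hbern : ∀ r : ℕ, r ≤ 4 * D ^ 6 → 1 - 12 / (D : ℝ) ^ 4 ≤ (1 - ξ) ^ r := by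
    intro r hr
    have h1 : 1 + (r : ℝ) * (-ξ) ≤ (1 + (-ξ)) ^ r :=
      one_add_mul_le_pow (by linarith) r
    have hrr : (r : ℝ) ≤ 4 * (D : ℝ) ^ 6 := by exact_mod_cast hr
    have h2 : (r : ℝ) * ξ ≤ 12 / (D : ℝ) ^ 4 := by
      have : (r : ℝ) * ξ ≤ (4 * (D : ℝ) ^ 6) * ξ := mul_le_mul_of_nonneg_right hrr hξ0
      have e : (4 * (D : ℝ) ^ 6) * ξ = 12 / (D : ℝ) ^ 4 := by
        rw [hξ]; field_simp; norm_num
      linarith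
    have e : (1 - ξ) = 1 + (-ξ) := by ring
    rw [e]
    nlinarith
  have hhalf : (1 : ℝ) / 2 ≤ 1 - 12 / (D : ℝ) ^ 4 := by
    have h4 : (100 : ℝ) ≤ (D : ℝ) ^ 4 := le_trans hd (le_self_pow₀ hd1 (by norm_num))
    have : 12 / (D : ℝ) ^ 4 ≤ 1 / 2 := by
      rw [div_le_div_iff₀ (by positivity) (by norm_num)]
      linarith
    linarith
  -- the main induction
  have hmain : ∀ l : List ℕ, l ≠ [] → l.length ≤ 4 * D ^ 6 →
      (∀ x ∈ l, D ^ 59 ≤ x ∧ x ≤ 4 * D ^ 60 ∧ 1 - e ≤ satProb k x ⌊c * x⌋₊) →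
      D ^ 59 ≤ l.sum ∧ 1 - (l.length : ℝ) * (e + 1 / (D : ℝ) ^ 30) ≤
        satProb k l.sum ⌊c * (1 - ξ) ^ (l.length - 1) * (l.sum : ℝ)⌋₊ := by
    intro l
    induction l with
    | nil => intro h; exact absurd rfl h
    | cons a l ih =>
      intro _ hlen' hx'
      have ha := hx' a (by simp)
      by_cases hnil : l = []
      · subst hnil
        have hpos : 0 ≤ 1 / (D : ℝ) ^ 30 := by positivity
        simp only [List.length_cons, List.length_nil, zero_add, Nat.cast_one, one_mul,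
          List.sum_cons, List.sum_nil, add_zero, Nat.sub_self, pow_zero, mul_one]
        exact ⟨ha.1, by linarith [ha.2.2]⟩
      · have hlenl : l.length ≤ 4 * D ^ 6 := by
          simp only [List.length_cons] at hlen'
          omega
        obtain ⟨hs, ih'⟩ := ih hnil hlenl (fun x hx => hx' x (List.mem_cons_of_mem _ hx))
        have hlpos : 1 ≤ l.length := List.length_pos_iff.2 hnil
        have hb := hbern (l.length - 1) (by omega)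
        obtain ⟨c₁, hc₁def⟩ : ∃ c₁ : ℝ, c₁ = c * (1 - ξ) ^ (l.length - 1) := ⟨_, rfl⟩
        rw [← hc₁def] at ih'
        have hpow0 : 0 ≤ (1 - ξ) ^ (l.length - 1) := pow_nonneg (by linarith) _
        have hpow1 : (1 - ξ) ^ (l.length - 1) ≤ 1 := pow_le_one₀ (by linarith) (by linarith)
        have hc₁c : c₁ ≤ c := by
          rw [hc₁def]
          exact mul_le_of_le_one_right hc0.le hpow1
        have hc₁lo : (D : ℝ)⁻¹ ≤ c₁ := by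
          rw [hc₁def]
          have h1 : (1 : ℝ) / 2 ≤ (1 - ξ) ^ (l.length - 1) := by linarith
          have h2 : 2 * (D : ℝ)⁻¹ * (1 / 2) ≤ c * (1 - ξ) ^ (l.length - 1) :=
            mul_le_mul hc (by linarith) (by norm_num) hc0.le
          linarith
        have hstep := hD₁ D hDD₁ l.sum a c₁ c hc₁lo hc₁c (hc₁c.trans hcu) hs ha.1 ha.2.1
        have hsum : (a :: l).sum = l.sum + a := by
          simp [List.sum_cons, add_comm]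
        have hlenc : (a :: l).length = l.length + 1 := by simp
        rw [hsum, hlenc]
        refine ⟨by omega, ?_⟩
        have hpowe : c * (1 - ξ) ^ (l.length + 1 - 1) = c₁ * (1 - 3 / (D : ℝ) ^ 10) := by
          rw [hc₁def, ← hξ]
          have : l.length + 1 - 1 = (l.length - 1) + 1 := by omega
          rw [this, pow_succ]
          ring
        rw [hpowe]
        refine le_trans ?_ hstep
        have hP1 := satProb_le_one k l.sum ⌊c₁ * (l.sum : ℝ)⌋₊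
        have hP10 := satProb_nonneg k l.sum ⌊c₁ * (l.sum : ℝ)⌋₊
        have hP2 := satProb_le_one k a ⌊c * (a : ℝ)⌋₊
        have hP20 := satProb_nonneg k a ⌊c * (a : ℝ)⌋₊
        have hprod : satProb k l.sum ⌊c₁ * (l.sum : ℝ)⌋₊ + satProb k a ⌊c * (a : ℝ)⌋₊ - 1 ≤
            satProb k l.sum ⌊c₁ * (l.sum : ℝ)⌋₊ * satProb k a ⌊c * (a : ℝ)⌋₊ := by
          nlinarith [mul_nonneg (sub_nonneg.2 hP1) (sub_nonneg.2 hP2)]
        rw [show (((l.length + 1 : ℕ)) : ℝ) = (l.length : ℝ) + 1 by push_cast; ring]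
        have h2 := ha.2.2
        linarith
  obtain ⟨hs, hm⟩ := hmain l hl hlen hx
  refine hm.trans ?_
  have hcardpos : 0 < Fintype.card (ProperClause k l.sum) := by
    apply card_pos_of_le
    have : D ≤ D ^ 59 := Nat.le_self_pow (by norm_num) D
    omega
  apply satProb_antitone hcardpos
  apply Nat.floor_le_floor
  have hlpos : 1 ≤ l.length := List.length_pos_iff.2 hl
  have hb := hbern (l.length - 1) (by omega)
  exact mul_le_mul_of_nonneg_right (mul_le_mul_of_nonneg_left hb hc0.le) (Nat.cast_nonneg _)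

end Vale.Agent.Lib.P170T
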