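import Vale.Agent.Lib.P170T.Defs

/-!
# Numerics for the merge step
-/

open Finset Filter Topology

namespace Vale.Agent.Lib.P170T

open Vale.Agent.Lib.P170 Vale.Agent.Lib.P170B

variable {k : ℕ}

/-- The error budget of one merge, in terms of real parameters. -/
lemma merge_errors {d c₁ A B Nr ξ Mr Jr t q : ℝ} (hd : 100 ≤ d) (hξ : ξ = 1 / d ^ 10)
    (hq : q = 1 - ξ)
    (hc₁ : 1 / d ≤ c₁) (hB : d ^ 59 ≤ B) (hA : d ^ 59 ≤ A) (hA4 : A ≤ 4 * d ^ 60)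
    (hNr : Nr = B + A) (hMr0 : 0 ≤ Mr) (hMr : Mr ≤ c₁ * (1 - ξ) * Nr)
    (hMr' : c₁ * (1 - ξ) * Nr - 1 < Mr) (hJr : Jr ≤ c₁ * (1 - 3 * ξ) * Nr)
    (ht : t = c₁ * ξ * d ^ 59 - 1) :
    0 < t ∧ Jr < Mr * q ∧ (Mr * (B / Nr) * (A / Nr)) / t ^ 2 ≤ 16 / d ^ 37 ∧
      (Mr * q * (1 - q)) / (Mr * q - Jr) ^ 2 ≤ 4 / d ^ 48 := by
  have hd0 : 0 < d := by linarith
  have hd1 : 1 ≤ d := by linarith
  have hξ0 : 0 < ξ := by rw [hξ]; positivity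
  have hξ1 : ξ ≤ 1 / 100 := by
    rw [hξ]
    have : (100 : ℝ) ≤ d ^ 10 := le_trans hd (le_self_pow₀ hd1 (by norm_num))
    exact one_div_le_one_div_of_le (by norm_num) this
  have hc0 : 0 < c₁ := lt_of_lt_of_le (by positivity) hc₁
  have hcd : 1 ≤ c₁ * d := by
    have := mul_le_mul_of_nonneg_right hc₁ hd0.le
    rwa [one_div, inv_mul_cancel₀ hd0.ne'] at this
  have hξd : ξ * d ^ 10 = 1 := by rw [hξ]; field_simp
  -- u = c₁ ξ d^59 ≥ d^48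
  set u := c₁ * ξ * d ^ 59 with hu
  have hu48 : d ^ 48 ≤ u := by
    have e : u = (c₁ * d) * (ξ * d ^ 10) * d ^ 48 := by rw [hu]; ring
    rw [e, hξd, mul_one]
    exact le_mul_of_one_le_left (by positivity) hcd
  have h48 : (2 : ℝ) ≤ d ^ 48 := by
    have : d ≤ d ^ 48 := le_self_pow₀ hd1 (by norm_num)
    linarith
  have ht2 : u / 2 ≤ t := by rw [ht]; linarith
  have hu0 : 0 < u := by linarith
  have ht0 : 0 < t := by linarith
  have hNr0 : 0 < Nr := by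
    have : 0 < d ^ 59 := by positivity
    rw [hNr]; linarith
  have hBNr : B ≤ Nr := by
    have : 0 < d ^ 59 := by positivity
    rw [hNr]; linarith
  have hANr : A ≤ Nr := by
    have : 0 < d ^ 59 := by positivity
    rw [hNr]; linarith
  have hBpos : 0 < B := lt_of_lt_of_le (by positivity) hB
  have hApos : 0 < A := lt_of_lt_of_le (by positivity) hA
  -- v = c₁ ξ Nr
  set v := c₁ * ξ * Nr with hv
  have huv : u ≤ v := by
    have h : d ^ 59 ≤ Nr := by linarith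
    rw [hu, hv]
    exact mul_le_mul_of_nonneg_left h (by positivity)
  have hv48 : d ^ 48 ≤ v := hu48.trans huv
  have hv2 : 2 ≤ v := h48.trans hv48
  -- the gap
  have hgap : v - 1 ≤ Mr * q - Jr := by
    have h1 : (c₁ * (1 - ξ) * Nr - 1) * (1 - ξ) ≤ Mr * (1 - ξ) :=
      mul_le_mul_of_nonneg_right hMr'.le (by linarith)
    have h2 : c₁ * (1 - 2 * ξ) * Nr - 1 ≤ (c₁ * (1 - ξ) * Nr - 1) * (1 - ξ) := by
      have e : (c₁ * (1 - ξ) * Nr - 1) * (1 - ξ) - (c₁ * (1 - 2 * ξ) * Nr - 1) =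
          c₁ * Nr * ξ ^ 2 + ξ := by ring
      have : 0 ≤ c₁ * Nr * ξ ^ 2 + ξ := by positivity
      linarith
    rw [hq]
    have e2 : v = c₁ * ξ * Nr := hv
    nlinarith
  have hgap2 : v / 2 ≤ Mr * q - Jr := by linarith
  have hJlt : Jr < Mr * q := by linarith
  refine ⟨ht0, hJlt, ?_, ?_⟩
  · -- first error
    have hX : Mr * (B / Nr) * (A / Nr) ≤ c₁ * A := by
      have w1 : B / Nr ≤ 1 := (div_le_one hNr0).2 hBNr
      have w10 : 0 ≤ B / Nr := by positivity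
      have w20 : 0 ≤ A / Nr := by positivity
      have h1 : Mr * (B / Nr) ≤ Mr := mul_le_of_le_one_right hMr0 w1
      have h2 : Mr ≤ c₁ * Nr := by
        have : c₁ * (1 - ξ) * Nr ≤ c₁ * Nr := by
          have : 0 ≤ c₁ * ξ * Nr := by positivity
          nlinarith
        linarith
      calc Mr * (B / Nr) * (A / Nr) ≤ (c₁ * Nr) * (A / Nr) :=
            mul_le_mul_of_nonneg_right (h1.trans h2) w20
        _ = c₁ * A := by field_simp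
    rw [div_le_div_iff₀ (by positivity) (by positivity)]
    have hu2 : (u / 2) ^ 2 ≤ t ^ 2 := pow_le_pow_left₀ (by positivity) ht2 2
    have e1 : u ^ 2 = c₁ ^ 2 * d ^ 98 := by
      have : u ^ 2 = c₁ ^ 2 * (ξ * d ^ 10) ^ 2 * d ^ 98 := by rw [hu]; ring
      rw [this, hξd]; ring
    have h3 : (Mr * (B / Nr) * (A / Nr)) * d ^ 37 ≤ (c₁ * (4 * d ^ 60)) * d ^ 37 := by
      apply mul_le_mul_of_nonneg_right _ (by positivity)
      exact hX.trans (mul_le_mul_of_nonneg_left hA4 hc0.le)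
    have h4 : (c₁ * (4 * d ^ 60)) * d ^ 37 = 4 * c₁ * d ^ 97 := by ring
    have h5 : 4 * c₁ * d ^ 97 ≤ 16 * (u / 2) ^ 2 := by
      have : 16 * (u / 2) ^ 2 = 4 * (c₁ ^ 2 * d ^ 98) := by rw [← e1]; ring
      rw [this]
      have e : 4 * (c₁ ^ 2 * d ^ 98) - 4 * c₁ * d ^ 97 = 4 * c₁ * d ^ 97 * (c₁ * d - 1) := by ring
      have : 0 ≤ 4 * c₁ * d ^ 97 * (c₁ * d - 1) :=
        mul_nonneg (by positivity) (by linarith)
      linarith
    have h6 : 16 * (u / 2) ^ 2 ≤ 16 * t ^ 2 := by linarith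
    linarith
  · -- second error
    have hq1 : 1 - q = ξ := by rw [hq]; ring
    rw [hq1]
    have hq0 : 0 ≤ q := by rw [hq]; linarith
    have hq2 : q ≤ 1 := by rw [hq]; linarith
    have hX : Mr * q * ξ ≤ v := by
      have h1 : Mr * q ≤ Mr := mul_le_of_le_one_right hMr0 hq2
      have h2 : Mr ≤ c₁ * Nr := by
        have : c₁ * (1 - ξ) * Nr ≤ c₁ * Nr := by
          have : 0 ≤ c₁ * ξ * Nr := by positivity
          nlinarith
        linarith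
      calc Mr * q * ξ ≤ (c₁ * Nr) * ξ := mul_le_mul_of_nonneg_right (h1.trans h2) hξ0.le
        _ = v := by rw [hv]; ring
    have hv0 : 0 < v := by linarith
    have hden : (v / 2) ^ 2 ≤ (Mr * q - Jr) ^ 2 := pow_le_pow_left₀ (by positivity) hgap2 2
    have hden0 : 0 < (Mr * q - Jr) ^ 2 := by
      have : 0 < Mr * q - Jr := by linarith
      positivity
    rw [div_le_div_iff₀ hden0 (by positivity)]
    have h1 : (Mr * q * ξ) * d ^ 48 ≤ v * v := by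
      calc (Mr * q * ξ) * d ^ 48 ≤ v * d ^ 48 := mul_le_mul_of_nonneg_right hX (by positivity)
        _ ≤ v * v := mul_le_mul_of_nonneg_left hv48 hv0.le
    nlinarith

/-- The third error. -/
lemma merge_err3 (hk : 3 ≤ k) {d c₁ Nr ξ Mr q : ℝ} (hd : 100 ≤ d)
    (hdk : (2 : ℝ) ^ (k + 4) * (k : ℝ) ^ 6 ≤ d) (hξ : ξ = 1 / d ^ 10)
    (hq : q = 1 - ξ) (hc₂ : c₁ ≤ 2 ^ (k + 1)) (hc0 : 0 ≤ c₁)
    (hN : d ^ 59 ≤ Nr) (hMr0 : 0 ≤ Mr) (hMr : Mr ≤ c₁ * (1 - ξ) * Nr) :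
    Mr * (2 * (k : ℝ) ^ 2 / ((1 - q) * Nr)) ^ k ≤ 1 / d ^ 87 := by
  have hd0 : 0 < d := by linarith
  have hd1 : 1 ≤ d := by linarith
  have hNr0 : 0 < Nr := lt_of_lt_of_le (by positivity) hN
  have hξ0 : 0 < ξ := by rw [hξ]; positivity
  have hq1 : 1 - q = ξ := by rw [hq]; ring
  rw [hq1]
  have hξi : 1 / ξ = d ^ 10 := by rw [hξ]; field_simp
  have hk0 : (3 : ℝ) ≤ k := by exact_mod_cast hk
  have h2k : (2 : ℝ) * (k : ℝ) ^ 2 ≤ d := by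
    have h64 : (1 : ℝ) ≤ (k : ℝ) ^ 4 := one_le_pow₀ (by linarith)
    have h2 : (2 : ℝ) ≤ 2 ^ (k + 4) := by
      have : (2 : ℝ) ^ 1 ≤ 2 ^ (k + 4) := pow_le_pow_right₀ (by norm_num) (by omega)
      simpa using this
    have hkk : (0 : ℝ) ≤ (k : ℝ) ^ 2 := by positivity
    have : (2 : ℝ) * (k : ℝ) ^ 2 ≤ 2 ^ (k + 4) * (k : ℝ) ^ 6 := by
      have e : (k : ℝ) ^ 6 = (k : ℝ) ^ 2 * (k : ℝ) ^ 4 := by ring
      rw [e]
      have : (k : ℝ) ^ 2 ≤ (k : ℝ) ^ 2 * (k : ℝ) ^ 4 := le_mul_of_one_le_right hkk h64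
      have h3 : (0 : ℝ) ≤ (k : ℝ) ^ 2 * (k : ℝ) ^ 4 := by positivity
      nlinarith
    linarith
  set b := 2 * (k : ℝ) ^ 2 / (ξ * Nr) with hb
  have hb0 : 0 ≤ b := by positivity
  have hbe : b = 2 * (k : ℝ) ^ 2 * d ^ 10 / Nr := by
    rw [hb, hξ]; field_simp
  have hb1 : b ≤ 1 := by
    rw [hbe, div_le_one hNr0]
    have h1 : 2 * (k : ℝ) ^ 2 * d ^ 10 ≤ d * d ^ 10 :=
      mul_le_mul_of_nonneg_right h2k (by positivity)
    have h2 : d * d ^ 10 ≤ d ^ 59 := by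
      have : d * d ^ 10 = d ^ 11 := by ring
      rw [this]
      exact pow_le_pow_right₀ hd1 (by norm_num)
    linarith
  have hpow : b ^ k ≤ b ^ 3 := pow_le_pow_of_le_one hb0 hb1 hk
  have hM : Mr ≤ 2 ^ (k + 1) * Nr := by
    have h1 : c₁ * (1 - ξ) * Nr ≤ c₁ * Nr := by
      have : 0 ≤ c₁ * ξ * Nr := by positivity
      nlinarith
    have h2 : c₁ * Nr ≤ 2 ^ (k + 1) * Nr := mul_le_mul_of_nonneg_right hc₂ hNr0.le
    linarith
  have h1 : Mr * b ^ k ≤ (2 ^ (k + 1) * Nr) * b ^ 3 :=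
    mul_le_mul hM hpow (by positivity) (by positivity)
  have h2 : (2 ^ (k + 1) * Nr) * b ^ 3 =
      ((2 : ℝ) ^ (k + 4) * (k : ℝ) ^ 6) * d ^ 30 / Nr ^ 2 := by
    rw [hbe]
    have : (2 : ℝ) ^ (k + 4) = 2 ^ (k + 1) * 8 := by ring
    rw [this]
    field_simp
    norm_num
  have h3 : ((2 : ℝ) ^ (k + 4) * (k : ℝ) ^ 6) * d ^ 30 / Nr ^ 2 ≤ 1 / d ^ 87 := by
    rw [div_le_div_iff₀ (by positivity) (by positivity)]
    have h4 : ((2 : ℝ) ^ (k + 4) * (k : ℝ) ^ 6) * d ^ 30 * d ^ 87 ≤ d * d ^ 30 * d ^ 87 := by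
      apply mul_le_mul_of_nonneg_right _ (by positivity)
      exact mul_le_mul_of_nonneg_right hdk (by positivity)
    have h5 : d ^ 118 ≤ Nr ^ 2 := by
      have := pow_le_pow_left₀ (by positivity) hN 2
      have e : (d ^ 59) ^ 2 = d ^ 118 := by ring
      rwa [e] at this
    have e : d * d ^ 30 * d ^ 87 = d ^ 118 := by ring
    linarith
  linarith

/-- Size condition of `master`. -/
lemma merge_size {Mr c₁ c₂ ξ Nr B d t : ℝ} (hc0 : 0 ≤ c₁) (hξ0 : 0 ≤ ξ) (hB : d ^ 59 ≤ B)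
    (hB0 : 0 ≤ B) (hc : c₁ ≤ c₂) (hNr0 : 0 < Nr) (hMle : Mr ≤ c₁ * (1 - ξ) * Nr)
    (ht : t = c₁ * ξ * d ^ 59 - 1) : Mr * (B / Nr) + t ≤ (⌊c₂ * B⌋₊ : ℝ) := by
  have h0 : Mr * (B / Nr) ≤ c₁ * (1 - ξ) * B := by
    calc Mr * (B / Nr) ≤ (c₁ * (1 - ξ) * Nr) * (B / Nr) :=
          mul_le_mul_of_nonneg_right hMle (by positivity)
      _ = c₁ * (1 - ξ) * B := by field_simp
  have h1 : c₂ * B < (⌊c₂ * B⌋₊ : ℝ) + 1 := Nat.lt_floor_add_one _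
  have h2 : c₁ * ξ * d ^ 59 ≤ c₁ * ξ * B := mul_le_mul_of_nonneg_left hB (by positivity)
  have h3 : c₁ * B ≤ c₂ * B := mul_le_mul_of_nonneg_right hc hB0
  have e : c₁ * (1 - ξ) * B = c₁ * B - c₁ * ξ * B := by ring
  rw [ht]
  linarith

/-- Final budget. -/
lemma merge_budget {d : ℝ} (hd : 100 ≤ d) : 16 / d ^ 37 + 4 / d ^ 48 + 1 / d ^ 87 ≤ 1 / d ^ 30 := by
  have hd0 : 0 < d := by linarith
  have hd1 : 1 ≤ d := by linarith
  have hd30 : 0 < d ^ 30 := by positivity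
  have e1 : 16 / d ^ 37 = (16 / d ^ 7) / d ^ 30 := by field_simp
  have e2 : 4 / d ^ 48 = (4 / d ^ 18) / d ^ 30 := by field_simp
  have e3 : 1 / d ^ 87 = (1 / d ^ 57) / d ^ 30 := by field_simp
  rw [e1, e2, e3, ← add_div, ← add_div]
  apply div_le_div_of_nonneg_right _ hd30.le
  have a1 : 16 / d ^ 7 ≤ 1 / 3 := by
    rw [div_le_div_iff₀ (by positivity) (by norm_num)]
    have : (100 : ℝ) ≤ d ^ 7 := le_trans hd (le_self_pow₀ hd1 (by norm_num))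
    linarith
  have a2 : 4 / d ^ 18 ≤ 1 / 3 := by
    rw [div_le_div_iff₀ (by positivity) (by norm_num)]
    have : (100 : ℝ) ≤ d ^ 18 := le_trans hd (le_self_pow₀ hd1 (by norm_num))
    linarith
  have a3 : 1 / d ^ 57 ≤ 1 / 3 := by
    rw [div_le_div_iff₀ (by positivity) (by norm_num)]
    have : (100 : ℝ) ≤ d ^ 57 := le_trans hd (le_self_pow₀ hd1 (by norm_num))
    linarith
  linarith

/-- Combining `master` with the errors. -/
lemma merge_apply (hk : 3 ≤ k) {N₁ a M J J₁ J₂ : ℕ} {d q t : ℝ} (hd : 100 ≤ d)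
    (hk₁ : k ≤ N₁) (hk₂ : k ≤ a) (hq0 : 0 ≤ q) (hq1 : q < 1) (ht : 0 < t)
    (hJ : (J : ℝ) < M * q)
    (ht₁ : (M : ℝ) * ((N₁ : ℝ) / (N₁ + a : ℕ)) + t ≤ J₁)
    (ht₂ : (M : ℝ) * ((a : ℝ) / (N₁ + a : ℕ)) + t ≤ J₂)
    (hE1 : ((M : ℝ) * ((N₁ : ℝ) / (N₁ + a : ℕ)) * ((a : ℝ) / (N₁ + a : ℕ))) / t ^ 2 ≤ 16 / d ^ 37)
    (hE2 : ((M : ℝ) * q * (1 - q)) / ((M : ℝ) * q - J) ^ 2 ≤ 4 / d ^ 48)
    (hE3 : (M : ℝ) * errTerm k q (N₁ + a) ≤ 1 / d ^ 87) :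
    satProb k N₁ J₁ * satProb k a J₂ - 1 / d ^ 30 ≤ satProb k (N₁ + a) J := by
  have hm := master (k := k) (n₁ := N₁) (n₂ := a) (by omega) hk₁ hk₂ hq0 hq1 (M := M) (J := J)
    (J₁ := J₁) (J₂ := J₂) ht hJ ht₁ ht₂
  have hP10 : 0 ≤ satProb k N₁ J₁ := satProb_nonneg _ _ _
  have hP11 : satProb k N₁ J₁ ≤ 1 := satProb_le_one _ _ _
  have hP20 : 0 ≤ satProb k a J₂ := satProb_nonneg _ _ _
  have hP21 : satProb k a J₂ ≤ 1 := satProb_le_one _ _ _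
  have hPP1 : satProb k N₁ J₁ * satProb k a J₂ ≤ 1 := mul_le_one₀ hP11 hP20 hP21
  have hX : 0 ≤ ((M : ℝ) * ((N₁ : ℝ) / (N₁ + a : ℕ)) * ((a : ℝ) / (N₁ + a : ℕ))) / t ^ 2 := by
    positivity
  have hPP0 : 0 ≤ satProb k N₁ J₁ * satProb k a J₂ := mul_nonneg hP10 hP20
  generalize ((M : ℝ) * ((N₁ : ℝ) / (N₁ + a : ℕ)) * ((a : ℝ) / (N₁ + a : ℕ))) / t ^ 2 = X at hm hE1 hX
  generalize satProb k N₁ J₁ * satProb k a J₂ = PP at hm hPP1 hPP0 ⊢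
  have hb := merge_budget hd
  have h : PP * X ≤ X := mul_le_of_le_one_left hX hPP1
  have e : PP * (1 - X) = PP - PP * X := by ring
  linarith

end Vale.Agent.Lib.P170T
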