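import Mathlib

/-!
# Module SUMREP: every large integer is a sum of elements of a dense subset of an interval.
See notes/P170T_blueprint.md, part C.
-/

open Finset

namespace Vale.Agent.Lib.P170T

/-- A staircase with small steps hits every window. -/
private lemma stair (B g Wlo Whi N : ℕ) (hg : g + Wlo ≤ Whi + 1) (t : ℕ)
    (h0 : B + Wlo ≤ N) (h1 : N ≤ B + t * g + Whi) :
    ∃ r, r ≤ t ∧ B + r * g + Wlo ≤ N ∧ N ≤ B + r * g + Whi := by
  induction t with
  | zero => exact ⟨0, le_refl _, by simpa using h0, by simpa using h1⟩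
  | succ t ih =>
    by_cases h : N ≤ B + t * g + Whi
    · obtain ⟨r, hr, h2, h3⟩ := ih h
      exact ⟨r, by omega, h2, h3⟩
    · refine ⟨t + 1, le_refl _, ?_, h1⟩
      have e : (t + 1) * g = t * g + g := by ring
      rw [e]
      omega

open Classical in
/-- In a short interval with few bad points there is a good point. -/
private lemma exists_good (A : ℕ → Prop) {lo hi b u : ℕ}
    (hbad : ((Finset.Icc lo hi).filter (fun x => ¬ A x)).card ≤ b)
    (hu : lo ≤ u) (hu2 : u + b ≤ hi) :
    ∃ x, A x ∧ u ≤ x ∧ x ≤ u + b := by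
  by_contra hcon
  push Not at hcon
  have hsub : Finset.Icc u (u + b) ⊆ (Finset.Icc lo hi).filter (fun x => ¬ A x) := by
    intro x hx
    rw [Finset.mem_Icc] at hx
    rw [Finset.mem_filter, Finset.mem_Icc]
    refine ⟨⟨by omega, by omega⟩, fun hA => ?_⟩
    have := hcon x hA hx.1
    omega
  have hc := Finset.card_le_card hsub
  rw [Nat.card_Icc] at hc
  omega

open Classical in
/-- The doubling step: twice a dense set covers the middle of the doubled interval. -/
private lemma two_sum (A : ℕ → Prop) {lo hi b s : ℕ}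
    (hbad : ((Finset.Icc lo hi).filter (fun x => ¬ A x)).card ≤ b)
    (h1 : 2 * lo + 2 * b ≤ s) (h2 : s + 2 * b ≤ 2 * hi) :
    ∃ x y, A x ∧ A y ∧ lo ≤ x ∧ x ≤ hi ∧ lo ≤ y ∧ y ≤ hi ∧ x + y = s := by
  set Bad := (Finset.Icc lo hi).filter (fun x => ¬ A x) with hBad
  set X : Finset ℕ := Finset.Icc (max lo (s - hi)) (min hi (s - lo)) with hX
  have hXcard : 2 * b + 1 ≤ X.card := by
    rw [hX, Nat.card_Icc]
    have hmax : max lo (s - hi) = lo ∨ max lo (s - hi) = s - hi := by
      rcases max_choice lo (s - hi) with h | h <;> simp [h]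
    have hmin : min hi (s - lo) = hi ∨ min hi (s - lo) = s - lo := by
      rcases min_choice hi (s - lo) with h | h <;> simp [h]
    have h3 : lo ≤ max lo (s - hi) := le_max_left _ _
    have h4 : s - hi ≤ max lo (s - hi) := le_max_right _ _
    have h5 : min hi (s - lo) ≤ hi := min_le_left _ _
    have h6 : min hi (s - lo) ≤ s - lo := min_le_right _ _
    rcases hmax with h | h <;> rcases hmin with h' | h' <;> rw [h, h'] at * <;> omega
  by_contra hcon
  push Not at hcon
  have hsub : X ⊆ Bad ∪ Bad.image (fun x => s - x) := by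
    intro x hx
    rw [hX, Finset.mem_Icc] at hx
    have h3 : lo ≤ max lo (s - hi) := le_max_left _ _
    have h4 : s - hi ≤ max lo (s - hi) := le_max_right _ _
    have h5 : min hi (s - lo) ≤ hi := min_le_left _ _
    have h6 : min hi (s - lo) ≤ s - lo := min_le_right _ _
    have hx1 : lo ≤ x := by omega
    have hx2 : x ≤ hi := by omega
    have hx3 : s - hi ≤ x := by omega
    have hx4 : x ≤ s - lo := by omega
    have hy1 : lo ≤ s - x := by omega
    have hy2 : s - x ≤ hi := by omega
    have hxy : x + (s - x) = s := by omega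
    by_cases hAx : A x
    · by_cases hAy : A (s - x)
      · exact absurd hxy (hcon x (s - x) hAx hAy hx1 hx2 hy1 hy2)
      · rw [Finset.mem_union]
        right
        rw [Finset.mem_image]
        refine ⟨s - x, ?_, by omega⟩
        rw [hBad, Finset.mem_filter, Finset.mem_Icc]
        exact ⟨⟨hy1, hy2⟩, hAy⟩
    · rw [Finset.mem_union]
      left
      rw [hBad, Finset.mem_filter, Finset.mem_Icc]
      exact ⟨⟨hx1, hx2⟩, hAx⟩
  have hc := Finset.card_le_card hsub
  have hu := Finset.card_union_le Bad (Bad.image (fun x => s - x))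
  have hi' : (Bad.image (fun x => s - x)).card ≤ Bad.card := Finset.card_image_le
  omega

open Classical in
/-- `A` misses at most `b` points of `[lo, hi]`, `4 b + 4 ≤ hi - lo`, and `N` is large: then `N` is
a sum of elements of `A`, with at most `N / (hi - b) + 1` terms. -/
theorem sum_rep (A : ℕ → Prop) {lo hi b N : ℕ} (hlh : lo ≤ hi)
    (hbad : ((Finset.Icc lo hi).filter (fun x => ¬ A x)).card ≤ b)
    (hb : 4 * b + 4 ≤ hi - lo)
    (hN1 : 2 * hi ^ 2 ≤ N * (hi - lo)) (hN2 : 2 * hi ≤ N) :
    ∃ l : List ℕ, l ≠ [] ∧ (∀ x ∈ l, A x ∧ lo ≤ x ∧ x ≤ hi) ∧ l.sum = N ∧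
      l.length ≤ N / (hi - b) + 1 := by
  -- notation
  obtain ⟨L, hL⟩ : ∃ L, hi = lo + L := ⟨hi - lo, by omega⟩
  have hLe : hi - lo = L := by omega
  rw [hLe] at hb hN1
  set m := hi - b with hm
  have hmpos : 0 < m := by omega
  -- the number of terms
  obtain ⟨t, ht1, ht2⟩ : ∃ t, N ≤ t * m ∧ t ≤ N / m + 1 ∧ (t - 1) * m < N := by
    refine ⟨(N + m - 1) / m, ?_, ?_⟩
    · have := Nat.div_add_mod (N + m - 1) m
      have h2 := Nat.mod_lt (N + m - 1) hmpos
      have e : (N + m - 1) / m * m = m * ((N + m - 1) / m) := by ring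
      rw [e]
      omega
    · constructor
      · have : (N + m - 1) / m ≤ N / m + 1 := by
          have e : N + m - 1 ≤ N + m := by omega
          calc (N + m - 1) / m ≤ (N + m) / m := Nat.div_le_div_right e
            _ = N / m + 1 := Nat.add_div_right N hmpos
        exact this
      · -- (t-1) m < N
        set t0 := (N + m - 1) / m with ht0
        have hmul : t0 * m ≤ N + m - 1 := Nat.div_mul_le_self _ _
        rcases t0 with _ | t1
        · simp
          have : 0 < N := by
            have : 0 < hi := by omega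
            omega
          exact this
        · have e : (t1 + 1 - 1) * m = t1 * m := by simp
          rw [e]
          have e2 : (t1 + 1) * m = t1 * m + m := by ring
          rw [e2] at hmul
          omega
  obtain ⟨ht2, ht3⟩ := ht2
  -- `t ≥ 2`
  have hNm : 2 * m ≤ N := by omega
  have ht_two : 2 ≤ t := by
    by_contra hlt
    have : t ≤ 1 := by omega
    have h1 : t * m ≤ 1 * m := Nat.mul_le_mul_right _ this
    omega
  -- lower bound `t (lo + b) ≤ N`
  have hhi_pos : 0 < hi := by omega
  have htL : 2 * hi ≤ t * L := by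
    have h1 : N * L ≤ (t * m) * L := Nat.mul_le_mul_right _ ht1
    have h2 : (t * m) * L ≤ (t * hi) * L := by
      apply Nat.mul_le_mul_right
      apply Nat.mul_le_mul_left
      omega
    have h3 : hi * (2 * hi) ≤ hi * (t * L) := by
      calc hi * (2 * hi) = 2 * hi ^ 2 := by ring
        _ ≤ N * L := hN1
        _ ≤ (t * hi) * L := h1.trans h2
        _ = hi * (t * L) := by ring
    exact Nat.le_of_mul_le_mul_left h3 hhi_pos
  obtain ⟨t', rfl⟩ : ∃ t', t = t' + 2 := ⟨t - 2, by omega⟩
  have hlow : (t' + 2) * (lo + b) ≤ N := by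
    have e1 : ((t' + 2) - 1) * m = (t' + 1) * m := by congr 1
    rw [e1] at ht3
    -- (t'+1) m < N; want (t'+2)(lo+b) ≤ N
    obtain ⟨L', hL'⟩ : ∃ L', L = 2 * b + L' := ⟨L - 2 * b, by omega⟩
    have hm' : m = lo + L - b := by omega
    have hm2 : m = lo + b + L' := by omega
    have hL2 : L ≤ 2 * L' := by omega
    have h5 : 2 * hi ≤ (t' + 2) * (2 * L') := htL.trans (Nat.mul_le_mul_left _ hL2)
    have h6 : hi ≤ (t' + 2) * L' := by
      have e : (t' + 2) * (2 * L') = 2 * ((t' + 2) * L') := by ring
      omega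
    have hmhi : m ≤ hi := by omega
    have h7 : (t' + 2) * (lo + b) + m ≤ (t' + 2) * m := by
      have e : (t' + 2) * m = (t' + 2) * (lo + b) + (t' + 2) * L' := by rw [hm2]; ring
      omega
    have e3 : (t' + 2) * m = (t' + 1) * m + m := by ring
    omega
  -- the two extreme elements
  have hbhi : lo + b ≤ hi := by omega
  obtain ⟨a, hAa, ha1, ha2⟩ := exists_good A hbad (le_refl lo) hbhi
  obtain ⟨c, hAc, hc1, hc2⟩ := exists_good A hbad (u := hi - b) (by omega) (by omega)
  have hc2' : c ≤ hi := by omega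
  have hac : a ≤ c := by omega
  obtain ⟨g, rfl⟩ : ∃ g, c = a + g := ⟨c - a, by omega⟩
  have hgL : g ≤ L := by omega
  -- the staircase
  have hstair := stair (t' * a) g (2 * lo + 2 * b) (2 * hi - 2 * b) N
    (by omega) t'
    (by
      have h1 : t' * a ≤ t' * (lo + b) := Nat.mul_le_mul_left _ ha2
      have e : (t' + 2) * (lo + b) = t' * (lo + b) + 2 * lo + 2 * b := by ring
      omega)
    (by
      have h1 : t' * m ≤ t' * (a + g) := Nat.mul_le_mul_left _ hc1
      have e : (t' + 2) * m = t' * m + 2 * m := by ring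
      have e2 : t' * (a + g) = t' * a + t' * g := by ring
      omega)
  obtain ⟨r, hr, hs1, hs2⟩ := hstair
  -- the two remaining summands
  obtain ⟨s, hs⟩ : ∃ s, N = t' * a + r * g + s := ⟨N - (t' * a + r * g), by omega⟩
  obtain ⟨x, y, hAx, hAy, hx1, hx2, hy1, hy2, hxy⟩ :=
    two_sum A (s := s) hbad (by omega) (by omega)
  obtain ⟨q, rfl⟩ : ∃ q, t' = q + r := ⟨t' - r, by omega⟩
  refine ⟨List.replicate q a ++ List.replicate r (a + g) ++ [x, y], by simp, ?_, ?_, ?_⟩
  · intro z hz
    simp only [List.mem_append, List.mem_replicate, List.mem_cons, List.not_mem_nil, or_false]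
      at hz
    rcases hz with ((⟨-, rfl⟩ | ⟨-, rfl⟩) | rfl | rfl)
    · exact ⟨hAa, ha1, by omega⟩
    · exact ⟨hAc, by omega, hc2'⟩
    · exact ⟨hAx, hx1, hx2⟩
    · exact ⟨hAy, hy1, hy2⟩
  · simp only [List.sum_append, List.sum_replicate, List.sum_cons, List.sum_nil, smul_eq_mul]
    rw [hs]
    have : (q + r) * a + r * g = q * a + r * (a + g) := by ring
    omega
  · simp only [List.length_append, List.length_replicate, List.length_cons, List.length_nil]
    omega

end Vale.Agent.Lib.P170T
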