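import Vale.Agent.Lib.P170T.Good
import Vale.Agent.Lib.P170T.SumRep
import Vale.Agent.Lib.P170T.Merge

/-!
# Module SCALE: from one `N₀` to all `N` in `[D^62, D^66]`.
See notes/P170T_blueprint.md, part C.
-/

open Finset Filter Topology

namespace Vale.Agent.Lib.P170T

open Vale.Agent.Lib.P170 Vale.Agent.Lib.P170B

variable {k : ℕ}

lemma scale_delta_nonneg (n : ℕ) : 0 ≤ delta k n :=
  div_nonneg (tau_nonneg k n) (Nat.cast_nonneg n)

lemma scale_delta_le (hk : 1 ≤ k) {n : ℕ} (hn : k ≤ n) : delta k n ≤ 2 ^ (k + 1) := by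
  unfold delta
  have hn0 : (0 : ℝ) < n := by
    have : 0 < n := by omega
    exact_mod_cast this
  rw [div_le_iff₀ hn0]
  have h1 := tau_le hk hn
  have h2 : (1 : ℝ) ≤ n := by
    have : 1 ≤ n := by omega
    exact_mod_cast this
  have h3 : (0 : ℝ) < 2 ^ k := by positivity
  rw [pow_succ]
  nlinarith

lemma scale_succ_pow_le (e : ℕ) : ∃ D₀ : ℕ, ∀ D : ℕ, D₀ ≤ D → (D + 1) ^ e ≤ 2 * D ^ e := by
  have hlim : Tendsto (fun D : ℕ => (1 + 1 / (D : ℝ)) ^ e) atTop (𝓝 ((1 + 0) ^ e)) :=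
    ((tendsto_const_nhds.add tendsto_one_div_atTop_nhds_zero_nat)).pow e
  have hlt : ((1 : ℝ) + 0) ^ e < 2 := by norm_num
  obtain ⟨D₁, hD₁⟩ := ((tendsto_order.1 hlim).2 2 hlt).exists_forall_of_atTop
  refine ⟨max D₁ 1, fun D hD => ?_⟩
  have hD0 : (0 : ℝ) < D := by
    have : 0 < D := by
      have := le_max_right D₁ 1
      omega
    exact_mod_cast this
  have h := (hD₁ D (le_trans (le_max_left _ _) hD)).le
  have h2 : ((D : ℝ) + 1) ^ e = (1 + 1 / (D : ℝ)) ^ e * (D : ℝ) ^ e := by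
    rw [← mul_pow]
    congr 1
    field_simp
  have h3 : (((D + 1) ^ e : ℕ) : ℝ) ≤ ((2 * D ^ e : ℕ) : ℝ) := by
    push_cast
    rw [h2]
    exact mul_le_mul_of_nonneg_right h (by positivity)
  exact_mod_cast h3

lemma scale_satProb_zero (k n : ℕ) : satProb k n 0 = 1 := by
  classical
  unfold satProb
  have h : (Finset.univ.filter (fun F : Fin 0 → ProperClause k n => FormulaSat F)) = Finset.univ := by
    ext F
    simp only [Finset.mem_filter, Finset.mem_univ, true_and, iff_true]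
    exact ⟨fun _ => true, fun i => i.elim0⟩
  rw [h]
  simp

lemma scale_card_pos {n : ℕ} (hn : k ≤ n) : 0 < Fintype.card (ProperClause k n) := by
  have := nonempty_clause hn
  exact Fintype.card_pos

/-- The bad elements of `[lo, hi]` are few. -/
lemma scale_bad (hk : 3 ≤ k) {lo hi : ℕ} (hlh : lo ≤ hi) (hlo : 2 * k + 1 ≤ lo) {D : ℕ} (hD : 0 < D)
    (hup : 2 ^ k * (lo : ℝ) + 2 * k * 2 ^ (k + 1) * ((hi : ℝ) - ((lo - 1 : ℕ) : ℝ))
      ≤ (2 ^ (k + 2) * D ^ 58 : ℕ) * (D : ℝ) ^ 2) :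
    ((Finset.Icc lo hi).filter (fun x => ¬ (Qn k (x - 1) ≤ (D : ℝ) ^ 2))).card ≤ 2 ^ (k + 2) * D ^ 58 := by
  classical
  have hD' : (0 : ℝ) < D := by exact_mod_cast hD
  have h := bad_count hk (a := lo - 1) (b := hi) (by omega) (by omega) (D := (D : ℝ)) hD'
  have hcast : ((lo - 1 : ℕ) : ℝ) + 1 = lo := by
    have : lo - 1 + 1 = lo := by omega
    exact_mod_cast this
  rw [hcast] at h
  have hle : ((Finset.Icc lo hi).filter (fun x => ¬ (Qn k (x - 1) ≤ (D : ℝ) ^ 2))).card ≤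
      ((Finset.Ico (lo - 1) hi).filter (fun n => (D : ℝ) ^ 2 < Qn k n)).card := by
    refine Finset.card_le_card_of_injOn (fun x => x - 1) ?_ ?_
    · intro x hx
      simp only [Finset.coe_filter, Finset.mem_Icc, Set.mem_ofPred_eq, not_le] at hx
      simp only [Finset.coe_filter, Finset.mem_Ico, Set.mem_ofPred_eq]
      refine ⟨⟨by omega, by omega⟩, hx.2⟩
    · intro x hx y hy hxy
      simp only [Finset.coe_filter, Finset.mem_Icc, Set.mem_ofPred_eq] at hx hy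
      simp only at hxy
      omega
  have hle' : (((Finset.Icc lo hi).filter (fun x => ¬ (Qn k (x - 1) ≤ (D : ℝ) ^ 2))).card : ℝ) ≤
      ((Finset.Ico (lo - 1) hi).filter (fun n => (D : ℝ) ^ 2 < Qn k n)).card := by exact_mod_cast hle
  have hpos : (0 : ℝ) < (D : ℝ) ^ 2 := by positivity
  have h2 : (((Finset.Icc lo hi).filter (fun x => ¬ (Qn k (x - 1) ≤ (D : ℝ) ^ 2))).card : ℝ) * (D : ℝ) ^ 2
      ≤ ((2 ^ (k + 2) * D ^ 58 : ℕ) : ℝ) * (D : ℝ) ^ 2 :=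
    (mul_le_mul_of_nonneg_right hle' hpos.le).trans (h.trans hup)
  have h3 := le_of_mul_le_mul_right h2 hpos
  exact_mod_cast h3

/-- The arithmetic of `delta_step`. -/
lemma scale_step_arith {N N₀ : ℕ} {y : ℝ} (hk : 3 ≤ k) (hkN : k ≤ N) (hNr : (0 : ℝ) < N)
    (hup : delta k N₀ ≤ 2 ^ (k + 1)) (hdN : 0 ≤ delta k N) (hy : 0 ≤ y)
    (h : 1 - y ≤ satProb k N ⌊(delta k N₀ - y) * N⌋₊) :
    delta k N₀ - (2 + 2 ^ (k + 1)) * y ≤ delta k N := by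
  have hp : (0 : ℝ) ≤ 2 ^ (k + 1) := by positivity
  have h7 : (2 + 2 ^ (k + 1)) * y = 2 * y + 2 ^ (k + 1) * y := by ring
  rw [h7]
  have hm : 0 ≤ 2 ^ (k + 1) * y := mul_nonneg hp hy
  by_cases hc1 : delta k N₀ - y ≤ 0
  · linarith
  by_cases hc2 : 1 ≤ y
  · have h2 : (2 : ℝ) ^ (k + 1) * 1 ≤ 2 ^ (k + 1) * y := mul_le_mul_of_nonneg_left hc2 hp
    linarith
  push Not at hc1 hc2
  generalize hx : delta k N₀ - y = x at h hc1
  have hge := tau_ge (k := k) (n := N) (by omega) hkN ⌊x * N⌋₊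
  have hfl : x * N ≤ ((⌊x * N⌋₊ : ℕ) : ℝ) + 1 := (Nat.lt_floor_add_one _).le
  have h1y : 0 ≤ 1 - y := by linarith
  have h4 : x * N * (1 - y) ≤ tau k N := by
    calc x * N * (1 - y) ≤ (((⌊x * N⌋₊ : ℕ) : ℝ) + 1) * satProb k N ⌊x * N⌋₊ :=
          mul_le_mul hfl h h1y (by positivity)
      _ ≤ tau k N := hge
  have h5 : x * (1 - y) ≤ delta k N := by
    unfold delta
    rw [le_div_iff₀ hNr]
    nlinarith
  have h6 : x * y ≤ 2 ^ (k + 1) * y := by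
    apply mul_le_mul_of_nonneg_right _ hy
    rw [← hx]
    linarith
  have h8 : x * (1 - y) = x - x * y := by ring
  rw [h8] at h5
  rw [← hx] at h5 h6
  linarith

/-- Plateau in the form needed. -/
lemma scale_plateau (hk : 3 ≤ k) {D x N₀ : ℕ} {P : ℝ} (hDr : (0 : ℝ) < D) (hxpos : (0 : ℝ) < x)
    (hxh : x ≤ N₀) (hx2k : 2 * k ≤ x) (hkN0 : k ≤ N₀)
    (h1 : (N₀ : ℝ) - x ≤ P) (h2 : P * D ≤ 2 * x) :
    delta k N₀ - 2 ^ (k + 2) * k / D ≤ delta k x := by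
  have hplat := delta_plateau hk (a := x) (N := N₀) hxh hx2k
  have hdeltaN0 : delta k N₀ ≤ 2 ^ (k + 1) := scale_delta_le (by omega) hkN0
  have hrat : (k : ℝ) * ((N₀ : ℝ) - x) / x ≤ 2 * k / D := by
    rw [div_le_div_iff₀ hxpos hDr]
    have h3 : ((N₀ : ℝ) - x) * (D : ℝ) ≤ 2 * x :=
      (mul_le_mul_of_nonneg_right h1 hDr.le).trans h2
    have hk0 : (0 : ℝ) ≤ k := Nat.cast_nonneg k
    have := mul_le_mul_of_nonneg_left h3 hk0
    nlinarith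
  refine le_trans ?_ hplat
  have h0 : (0 : ℝ) ≤ (k : ℝ) * ((N₀ : ℝ) - x) / x := by
    apply div_nonneg _ hxpos.le
    apply mul_nonneg (Nat.cast_nonneg k)
    have : (x : ℝ) ≤ N₀ := by exact_mod_cast hxh
    linarith
  have h4 : delta k N₀ * ((k : ℝ) * ((N₀ : ℝ) - x) / x) ≤ 2 ^ (k + 1) * (2 * k / D) :=
    mul_le_mul hdeltaN0 hrat h0 (by positivity)
  have h5 : (2 : ℝ) ^ (k + 1) * (2 * k / D) = 2 ^ (k + 2) * k / D := by ring
  have h6 : delta k N₀ * (1 - (k : ℝ) * ((N₀ : ℝ) - x) / x) =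
      delta k N₀ - delta k N₀ * ((k : ℝ) * ((N₀ : ℝ) - x) / x) := by ring
  rw [h6]
  linarith

lemma scale_floor {D x : ℕ} {c E : ℝ} (hxpos : (0 : ℝ) < x) (hc0 : 0 ≤ c)
    (hdx : c + 1 / D ≤ delta k x)
    (hgood : ∀ m : ℕ, (m : ℝ) ≤ tau k x - x / D → 1 - satProb k x m ≤ E) :
    1 - E ≤ satProb k x ⌊c * x⌋₊ := by
  have hfl : ((⌊c * x⌋₊ : ℕ) : ℝ) ≤ tau k x - x / D := by
    have h1 : ((⌊c * x⌋₊ : ℕ) : ℝ) ≤ c * x := Nat.floor_le (mul_nonneg hc0 hxpos.le)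
    have h2 : tau k x = delta k x * x := by
      unfold delta
      field_simp
    have h3 : c * x + x / D = (c + 1 / D) * x := by ring
    have h4 : (c + 1 / D) * x ≤ delta k x * x := mul_le_mul_of_nonneg_right hdx hxpos.le
    linarith
  have := hgood _ hfl
  linarith

/-- The decomposition of `N` into good parts near `N₀`. -/
lemma scale_list (hk : 3 ≤ k) {D N₀ N : ℕ} (hD4k : 4 * k ≤ D) (hD8 : 8 ≤ D)
    (hD2k : 4 * 2 ^ (k + 2) + 4 ≤ D) (hN0l : D ^ 60 ≤ N₀) (hN0u2 : N₀ ≤ 2 * D ^ 60)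
    (hNl : D ^ 62 ≤ N) (hNu : N ≤ D ^ 66) :
    ∃ l : List ℕ, l ≠ [] ∧ (∀ x ∈ l, Qn k (x - 1) ≤ (D : ℝ) ^ 2 ∧ D ^ 60 ≤ 2 * x ∧ x ≤ N₀ ∧
      N₀ ≤ x + D ^ 59) ∧ l.sum = N ∧ l.length ≤ 4 * D ^ 6 := by
  classical
  have hDpos : 0 < D := by omega
  have hP60 : D ^ 60 = D * D ^ 59 := by ring
  have hP59pos : 0 < D ^ 59 := Nat.pow_pos hDpos
  have hD59le : 8 * D ^ 59 ≤ D ^ 60 := by
    rw [hP60]
    exact Nat.mul_le_mul_right _ hD8
  set lo := N₀ - D ^ 59 with hlo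
  have hlo59 : D ^ 59 ≤ lo := by omega
  have hlo60 : D ^ 60 ≤ 2 * lo := by omega
  have hhilo : N₀ - lo = D ^ 59 := by omega
  have hDle59 : D ≤ D ^ 59 := Nat.le_self_pow (by norm_num) D
  have hlok : 2 * k + 1 ≤ lo := by omega
  have hNpow : D ^ 62 = D ^ 2 * D ^ 60 := by ring
  have hD60leN : 4 * D ^ 60 ≤ D ^ 62 := by
    rw [hNpow]
    apply Nat.mul_le_mul_right
    nlinarith
  have hbad : ((Finset.Icc lo N₀).filter (fun x => ¬ (Qn k (x - 1) ≤ (D : ℝ) ^ 2))).card ≤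
      2 ^ (k + 2) * D ^ 58 := by
    refine scale_bad hk (by omega) hlok hDpos ?_
    have h1 : (lo : ℝ) ≤ 2 * (D : ℝ) ^ 60 := by
      have : lo ≤ 2 * D ^ 60 := by omega
      exact_mod_cast this
    have h2 : (N₀ : ℝ) - ((lo - 1 : ℕ) : ℝ) ≤ 2 * (D : ℝ) ^ 59 := by
      have : N₀ ≤ (lo - 1) + 2 * D ^ 59 := by omega
      have h' : (N₀ : ℝ) ≤ ((lo - 1 : ℕ) : ℝ) + 2 * (D : ℝ) ^ 59 := by exact_mod_cast this
      linarith
    have h4k : 4 * (k : ℝ) ≤ D := by exact_mod_cast hD4k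
    have hk2 : (0 : ℝ) < 2 ^ k := by positivity
    push_cast
    have e1 : (2 : ℝ) ^ (k + 2) * (D : ℝ) ^ 58 * (D : ℝ) ^ 2 = 4 * 2 ^ k * (D : ℝ) ^ 60 := by
      ring
    rw [e1]
    have e2 : (2 : ℝ) * k * 2 ^ (k + 1) * ((N₀ : ℝ) - ((lo - 1 : ℕ) : ℝ)) ≤
        2 * k * 2 ^ (k + 1) * (2 * (D : ℝ) ^ 59) :=
      mul_le_mul_of_nonneg_left h2 (by positivity)
    have e3 : (2 : ℝ) * k * 2 ^ (k + 1) * (2 * (D : ℝ) ^ 59) =
        2 ^ k * (2 * (4 * k * (D : ℝ) ^ 59)) := by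
      ring
    have e4 : 4 * (k : ℝ) * (D : ℝ) ^ 59 ≤ (D : ℝ) * (D : ℝ) ^ 59 :=
      mul_le_mul_of_nonneg_right h4k (by positivity)
    have e5 : (D : ℝ) * (D : ℝ) ^ 59 = (D : ℝ) ^ 60 := by ring
    have e6 : (2 : ℝ) ^ k * (lo : ℝ) ≤ 2 ^ k * (2 * (D : ℝ) ^ 60) :=
      mul_le_mul_of_nonneg_left h1 hk2.le
    have e7 : (2 : ℝ) ^ k * (2 * (4 * k * (D : ℝ) ^ 59)) ≤ 2 ^ k * (2 * (D : ℝ) ^ 60) := by
      apply mul_le_mul_of_nonneg_left _ hk2.le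
      linarith
    nlinarith
  set b : ℕ := 2 ^ (k + 2) * D ^ 58 with hbdef
  have hbb : 4 * b + 4 ≤ N₀ - lo := by
    rw [hhilo]
    have e : D ^ 59 = D * D ^ 58 := by ring
    have hpos58 : 1 ≤ D ^ 58 := Nat.one_le_pow _ _ hDpos
    have h5 : (4 * 2 ^ (k + 2) + 4) * D ^ 58 ≤ D * D ^ 58 := Nat.mul_le_mul_right _ hD2k
    rw [e, hbdef]
    nlinarith
  have hN1 : 2 * N₀ ^ 2 ≤ N * (N₀ - lo) := by
    rw [hhilo]
    have h1 : N₀ ^ 2 ≤ (2 * D ^ 60) ^ 2 := Nat.pow_le_pow_left hN0u2 2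
    have h2 : D ^ 62 * D ^ 59 ≤ N * D ^ 59 := Nat.mul_le_mul_right _ hNl
    have h3 : 8 * D ^ 120 ≤ D ^ 121 := by
      have : D ^ 121 = D * D ^ 120 := by ring
      rw [this]
      exact Nat.mul_le_mul_right _ hD8
    have h4 : D ^ 62 * D ^ 59 = D ^ 121 := by ring
    have h5 : (2 * D ^ 60) ^ 2 = 4 * D ^ 120 := by ring
    omega
  have hN2 : 2 * N₀ ≤ N := by omega
  obtain ⟨l, hl0, hlA, hlsum, hllen⟩ := sum_rep (fun x => Qn k (x - 1) ≤ (D : ℝ) ^ 2)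
    (lo := lo) (hi := N₀) (b := b) (N := N) (by omega) hbad hbb hN1 hN2
  have hb59 : b ≤ D ^ 59 := by
    rw [hhilo] at hbb
    omega
  have hlenle : l.length ≤ 4 * D ^ 6 := by
    refine hllen.trans ?_
    have h1 : N / (N₀ - b) ≤ 2 * D ^ 6 := by
      apply Nat.div_le_of_le_mul
      have h2 : D ^ 60 ≤ 2 * (N₀ - b) := by omega
      have h3 : D ^ 66 = D ^ 60 * D ^ 6 := by ring
      calc N ≤ D ^ 66 := hNu
        _ = D ^ 60 * D ^ 6 := h3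
        _ ≤ (2 * (N₀ - b)) * D ^ 6 := Nat.mul_le_mul_right _ h2
        _ = (N₀ - b) * (2 * D ^ 6) := by ring
    have h6 : 1 ≤ D ^ 6 := Nat.one_le_pow _ _ hDpos
    omega
  refine ⟨l, hl0, fun x hx => ?_, hlsum, hlenle⟩
  obtain ⟨hAx, hlx, hxh⟩ := hlA x hx
  exact ⟨hAx, by omega, hxh, by omega⟩

/-- The final arithmetic of the main case, with the powers abstracted. -/
lemma scale_finish {d c C0 C1 C L E R dN : ℝ} {Qm : ℝ} (hd : 8 ≤ d) (hC0 : 0 < C0)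
    {A : ℝ} (hA : 1 ≤ A)
    (hCdef : C = 4 * C0 + C1 + 32 * A + 8) (hcdef : c = dN - C1 / d - 1 / d)
    (hcle : c ≤ 2 * A) (hL : L * (E + R) ≤ (4 * C0 + 4) / d) (hC1 : 0 ≤ C1)
    (hQ : Qm ≤ 1 / d) (hQ0 : 0 ≤ Qm) :
    1 - C / d ≤ 1 - L * (E + R) ∧ dN - C / d ≤ c * (1 - 12 * Qm) := by
  have hd0 : 0 < d := by linarith
  have hCD : C / d = 4 * C0 / d + C1 / d + 32 * A / d + 8 / d := by
    rw [hCdef]; ring
  constructor
  · have h1 : (4 * C0 + 4) / d ≤ C / d := by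
      apply div_le_div_of_nonneg_right _ hd0.le
      rw [hCdef]
      nlinarith
    linarith
  · have h5 : c * (12 * Qm) ≤ 2 * A * (12 * (1 / d)) :=
      mul_le_mul hcle (by linarith) (by positivity) (by positivity)
    have h6 : c * (1 - 12 * Qm) = c - c * (12 * Qm) := by ring
    rw [h6, hCD, hcdef]
    rw [hcdef] at h5
    have h7 : 2 * A * (12 * (1 / d)) = 24 * A / d := by ring
    have h9 : 24 * A / d ≤ 32 * A / d := by
      apply div_le_div_of_nonneg_right _ hd0.le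
      linarith
    have h10 : 0 ≤ 4 * C0 / d := by positivity
    have h11 : 1 / d ≤ 8 / d := by
      apply div_le_div_of_nonneg_right _ hd0.le
      norm_num
    linarith

/-- The main case, from the list of good parts. -/
lemma scale_core {D N₀ N : ℕ} {C0 C1 c C : ℝ} (hDr8 : (8 : ℝ) ≤ D) (hC0 : 0 < C0)
    (hC1 : 0 ≤ C1) (hCdef : C = 4 * C0 + C1 + 32 * 2 ^ k + 8) (hcdef : c = delta k N₀ - C1 / D - 1 / D)
    (hkN : k ≤ N) (l : List ℕ) (hlenle : (l.length : ℝ) ≤ 4 * (D : ℝ) ^ 6)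
    (hcle : c ≤ 2 ^ (k + 1))
    (hmerge : 1 - (l.length : ℝ) * (C0 / (D : ℝ) ^ 7 + 1 / (D : ℝ) ^ 30) ≤
      satProb k N ⌊c * (1 - 12 / (D : ℝ) ^ 4) * (N : ℝ)⌋₊) :
    1 - C / D ≤ satProb k N ⌊(delta k N₀ - C / D) * N⌋₊ := by
  have hDr : (0 : ℝ) < D := by linarith
  have hD1r : (1 : ℝ) ≤ D := by linarith
  have h30 : 1 / (D : ℝ) ^ 30 ≤ 1 / (D : ℝ) ^ 7 := by
    apply one_div_le_one_div_of_le (by positivity)
    exact pow_le_pow_right₀ hD1r (by norm_num)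
  have hloss : (l.length : ℝ) * (C0 / (D : ℝ) ^ 7 + 1 / (D : ℝ) ^ 30) ≤ (4 * C0 + 4) / D := by
    have h1 : C0 / (D : ℝ) ^ 7 + 1 / (D : ℝ) ^ 30 ≤ (C0 + 1) / (D : ℝ) ^ 7 := by
      rw [add_div]
      linarith
    calc (l.length : ℝ) * (C0 / (D : ℝ) ^ 7 + 1 / (D : ℝ) ^ 30)
        ≤ (4 * (D : ℝ) ^ 6) * ((C0 + 1) / (D : ℝ) ^ 7) :=
          mul_le_mul hlenle h1 (by positivity) (by positivity)
      _ = (4 * C0 + 4) / D := by
          field_simp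
  have hQ : 1 / (D : ℝ) ^ 4 ≤ 1 / D := by
    apply one_div_le_one_div_of_le hDr
    exact le_self_pow₀ hD1r (by norm_num)
  have hfin := scale_finish (d := (D : ℝ)) (c := c) (C0 := C0) (C1 := C1) (C := C)
    (L := l.length) (E := C0 / (D : ℝ) ^ 7) (R := 1 / (D : ℝ) ^ 30) (dN := delta k N₀)
    (Qm := 1 / (D : ℝ) ^ 4) (A := 2 ^ k) hDr8 hC0
    (one_le_pow₀ (by norm_num)) hCdef hcdef
    (by rw [pow_succ] at hcle; linarith) hloss hC1 hQ (by positivity)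
  have hNr : (0 : ℝ) ≤ N := Nat.cast_nonneg N
  have hcomp : (delta k N₀ - C / D) * N ≤ c * (1 - 12 / (D : ℝ) ^ 4) * (N : ℝ) := by
    apply mul_le_mul_of_nonneg_right _ hNr
    have e : (12 : ℝ) / (D : ℝ) ^ 4 = 12 * (1 / (D : ℝ) ^ 4) := by ring
    rw [e]
    exact hfin.2
  have hfloor := Nat.floor_le_floor hcomp
  have hanti := satProb_antitone (scale_card_pos hkN) hfloor
  simp only at hanti
  linarith [hfin.1]

/-- The trivial case. -/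
lemma scale_trivial {x C d : ℝ} {N : ℕ} (hneg : x - C / d ≤ 0) (hC : 0 ≤ C / d) :
    1 - C / d ≤ satProb k N ⌊(x - C / d) * N⌋₊ := by
  have hNr : (0 : ℝ) ≤ N := Nat.cast_nonneg N
  have hfl : ⌊(x - C / d) * N⌋₊ = 0 :=
    Nat.floor_of_nonpos (mul_nonpos_of_nonpos_of_nonneg hneg hNr)
  rw [hfl, scale_satProb_zero]
  linarith

/-- The satisfiable side at all `N` in a polynomial range from a single `N₀`. -/
theorem scale_main (hk : 3 ≤ k) : ∃ C : ℝ, 0 < C ∧ ∃ D₀ : ℕ, ∀ D : ℕ, D₀ ≤ D →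
    ∀ N₀ : ℕ, D ^ 60 ≤ N₀ → N₀ < (D + 1) ^ 60 → ∀ N : ℕ, D ^ 62 ≤ N → N ≤ D ^ 66 →
    1 - C / D ≤ satProb k N ⌊(delta k N₀ - C / D) * N⌋₊ := by
  classical
  obtain ⟨C0, hC0, D0c, Hc⟩ := conc_good hk
  obtain ⟨D0m, Hm⟩ := merge_list hk
  obtain ⟨D1, H1⟩ := scale_succ_pow_le 60
  have hC1 : (0 : ℝ) ≤ 2 ^ (k + 2) * k := by positivity
  refine ⟨4 * C0 + 2 ^ (k + 2) * k + 32 * 2 ^ k + 8, by positivity,
    D0c + D0m + D1 + 4 * k + 8 + (4 * 2 ^ (k + 2) + 4), ?_⟩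
  intro D hD N₀ hN0l hN0u N hNl hNu
  have hD1 : D1 ≤ D := le_trans (by omega) hD
  have hN0u2 : N₀ ≤ 2 * D ^ 60 := (Nat.lt_of_lt_of_le hN0u (H1 D hD1)).le
  clear hN0u H1
  generalize hCdef : 4 * C0 + 2 ^ (k + 2) * k + 32 * 2 ^ k + 8 = C
  have hCpos : 0 < C := by
    rw [← hCdef]
    positivity
  have hDc : D0c ≤ D := le_trans (by omega) hD
  have hDm : D0m ≤ D := le_trans (by omega) hD
  have hD4k : 4 * k ≤ D := le_trans (by omega) hD
  have hD8 : 8 ≤ D := le_trans (by omega) hD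
  have hD2k : 4 * 2 ^ (k + 2) + 4 ≤ D := le_trans (by omega) hD
  have hDpos : 0 < D := by omega
  have hDr : (0 : ℝ) < D := by exact_mod_cast hDpos
  have hD8r : (8 : ℝ) ≤ D := by exact_mod_cast hD8
  have hD59le : 8 * D ^ 59 ≤ D ^ 60 := by
    have hP60 : D ^ 60 = D * D ^ 59 := by ring
    rw [hP60]
    exact Nat.mul_le_mul_right _ hD8
  have hkD : k ≤ D := by omega
  have hDle60 : D ≤ D ^ 60 := Nat.le_self_pow (by norm_num) D
  have hDle62 : D ≤ D ^ 62 := Nat.le_self_pow (by norm_num) D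
  have hkN0 : k ≤ N₀ := by omega
  have hkN : k ≤ N := by omega
  have hdeltaN0 : delta k N₀ ≤ 2 ^ (k + 1) := scale_delta_le (by omega) hkN0
  have hCD0 : 0 ≤ C / (D : ℝ) := div_nonneg hCpos.le hDr.le
  have hinv : 2 * (D : ℝ)⁻¹ = 2 / D := by
    rw [div_eq_mul_inv]
  have hC1D : 0 ≤ (2 : ℝ) ^ (k + 2) * k / D := div_nonneg hC1 hDr.le
  have h1D : 0 ≤ 1 / (D : ℝ) := div_nonneg zero_le_one hDr.le
  have hCD : C / D = 4 * C0 / D + (2 : ℝ) ^ (k + 2) * k / D + 32 * 2 ^ k / D + 8 / D := by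
    rw [← hCdef]; ring
  have h40 : 0 ≤ 4 * C0 / (D : ℝ) := div_nonneg (by linarith) hDr.le
  have h32 : 0 ≤ 32 * (2 : ℝ) ^ k / D := div_nonneg (mul_nonneg (by norm_num) (pow_nonneg (by norm_num) k)) hDr.le
  generalize hcdef : delta k N₀ - (2 : ℝ) ^ (k + 2) * k / D - 1 / D = c
  by_cases hc : 2 * (D : ℝ)⁻¹ ≤ c
  · have hc0 : 0 ≤ c := le_trans (mul_nonneg (by norm_num) (inv_nonneg.2 hDr.le)) hc
    have hcle : c ≤ 2 ^ (k + 1) := by
      rw [← hcdef]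
      linarith
    obtain ⟨l, hl0, hlA, hlsum, hlenle⟩ := scale_list hk hD4k hD8 hD2k hN0l hN0u2 hNl hNu
    have hE0 : 0 ≤ C0 / (D : ℝ) ^ 7 := div_nonneg hC0.le (pow_nonneg hDr.le 7)
    have hparts : ∀ x ∈ l, D ^ 59 ≤ x ∧ x ≤ 4 * D ^ 60 ∧
        1 - C0 / (D : ℝ) ^ 7 ≤ satProb k x ⌊c * x⌋₊ := by
      intro x hx
      obtain ⟨hAx, h60x, hxh, hxl⟩ := hlA x hx
      have hx59 : D ^ 59 ≤ x := by omega
      have hx2 : x ≤ 2 * D ^ 60 := by omega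
      refine ⟨hx59, by omega, ?_⟩
      have hgood := (Hc D hDc x h60x hx2 hAx).1
      have hxpos : (0 : ℝ) < x := by
        have : 0 < x := by
          have : 0 < D ^ 59 := Nat.pow_pos hDpos
          omega
        exact_mod_cast this
      have h1 : (N₀ : ℝ) - x ≤ (D : ℝ) ^ 59 := by
        have h' : (N₀ : ℝ) ≤ x + (D : ℝ) ^ 59 := by exact_mod_cast hxl
        linarith
      have h2 : (D : ℝ) ^ 59 * D ≤ 2 * x := by
        have h' : (D : ℝ) ^ 60 ≤ 2 * x := by exact_mod_cast h60x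
        have e : (D : ℝ) ^ 59 * D = (D : ℝ) ^ 60 := by ring
        rw [e]
        exact h'
      have hpl := scale_plateau hk hDr hxpos hxh (by
        have : D ≤ D ^ 59 := Nat.le_self_pow (by norm_num) D
        omega) hkN0 h1 h2
      have hdx : c + 1 / D ≤ delta k x := by
        rw [← hcdef]
        linarith
      exact scale_floor hxpos hc0 hdx hgood
    have hmerge := Hm D hDm l c _ hl0 hc hcle hlenle hE0 hparts
    rw [hlsum] at hmerge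
    have hlenr : (l.length : ℝ) ≤ 4 * (D : ℝ) ^ 6 := by exact_mod_cast hlenle
    exact scale_core hD8r hC0 hC1 hCdef.symm hcdef.symm hkN l hlenr hcle hmerge
  · push Not at hc
    refine scale_trivial ?_ hCD0
    rw [hinv, ← hcdef] at hc
    rw [hCD]
    have h13 : (3 : ℝ) / D ≤ 8 / D := div_le_div_of_nonneg_right (by norm_num) hDr.le
    have h14 : (3 : ℝ) / D = 2 / D + 1 / D := by ring
    linarith

/-- Consequence for the densities. -/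
theorem delta_step (hk : 3 ≤ k) : ∃ C : ℝ, 0 < C ∧ ∃ D₀ : ℕ, ∀ D : ℕ, D₀ ≤ D →
    ∀ N₀ : ℕ, D ^ 60 ≤ N₀ → N₀ < (D + 1) ^ 60 → ∀ N : ℕ, D ^ 62 ≤ N → N ≤ D ^ 66 →
    delta k N₀ - C / D ≤ delta k N := by
  obtain ⟨C, hC, D₀, H⟩ := scale_main hk
  refine ⟨(2 + 2 ^ (k + 1)) * C, by positivity, D₀ + k + 1, ?_⟩
  intro D hD N₀ hN0l hN0u N hNl hNu
  have hD0 : D₀ ≤ D := by omega
  have hDk : k ≤ D := by omega
  have hDpos : 0 < D := by omega
  have hDr : (0 : ℝ) < D := by exact_mod_cast hDpos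
  have h := H D hD0 N₀ hN0l hN0u N hNl hNu
  clear hN0u H
  have hkN0 : k ≤ N₀ := by
    have : D ≤ D ^ 60 := Nat.le_self_pow (by norm_num) D
    omega
  have hkN : k ≤ N := by
    have : D ≤ D ^ 62 := Nat.le_self_pow (by norm_num) D
    omega
  have hNpos : 0 < N := by omega
  have hNr : (0 : ℝ) < N := by exact_mod_cast hNpos
  have hup := scale_delta_le (k := k) (by omega) hkN0
  have hdN := scale_delta_nonneg (k := k) N
  have hCD0 : 0 ≤ C / D := div_nonneg hC.le hDr.le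
  clear hN0l hNl hNu
  have e : (2 + 2 ^ (k + 1)) * C / (D : ℝ) = (2 + 2 ^ (k + 1)) * (C / D) := by ring
  rw [e]
  exact scale_step_arith hk hkN hNr hup hdN hCD0 h

end Vale.Agent.Lib.P170T
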